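import Vale.Agent.Lib.P328.CT.RowPair

/-!
# P328: the Poincare inequality of the row-pair heat bath, stated for functions on tables

The class averages on the state space `Tab r c` are rewritten as the block averages
`blockAvg r c S f` of a function `f` on all matrices.
-/

namespace Vale.Agent.Lib.P328.CT

open Finset
open scoped Classical
open Vale.Agent.Lib.P335.Bip

variable {R C : Type*} [Fintype R] [Fintype C]

/-- Sums over the class of `x` in the state space are sums over the block class. -/
theorem sum_relOut_class {r : R → ℕ} {c : C → ℕ} (S : Finset R) (g : (R → C → ℕ) → ℝ)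
    (x : Tab r c) :
    ∑ y ∈ Finset.univ.filter (fun y : Tab r c => RelOut S x y), g y.1
      = ∑ N ∈ blockClass r c S x.1, g N := by
  unfold blockClass
  rw [Finset.sum_filter, Finset.sum_filter, ← Finset.sum_coe_sort (tables r c)]
  refine Finset.sum_congr rfl (fun y _ => ?_)
  by_cases h : RelOut S x y
  · rw [if_pos h, if_pos (fun i hi => (h i hi).symm)]
  · rw [if_neg h, if_neg (fun h' => h (fun i hi => (h' i hi).symm))]

/-- The class average on the state space is the block average. -/
theorem av_relOut_eq_blockAvg {r : R → ℕ} {c : C → ℕ} (S : Finset R)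
    (f : (R → C → ℕ) → ℝ) (x : Tab r c) :
    av (RelOut S) (fun y : Tab r c => f y.1) x = blockAvg r c S f x.1 := by
  have hcard : ((Finset.univ.filter (fun y : Tab r c => RelOut S x y)).card : ℝ)
      = ((blockClass r c S x.1).card : ℝ) := by
    have h1 := sum_relOut_class S (fun _ => (1 : ℝ)) x
    rw [Finset.sum_const, Finset.sum_const, nsmul_eq_mul, nsmul_eq_mul, mul_one, mul_one] at h1
    exact h1
  show (∑ y ∈ Finset.univ.filter (fun y : Tab r c => RelOut S x y), f y.1)
      / ((Finset.univ.filter (fun y : Tab r c => RelOut S x y)).card : ℝ)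
    = (∑ N ∈ blockClass r c S x.1, f N) / ((blockClass r c S x.1).card : ℝ)
  rw [sum_relOut_class S f x, hcard]

/-- The block class of the set of all rows is the set of all tables. -/
theorem blockClass_univ (r : R → ℕ) (c : C → ℕ) (M : R → C → ℕ) :
    blockClass r c (Finset.univ : Finset R) M = tables r c := by
  unfold blockClass
  exact Finset.filter_true_of_mem (fun N _ i hi => absurd (Finset.mem_univ i) hi)

/-- The variance inside the classes, on the state space and on the set of tables. -/
theorem sum_tab_eq {r : R → ℕ} {c : C → ℕ} (S : Finset R) (f : (R → C → ℕ) → ℝ) :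
    ∑ x : Tab r c, ((fun y : Tab r c => f y.1) x - av (RelOut S) (fun y : Tab r c => f y.1) x) ^ 2
      = ∑ M ∈ tables r c, (f M - blockAvg r c S f M) ^ 2 := by
  rw [← Finset.sum_coe_sort (tables r c)]
  refine Finset.sum_congr rfl (fun x _ => ?_)
  rw [av_relOut_eq_blockAvg S f x]

/-- All rows except `u₁`, `u₂` have sum 1.  For every function `f` of the table, the variance
of `f` under the uniform distribution on the tables is at most `6 * (number of rows)` times the
sum over all pairs of rows of the mean conditional variance of `f` given the other rows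
(sums over the tables, without the normalisation by the number of tables). -/
theorem rowpair_poincare_tables {r : R → ℕ} {c : C → ℕ} (u₁ u₂ : R) (hu : u₁ ≠ u₂)
    (hunit : ∀ i, i ≠ u₁ → i ≠ u₂ → r i = 1) (f : (R → C → ℕ) → ℝ) :
    ∑ M ∈ tables r c, (f M - (∑ N ∈ tables r c, f N) / ((tables r c).card : ℝ)) ^ 2
      ≤ 6 * (Fintype.card R : ℝ) * ∑ q ∈ (Finset.univ : Finset R).powersetCard 2,
          ∑ M ∈ tables r c, (f M - blockAvg r c q f M) ^ 2 := by
  have h := rowpair_poincare u₁ u₂ hu hunit (fun y : Tab r c => f y.1)
  rw [sum_tab_eq (Finset.univ : Finset R) f] at h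
  have h2 : ∀ q ∈ (Finset.univ : Finset R).powersetCard 2,
      ∑ x : Tab r c, ((fun y : Tab r c => f y.1) x
        - av (RelOut q) (fun y : Tab r c => f y.1) x) ^ 2
      = ∑ M ∈ tables r c, (f M - blockAvg r c q f M) ^ 2 := fun q _ => sum_tab_eq q f
  rw [Finset.sum_congr rfl h2] at h
  have h3 : ∀ M ∈ tables r c, (f M - blockAvg r c (Finset.univ : Finset R) f M) ^ 2
      = (f M - (∑ N ∈ tables r c, f N) / ((tables r c).card : ℝ)) ^ 2 := by
    intro M _
    unfold blockAvg
    rw [blockClass_univ]
  rw [Finset.sum_congr rfl h3] at h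
  exact h

end Vale.Agent.Lib.P328.CT
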