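import Vale.Agent.Lib.P328.CT.Mix

/-!
# P328: an explicit polynomial bound for the mixing time of the row-pair heat bath
-/

namespace Vale.Agent.Lib.P328.CT

open Finset
open scoped Classical
open Vale.Agent.Lib.P335.Bip

variable {R C : Type*} [Fintype R] [Fintype C]

/-- The number of tables is at most the `m`-th power of `∏ j, (c j + 1)`, where `m` is the
number of rows. -/
theorem card_tab_le (r : R → ℕ) (c : C → ℕ) :
    (Fintype.card (Tab r c) : ℝ) ≤ (∏ j, ((c j : ℝ) + 1)) ^ Fintype.card R := by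
  have h1 : Fintype.card (Tab r c) = (tables r c).card := Fintype.card_coe _
  have h2 : (tables r c).card
      ≤ (Fintype.piFinset (fun _ : R =>
          Fintype.piFinset (fun j : C => Finset.range (c j + 1)))).card := by
    unfold tables
    exact Finset.card_filter_le _ _
  have h3 : (Fintype.piFinset (fun _ : R =>
      Fintype.piFinset (fun j : C => Finset.range (c j + 1)))).card
      = (∏ j, (c j + 1)) ^ Fintype.card R := by
    rw [Fintype.card_piFinset, Finset.prod_const, Finset.card_univ, Fintype.card_piFinset]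
    refine congrArg (fun z => z ^ Fintype.card R) ?_
    exact Finset.prod_congr rfl (fun j _ => Finset.card_range _)
  have h4 : Fintype.card (Tab r c) ≤ (∏ j, (c j + 1)) ^ Fintype.card R := by
    rw [h1, ← h3]
    exact h2
  have h5 : ((Fintype.card (Tab r c) : ℕ) : ℝ) ≤ (((∏ j, (c j + 1)) ^ Fintype.card R : ℕ) : ℝ) :=
    Nat.cast_le.mpr h4
  rw [Nat.cast_pow, Nat.cast_prod] at h5
  refine le_trans h5 (le_of_eq ?_)
  refine congrArg (fun z => z ^ Fintype.card R) ?_
  exact Finset.prod_congr rfl (fun j _ => by rw [Nat.cast_add, Nat.cast_one])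

/-- If `t ≥ K ((m / 2) ∑ j, log (c j + 1) + log (1 / ε))` with `K ≥ 1`, then
`sqrt |Ω| * (1 - 1 / K) ^ t ≤ ε`. -/
theorem mix_time_aux (r : R → ℕ) (c : C → ℕ) (K : ℝ) (hK1 : 1 ≤ K) (ε : ℝ) (hε : 0 < ε)
    (t : ℕ)
    (ht : K * ((Fintype.card R : ℝ) / 2 * ∑ j, Real.log ((c j : ℝ) + 1) + Real.log (1 / ε))
      ≤ t) :
    Real.sqrt (Fintype.card (Tab r c) : ℝ) * (1 - 1 / K) ^ t ≤ ε := by
  have hK : (0 : ℝ) < K := by linarith
  have hB : ∀ j : C, (0 : ℝ) < (c j : ℝ) + 1 := fun j => by positivity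
  have hprod : (0 : ℝ) < ∏ j, ((c j : ℝ) + 1) := Finset.prod_pos (fun j _ => hB j)
  have hBpos : (0 : ℝ) < (∏ j, ((c j : ℝ) + 1)) ^ Fintype.card R := pow_pos hprod _
  have hlog : ∑ j, Real.log ((c j : ℝ) + 1) = Real.log (∏ j, ((c j : ℝ) + 1)) :=
    (Real.log_prod (fun j _ => (hB j).ne')).symm
  -- the contraction factor
  have hg0 : 0 ≤ 1 - 1 / K := by
    rw [sub_nonneg, div_le_one hK]
    exact hK1
  have hg1 : 1 - 1 / K ≤ Real.exp (-(1 / K)) := by
    have := Real.add_one_le_exp (-(1 / K))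
    linarith
  have hpow : (1 - 1 / K) ^ t
      ≤ Real.exp (-((Fintype.card R : ℝ) / 2 * ∑ j, Real.log ((c j : ℝ) + 1)
          + Real.log (1 / ε))) := by
    refine le_trans (pow_le_pow_left₀ hg0 hg1 t) ?_
    rw [← Real.exp_nat_mul]
    apply Real.exp_le_exp.mpr
    have h1 : (Fintype.card R : ℝ) / 2 * ∑ j, Real.log ((c j : ℝ) + 1) + Real.log (1 / ε)
        ≤ (t : ℝ) / K := by
      rw [le_div_iff₀ hK]
      linarith
    have h2 : (t : ℝ) * -(1 / K) = -((t : ℝ) / K) := by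
      ring
    rw [h2]
    linarith
  -- the value of the exponential
  have hexp : Real.exp (-((Fintype.card R : ℝ) / 2 * ∑ j, Real.log ((c j : ℝ) + 1)
        + Real.log (1 / ε)))
      = ε / Real.sqrt ((∏ j, ((c j : ℝ) + 1)) ^ Fintype.card R) := by
    have h1 : Real.sqrt ((∏ j, ((c j : ℝ) + 1)) ^ Fintype.card R)
        = Real.exp ((Fintype.card R : ℝ) / 2 * ∑ j, Real.log ((c j : ℝ) + 1)) := by
      rw [hlog, Real.sqrt_eq_iff_mul_self_eq hBpos.le (Real.exp_pos _).le, ← Real.exp_add]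
      have h3 : (Fintype.card R : ℝ) / 2 * Real.log (∏ j, ((c j : ℝ) + 1))
          + (Fintype.card R : ℝ) / 2 * Real.log (∏ j, ((c j : ℝ) + 1))
          = (Fintype.card R : ℝ) * Real.log (∏ j, ((c j : ℝ) + 1)) := by ring
      rw [h3, ← Real.log_pow, Real.exp_log hBpos]
    rw [h1, neg_add, Real.exp_add, Real.exp_neg, Real.exp_neg, Real.exp_log (by positivity)]
    field_simp
  have hsq : Real.sqrt (Fintype.card (Tab r c) : ℝ)
      ≤ Real.sqrt ((∏ j, ((c j : ℝ) + 1)) ^ Fintype.card R) :=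
    Real.sqrt_le_sqrt (card_tab_le r c)
  have hsqpos : 0 < Real.sqrt ((∏ j, ((c j : ℝ) + 1)) ^ Fintype.card R) :=
    Real.sqrt_pos.mpr hBpos
  calc Real.sqrt (Fintype.card (Tab r c) : ℝ) * (1 - 1 / K) ^ t
      ≤ Real.sqrt ((∏ j, ((c j : ℝ) + 1)) ^ Fintype.card R)
        * (ε / Real.sqrt ((∏ j, ((c j : ℝ) + 1)) ^ Fintype.card R)) := by
        rw [← hexp]
        exact mul_le_mul hsq hpow (pow_nonneg hg0 t) (Real.sqrt_nonneg _)
    _ = ε := by
        field_simp

/-- All rows except `u₁`, `u₂` have sum 1.  After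
`t ≥ 6 m (m choose 2) ((m / 2) ∑ j, log (c j + 1) + log (1 / ε))` steps the row-pair heat bath
started from any table is within `ε` of the uniform distribution in `ℓ¹` distance. -/
theorem rowpair_mixing_time {r : R → ℕ} {c : C → ℕ} (u₁ u₂ : R) (hu : u₁ ≠ u₂)
    (hunit : ∀ i, i ≠ u₁ → i ≠ u₂ → r i = 1) (ε : ℝ) (hε : 0 < ε) (t : ℕ)
    (ht : 6 * (Fintype.card R : ℝ) * ((Fintype.card R).choose 2 : ℝ)
      * ((Fintype.card R : ℝ) / 2 * ∑ j, Real.log ((c j : ℝ) + 1) + Real.log (1 / ε)) ≤ t)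
    (x : Tab r c) :
    ∑ y, |(heatKernel ((Finset.univ : Finset R).powersetCard 2)
          (fun q => RelOut (r := r) (c := c) q) ^ t) x y - 1 / (Fintype.card (Tab r c) : ℝ)|
      ≤ ε := by
  refine le_trans (rowpair_mixing u₁ u₂ hu hunit x t) ?_
  have hcard2 : 2 ≤ Fintype.card R := by
    have h2 : ({u₁, u₂} : Finset R).card ≤ Fintype.card R := Finset.card_le_univ _
    rw [Finset.card_pair hu] at h2
    exact h2
  have hm : (2 : ℝ) ≤ (Fintype.card R : ℝ) := by exact_mod_cast hcard2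
  have hch : (1 : ℝ) ≤ ((Fintype.card R).choose 2 : ℝ) := by
    have h1 : 1 ≤ (Fintype.card R).choose 2 := Nat.choose_pos hcard2
    exact_mod_cast h1
  have hK1 : (1 : ℝ) ≤ 6 * (Fintype.card R : ℝ) * ((Fintype.card R).choose 2 : ℝ) := by
    nlinarith
  exact mix_time_aux r c _ hK1 ε hε t ht

end Vale.Agent.Lib.P328.CT
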