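import Vale.Agent.Lib.P328.CT.TwoRow
import Vale.Agent.Lib.P328.CT.MixTime
import Vale.Agent.Lib.P328.CT.Final

/-!
# P328: the 2 × 2 heat bath for tables with unit rows and two arbitrary rows

All rows except `u₁`, `u₂` have sum 1; there are at least two columns.  One step of the
2 × 2 heat bath picks a pair of rows and a pair of columns uniformly at random and replaces the
2 × 2 subtable by a uniformly random 2 × 2 table with the same row and column sums.
-/

namespace Vale.Agent.Lib.P328.CT

open Finset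
open scoped Classical
open Vale.Agent.Lib.P335.Bip

variable {R C : Type*} [Fintype R] [Fintype C]

/-- The Poincare inequality of the 2 × 2 heat bath, on the state space. -/
theorem twobytwo_poincare {r : R → ℕ} {c : C → ℕ} (u₁ u₂ : R) (hu : u₁ ≠ u₂)
    (hunit : ∀ i, i ≠ u₁ → i ≠ u₂ → r i = 1) (hC : 2 ≤ Fintype.card C) (f : Tab r c → ℝ) :
    ∑ x, (f x - av (RelOut (Finset.univ : Finset R)) f x) ^ 2
      ≤ 6 * (Fintype.card R : ℝ)
        * ∑ qp ∈ ((Finset.univ : Finset R).powersetCard 2) ×ˢ
              ((Finset.univ : Finset C).powersetCard 2),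
            ∑ x, (f x - av (RelBox qp.1 qp.2) f x) ^ 2 := by
  refine le_trans (rowpair_poincare u₁ u₂ hu hunit f) ?_
  have hm : (0 : ℝ) ≤ 6 * (Fintype.card R : ℝ) := by positivity
  refine mul_le_mul_of_nonneg_left ?_ hm
  rw [Finset.sum_product]
  refine Finset.sum_le_sum (fun q hq => ?_)
  obtain ⟨a, b, hab, rfl⟩ := Finset.card_eq_two.mp (Finset.mem_powersetCard.mp hq).2
  exact two_row_poincare hC a b hab f

/-- The mixing of the 2 × 2 heat bath. -/
theorem twobytwo_mixing {r : R → ℕ} {c : C → ℕ} (u₁ u₂ : R) (hu : u₁ ≠ u₂)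
    (hunit : ∀ i, i ≠ u₁ → i ≠ u₂ → r i = 1) (hC : 2 ≤ Fintype.card C) (x : Tab r c)
    (t : ℕ) :
    ∑ y, |(heatKernel (((Finset.univ : Finset R).powersetCard 2) ×ˢ
            ((Finset.univ : Finset C).powersetCard 2))
          (fun qp => RelBox (r := r) (c := c) qp.1 qp.2) ^ t) x y
          - 1 / (Fintype.card (Tab r c) : ℝ)|
      ≤ Real.sqrt (Fintype.card (Tab r c) : ℝ)
        * (1 - 1 / (6 * (Fintype.card R : ℝ)
            * (((Fintype.card R).choose 2 : ℝ) * ((Fintype.card C).choose 2 : ℝ)))) ^ t := by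
  have hneR : ((Finset.univ : Finset R).powersetCard 2).Nonempty :=
    ⟨{u₁, u₂}, Finset.mem_powersetCard.mpr ⟨Finset.subset_univ _, Finset.card_pair hu⟩⟩
  have hneC : ((Finset.univ : Finset C).powersetCard 2).Nonempty := by
    rw [Finset.powersetCard_nonempty, Finset.card_univ]
    exact hC
  have hne : (((Finset.univ : Finset R).powersetCard 2) ×ˢ
      ((Finset.univ : Finset C).powersetCard 2)).Nonempty := Finset.Nonempty.product hneR hneC
  have hcard2 : (2 : ℝ) ≤ (Fintype.card R : ℝ) := by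
    have h2 : ({u₁, u₂} : Finset R).card ≤ Fintype.card R := Finset.card_le_univ _
    rw [Finset.card_pair hu] at h2
    exact_mod_cast h2
  have hCp : (1 : ℝ) ≤ 6 * (Fintype.card R : ℝ) := by linarith
  have hP : ∀ f : Tab r c → ℝ,
      ∑ y, (f y - (∑ z, f z) / (Fintype.card (Tab r c) : ℝ)) ^ 2
        ≤ 6 * (Fintype.card R : ℝ)
          * ∑ qp ∈ ((Finset.univ : Finset R).powersetCard 2) ×ˢ
              ((Finset.univ : Finset C).powersetCard 2),
            ∑ y, (f y - av (RelBox qp.1 qp.2) f y) ^ 2 := by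
    intro f
    have h := twobytwo_poincare u₁ u₂ hu hunit hC f
    have h3 : ∀ y ∈ (Finset.univ : Finset (Tab r c)),
        (f y - av (RelOut (Finset.univ : Finset R)) f y) ^ 2
          = (f y - (∑ z, f z) / (Fintype.card (Tab r c) : ℝ)) ^ 2 := by
      intro y _
      rw [av_relOut_univ f y]
    rw [Finset.sum_congr rfl h3] at h
    exact h
  have key := heatKernel_mix (((Finset.univ : Finset R).powersetCard 2) ×ˢ
      ((Finset.univ : Finset C).powersetCard 2)) hne
    (fun qp => RelBox (r := r) (c := c) qp.1 qp.2) (fun qp _ => relBox_equivalence _ _)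
    (6 * (Fintype.card R : ℝ)) hCp hP x t
  rw [Finset.card_product, Finset.card_powersetCard, Finset.card_powersetCard,
    Finset.card_univ, Finset.card_univ, Nat.cast_mul] at key
  exact key

/-- An explicit polynomial bound for the mixing time of the 2 × 2 heat bath. -/
theorem twobytwo_mixing_time {r : R → ℕ} {c : C → ℕ} (u₁ u₂ : R) (hu : u₁ ≠ u₂)
    (hunit : ∀ i, i ≠ u₁ → i ≠ u₂ → r i = 1) (hC : 2 ≤ Fintype.card C) (ε : ℝ) (hε : 0 < ε)
    (t : ℕ)
    (ht : 6 * (Fintype.card R : ℝ)
        * (((Fintype.card R).choose 2 : ℝ) * ((Fintype.card C).choose 2 : ℝ))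
        * ((Fintype.card R : ℝ) / 2 * ∑ j, Real.log ((c j : ℝ) + 1) + Real.log (1 / ε)) ≤ t)
    (x : Tab r c) :
    ∑ y, |(heatKernel (((Finset.univ : Finset R).powersetCard 2) ×ˢ
            ((Finset.univ : Finset C).powersetCard 2))
          (fun qp => RelBox (r := r) (c := c) qp.1 qp.2) ^ t) x y
          - 1 / (Fintype.card (Tab r c) : ℝ)|
      ≤ ε := by
  refine le_trans (twobytwo_mixing u₁ u₂ hu hunit hC x t) ?_
  have hcard2 : 2 ≤ Fintype.card R := by
    have h2 : ({u₁, u₂} : Finset R).card ≤ Fintype.card R := Finset.card_le_univ _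
    rw [Finset.card_pair hu] at h2
    exact h2
  have hm : (2 : ℝ) ≤ (Fintype.card R : ℝ) := by exact_mod_cast hcard2
  have hch : (1 : ℝ) ≤ ((Fintype.card R).choose 2 : ℝ) := by
    have h1 : 1 ≤ (Fintype.card R).choose 2 := Nat.choose_pos hcard2
    exact_mod_cast h1
  have hchC : (1 : ℝ) ≤ ((Fintype.card C).choose 2 : ℝ) := by
    have h1 : 1 ≤ (Fintype.card C).choose 2 := Nat.choose_pos hC
    exact_mod_cast h1
  have hprod : (1 : ℝ) ≤ ((Fintype.card R).choose 2 : ℝ) * ((Fintype.card C).choose 2 : ℝ) := by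
    nlinarith
  have hK1 : (1 : ℝ) ≤ 6 * (Fintype.card R : ℝ)
      * (((Fintype.card R).choose 2 : ℝ) * ((Fintype.card C).choose 2 : ℝ)) := by
    nlinarith
  exact mix_time_aux r c _ hK1 ε hε t ht

/-- Sums over the 2 × 2 class of `x` in the state space are sums over the box class. -/
theorem sum_relBox_class {r : R → ℕ} {c : C → ℕ} (q : Finset R) (p : Finset C)
    (g : (R → C → ℕ) → ℝ) (x : Tab r c) :
    ∑ y ∈ Finset.univ.filter (fun y : Tab r c => RelBox q p x y), g y.1
      = ∑ N ∈ boxClass r c q p x.1, g N := by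
  unfold boxClass
  rw [Finset.sum_filter, Finset.sum_filter, ← Finset.sum_coe_sort (tables r c)]
  refine Finset.sum_congr rfl (fun y _ => ?_)
  by_cases h : RelBox q p x y
  · rw [if_pos h, if_pos (fun i j hij => (h i j hij).symm)]
  · rw [if_neg h, if_neg (fun h' => h (fun i j hij => (h' i j hij).symm))]

/-- The 2 × 2 class average on the state space is the box average. -/
theorem av_relBox_eq_boxAvg {r : R → ℕ} {c : C → ℕ} (q : Finset R) (p : Finset C)
    (f : (R → C → ℕ) → ℝ) (x : Tab r c) :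
    av (RelBox q p) (fun y : Tab r c => f y.1) x = boxAvg r c q p f x.1 := by
  have hcard : ((Finset.univ.filter (fun y : Tab r c => RelBox q p x y)).card : ℝ)
      = ((boxClass r c q p x.1).card : ℝ) := by
    have h1 := sum_relBox_class q p (fun _ => (1 : ℝ)) x
    rw [Finset.sum_const, Finset.sum_const, nsmul_eq_mul, nsmul_eq_mul, mul_one, mul_one] at h1
    exact h1
  show (∑ y ∈ Finset.univ.filter (fun y : Tab r c => RelBox q p x y), f y.1)
      / ((Finset.univ.filter (fun y : Tab r c => RelBox q p x y)).card : ℝ)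
    = (∑ N ∈ boxClass r c q p x.1, f N) / ((boxClass r c q p x.1).card : ℝ)
  rw [sum_relBox_class q p f x, hcard]

/-- The variance inside the 2 × 2 classes, on the state space and on the set of tables. -/
theorem sum_tab_box_eq {r : R → ℕ} {c : C → ℕ} (q : Finset R) (p : Finset C)
    (f : (R → C → ℕ) → ℝ) :
    ∑ x : Tab r c, ((fun y : Tab r c => f y.1) x
        - av (RelBox q p) (fun y : Tab r c => f y.1) x) ^ 2
      = ∑ M ∈ tables r c, (f M - boxAvg r c q p f M) ^ 2 := by
  rw [← Finset.sum_coe_sort (tables r c)]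
  refine Finset.sum_congr rfl (fun x _ => ?_)
  rw [av_relBox_eq_boxAvg q p f x]

/-- The Poincare inequality of the 2 × 2 heat bath for functions on the set of tables. -/
theorem twobytwo_poincare_tables {r : R → ℕ} {c : C → ℕ} (u₁ u₂ : R) (hu : u₁ ≠ u₂)
    (hunit : ∀ i, i ≠ u₁ → i ≠ u₂ → r i = 1) (hC : 2 ≤ Fintype.card C)
    (f : (R → C → ℕ) → ℝ) :
    ∑ M ∈ tables r c, (f M - (∑ N ∈ tables r c, f N) / ((tables r c).card : ℝ)) ^ 2
      ≤ 6 * (Fintype.card R : ℝ)
        * ∑ q ∈ (Finset.univ : Finset R).powersetCard 2,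
            ∑ p ∈ (Finset.univ : Finset C).powersetCard 2,
              ∑ M ∈ tables r c, (f M - boxAvg r c q p f M) ^ 2 := by
  have h := twobytwo_poincare u₁ u₂ hu hunit hC (fun y : Tab r c => f y.1)
  rw [sum_tab_eq (Finset.univ : Finset R) f, Finset.sum_product] at h
  have h2 : ∀ q ∈ (Finset.univ : Finset R).powersetCard 2,
      ∑ p ∈ (Finset.univ : Finset C).powersetCard 2,
        ∑ x : Tab r c, ((fun y : Tab r c => f y.1) x
          - av (RelBox q p) (fun y : Tab r c => f y.1) x) ^ 2
      = ∑ p ∈ (Finset.univ : Finset C).powersetCard 2,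
          ∑ M ∈ tables r c, (f M - boxAvg r c q p f M) ^ 2 :=
    fun q _ => Finset.sum_congr rfl (fun p _ => sum_tab_box_eq q p f)
  rw [Finset.sum_congr rfl h2] at h
  have h3 : ∀ M ∈ tables r c, (f M - blockAvg r c (Finset.univ : Finset R) f M) ^ 2
      = (f M - (∑ N ∈ tables r c, f N) / ((tables r c).card : ℝ)) ^ 2 := by
    intro M _
    unfold blockAvg
    rw [blockClass_univ]
  rw [Finset.sum_congr rfl h3] at h
  exact h

end Vale.Agent.Lib.P328.CT
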