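import Mathlib
import Vale.Agent.Lib.P335.Bip.Av
import Vale.Agent.Lib.P335.Bip.AvMore

/-!
# P328: contingency tables with prescribed row and column sums - definitions

`R` is the finite set of rows, `C` the finite set of columns.  A table is a function
`M : R → C → ℕ`.  `tables r c` is the finite set of all tables with row sums `r` and column
sums `c`.  `Tab r c` is the same set as a type (the state space of the chains).  Two tables are
related by `RelOut S` when they agree outside the rows of `S`; the class average
`av (RelOut S) f` is the conditional expectation of `f` given all rows outside `S`, for the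
uniform distribution on `tables r c` (one step of the heat bath dynamics that resamples the
rows of `S`).
-/

namespace Vale.Agent.Lib.P328.CT

open Finset
open scoped Classical
open Vale.Agent.Lib.P335.Bip

variable {R C : Type*} [Fintype R] [Fintype C]

/-- The set of all contingency tables with row sums `r` and column sums `c`. -/
noncomputable def tables (r : R → ℕ) (c : C → ℕ) : Finset (R → C → ℕ) :=
  (Fintype.piFinset (fun _ : R => Fintype.piFinset (fun j : C => Finset.range (c j + 1)))).filter
    (fun M => (∀ i, ∑ j, M i j = r i) ∧ (∀ j, ∑ i, M i j = c j))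

theorem mem_tables {r : R → ℕ} {c : C → ℕ} {M : R → C → ℕ} :
    M ∈ tables r c ↔ (∀ i, ∑ j, M i j = r i) ∧ (∀ j, ∑ i, M i j = c j) := by
  unfold tables
  rw [Finset.mem_filter]
  constructor
  · exact fun h => h.2
  · intro h
    refine ⟨?_, h⟩
    rw [Fintype.mem_piFinset]
    intro i
    rw [Fintype.mem_piFinset]
    intro j
    rw [Finset.mem_range, Nat.lt_succ_iff, ← h.2 j]
    exact Finset.single_le_sum (f := fun i => M i j) (fun _ _ => Nat.zero_le _)
      (Finset.mem_univ i)

/-- The tables with row sums `r` and column sums `c`, as a type. -/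
abbrev Tab (r : R → ℕ) (c : C → ℕ) : Type _ := {M : R → C → ℕ // M ∈ tables r c}

theorem Tab.rowSum {r : R → ℕ} {c : C → ℕ} (x : Tab r c) (i : R) : ∑ j, x.1 i j = r i :=
  (mem_tables.mp x.2).1 i

theorem Tab.colSum {r : R → ℕ} {c : C → ℕ} (x : Tab r c) (j : C) : ∑ i, x.1 i j = c j :=
  (mem_tables.mp x.2).2 j

/-- Two tables agree in every row outside `S`. -/
def RelOut {r : R → ℕ} {c : C → ℕ} (S : Finset R) (x y : Tab r c) : Prop :=
  ∀ i, i ∉ S → x.1 i = y.1 i

theorem relOut_equivalence {r : R → ℕ} {c : C → ℕ} (S : Finset R) :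
    Equivalence (RelOut (r := r) (c := c) S) :=
  ⟨fun _ _ _ => rfl, fun h i hi => (h i hi).symm, fun h1 h2 i hi => (h1 i hi).trans (h2 i hi)⟩

theorem relOut_mono {r : R → ℕ} {c : C → ℕ} {S S' : Finset R} (h : S ⊆ S') {x y : Tab r c}
    (hxy : RelOut S x y) : RelOut S' x y :=
  fun i hi => hxy i (fun hS => hi (h hS))

theorem relOut_univ {r : R → ℕ} {c : C → ℕ} (x y : Tab r c) : RelOut (Finset.univ : Finset R) x y :=
  fun i hi => absurd (Finset.mem_univ i) hi

/-- The rows moved by a set `A` of particles: the particle `u₁` stands for the two rows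
`u₁` and `u₂`. -/
noncomputable def ext (u₁ u₂ : R) (A : Finset R) : Finset R :=
  if u₁ ∈ A then insert u₂ A else A

omit [Fintype R] in
theorem subset_ext (u₁ u₂ : R) (A : Finset R) : A ⊆ ext u₁ u₂ A := by
  unfold ext
  split_ifs
  · exact Finset.subset_insert _ _
  · exact Finset.Subset.refl _

omit [Fintype R] in
theorem ext_mono (u₁ u₂ : R) {A B : Finset R} (h : A ⊆ B) : ext u₁ u₂ A ⊆ ext u₁ u₂ B := by
  unfold ext
  by_cases hA : u₁ ∈ A
  · rw [if_pos hA, if_pos (h hA)]
    exact Finset.insert_subset_insert _ h
  · rw [if_neg hA]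
    by_cases hB : u₁ ∈ B
    · rw [if_pos hB]
      exact h.trans (Finset.subset_insert _ _)
    · rw [if_neg hB]
      exact h

/-- Exchange of the rows `a` and `b` of a table. -/
noncomputable def swapFun (a b : R) (M : R → C → ℕ) : R → C → ℕ := fun i => M (Equiv.swap a b i)

theorem swapFun_mem {r : R → ℕ} {c : C → ℕ} {a b : R} (h : r a = r b) {M : R → C → ℕ}
    (hM : M ∈ tables r c) : swapFun a b M ∈ tables r c := by
  rw [mem_tables] at hM ⊢
  refine ⟨?_, ?_⟩
  · intro i
    show ∑ j, M (Equiv.swap a b i) j = r i
    rw [hM.1]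
    by_cases hia : i = a
    · subst hia
      rw [Equiv.swap_apply_left, h]
    · by_cases hib : i = b
      · subst hib
        rw [Equiv.swap_apply_right, h]
      · rw [Equiv.swap_apply_of_ne_of_ne hia hib]
  · intro j
    show ∑ i, M (Equiv.swap a b i) j = c j
    rw [← hM.2 j]
    exact Equiv.sum_comp (Equiv.swap a b) (fun i => M i j)

/-- Exchange of two rows with equal row sums, on the state space. -/
noncomputable def swapTab {r : R → ℕ} {c : C → ℕ} (a b : R) (h : r a = r b) (x : Tab r c) : Tab r c :=
  ⟨swapFun a b x.1, swapFun_mem h x.2⟩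

theorem swapTab_val {r : R → ℕ} {c : C → ℕ} (a b : R) (h : r a = r b) (x : Tab r c) (i : R) :
    (swapTab a b h x).1 i = x.1 (Equiv.swap a b i) := rfl

/-- The tables that agree with `M` in every row outside `S`. -/
noncomputable def blockClass (r : R → ℕ) (c : C → ℕ) (S : Finset R) (M : R → C → ℕ) :
    Finset (R → C → ℕ) :=
  (tables r c).filter (fun N => ∀ i, i ∉ S → N i = M i)

/-- The average of `f` over the tables that agree with `M` in every row outside `S`: the
conditional expectation of `f` given the rows outside `S`, under the uniform distribution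
on `tables r c`. -/
noncomputable def blockAvg (r : R → ℕ) (c : C → ℕ) (S : Finset R) (f : (R → C → ℕ) → ℝ)
    (M : R → C → ℕ) : ℝ :=
  (∑ N ∈ blockClass r c S M, f N) / ((blockClass r c S M).card : ℝ)

end Vale.Agent.Lib.P328.CT
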