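import Vale.Agent.Lib.P335.Bip.Av
import Vale.Agent.Lib.P335.Bip.AvMore

/-!
# P328 / abstract: from a Poincare inequality to total variation mixing, for a chain that is a
uniform mixture of class resamplings

`X` is a finite state space and `rel i`, `i ∈ I`, are equivalence relations on `X`.  One step
of the chain picks `i ∈ I` uniformly at random and moves to a uniformly random element of the
`rel i`-class of the current state.  `heatKernel I rel` is its transition matrix.
-/

namespace Vale.Agent.Lib.P328.CT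

open Finset
open scoped Classical
open Vale.Agent.Lib.P335.Bip

variable {X : Type*} [Fintype X] [DecidableEq X]

/-- The transition matrix of the chain that picks `i ∈ I` uniformly at random and then moves
to a uniformly random element of the `rel i`-class of the current state. -/
noncomputable def heatKernel {ι : Type*} (I : Finset ι) (rel : ι → X → X → Prop) :
    Matrix X X ℝ :=
  fun x y => (∑ i ∈ I, if rel i x y then
    1 / ((Finset.univ.filter (fun z => rel i x z)).card : ℝ) else 0) / (I.card : ℝ)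

omit [DecidableEq X] in
/-- Abstract contraction: a self-adjoint positive semidefinite operator that preserves the
mean and has a spectral gap on centred functions contracts the square norm of centred
functions. -/
private theorem mixAbs_contract (T : (X → ℝ) → (X → ℝ)) (c : ℝ) (hc : 0 ≤ c)
    (lin : ∀ (u v : X → ℝ) (s : ℝ), T (fun x => u x + s * v x) = fun x => T u x + s * T v x)
    (sa : ∀ u v : X → ℝ, ∑ x, u x * T v x = ∑ x, T u x * v x)
    (mean : ∀ g : X → ℝ, ∑ x, T g x = ∑ x, g x)
    (psd : ∀ g : X → ℝ, 0 ≤ ∑ x, g x * T g x)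
    (gap : ∀ g : X → ℝ, ∑ x, g x = 0 → ∑ x, g x * T g x ≤ c * ∑ x, g x ^ 2)
    (g : X → ℝ) (hg : ∑ x, g x = 0) :
    ∑ x, T g x ^ 2 ≤ c ^ 2 * ∑ x, g x ^ 2 := by
  have hTg : ∑ x, T g x = 0 := by rw [mean, hg]
  obtain ⟨p, hp⟩ : ∃ p, p = ∑ x, g x ^ 2 := ⟨_, rfl⟩
  obtain ⟨q, hq⟩ : ∃ q, q = ∑ x, T g x ^ 2 := ⟨_, rfl⟩
  obtain ⟨a, ha⟩ : ∃ a, a = ∑ x, g x * T g x := ⟨_, rfl⟩
  obtain ⟨b, hb⟩ : ∃ b, b = ∑ x, T g x * T (T g) x := ⟨_, rfl⟩
  have hq0 : 0 ≤ q := by rw [hq]; exact Finset.sum_nonneg (fun x _ => sq_nonneg _)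
  have hp0 : 0 ≤ p := by rw [hp]; exact Finset.sum_nonneg (fun x _ => sq_nonneg _)
  have h1 : ∑ x, g x * T (T g) x = q := by
    rw [sa g (T g), hq]
    apply Finset.sum_congr rfl
    intro x _
    ring
  have hBgg : a ≤ c * p := by rw [ha, hp]; exact gap g hg
  have hBtt : b ≤ c * q := by
    rw [hb, hq]
    have h := gap (T g) hTg
    exact h
  have ha0 : 0 ≤ a := by rw [ha]; exact psd g
  have hb0 : 0 ≤ b := by rw [hb]; exact psd (T g)
  have hquad : ∀ s : ℝ, 0 ≤ b * (s * s) + (2 * q) * s + a := by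
    intro s
    have h := psd (fun x => g x + s * T g x)
    rw [lin g (T g) s] at h
    have e : ∑ x, (g x + s * T g x) * (T g x + s * T (T g) x)
        = b * (s * s) + (2 * q) * s + a := by
      have e1 : ∀ x, (g x + s * T g x) * (T g x + s * T (T g) x)
          = g x * T g x + s * (g x * T (T g) x) + s * (T g x ^ 2)
            + s * s * (T g x * T (T g) x) := by
        intro x
        ring
      rw [Finset.sum_congr rfl (fun x _ => e1 x)]
      simp only [Finset.sum_add_distrib, ← Finset.mul_sum]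
      rw [h1, ← hq, ← ha, ← hb]
      ring
    rw [e] at h
    exact h
  have hd := discrim_le_zero hquad
  rw [discrim] at hd
  have hCS : q ^ 2 ≤ a * b := by nlinarith [hd]
  have h2 : q ^ 2 ≤ (c * p) * (c * q) :=
    le_trans hCS (mul_le_mul hBgg hBtt hb0 (mul_nonneg hc hp0))
  rcases eq_or_lt_of_le hq0 with h0 | hpos
  · rw [← hq, ← h0, ← hp]
    positivity
  · have h3 : q * q ≤ (c ^ 2 * p) * q := by nlinarith [h2]
    have h4 : q ≤ c ^ 2 * p := le_of_mul_le_mul_right h3 hpos
    rw [← hq, ← hp]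
    exact h4

omit [DecidableEq X] in
/-- One step of the chain is the average of the class averages. -/
private theorem mixAbs_mulVec {ι : Type*} (I : Finset ι) (rel : ι → X → X → Prop)
    (g : X → ℝ) (x : X) :
    (heatKernel I rel).mulVec g x = (∑ i ∈ I, av (rel i) g x) / (I.card : ℝ) := by
  have key : ∀ i, ∑ y, (if rel i x y then
      1 / ((Finset.univ.filter (fun z => rel i x z)).card : ℝ) else 0) * g y
      = av (rel i) g x := by
    intro i
    show _ = (∑ y ∈ univ.filter (fun y => rel i x y), g y)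
      / ((univ.filter (fun y => rel i x y)).card : ℝ)
    rw [Finset.sum_filter, Finset.sum_div]
    apply Finset.sum_congr rfl
    intro y _
    split_ifs <;> ring
  calc (heatKernel I rel).mulVec g x
      = ∑ y, ((∑ i ∈ I, if rel i x y then
          1 / ((Finset.univ.filter (fun z => rel i x z)).card : ℝ) else 0) / (I.card : ℝ))
          * g y := rfl
    _ = ∑ y, ∑ i ∈ I, ((if rel i x y then
          1 / ((Finset.univ.filter (fun z => rel i x z)).card : ℝ) else 0) * g y)
          / (I.card : ℝ) := by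
        apply Finset.sum_congr rfl
        intro y _
        rw [Finset.sum_div, Finset.sum_mul]
        apply Finset.sum_congr rfl
        intro i _
        ring
    _ = ∑ i ∈ I, ∑ y, ((if rel i x y then
          1 / ((Finset.univ.filter (fun z => rel i x z)).card : ℝ) else 0) * g y)
          / (I.card : ℝ) := Finset.sum_comm
    _ = ∑ i ∈ I, av (rel i) g x / (I.card : ℝ) := by
        apply Finset.sum_congr rfl
        intro i _
        rw [← Finset.sum_div, key i]
    _ = (∑ i ∈ I, av (rel i) g x) / (I.card : ℝ) := (Finset.sum_div _ _ _).symm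

omit [DecidableEq X] in
/-- Pairing a function with an average of class averages. -/
private theorem mixAbs_pair {ι : Type*} (I : Finset ι) (a : ι → X → ℝ) (u : X → ℝ) (c : ℝ) :
    ∑ x, u x * ((∑ i ∈ I, a i x) / c) = (∑ i ∈ I, ∑ x, u x * a i x) / c := by
  rw [Finset.sum_comm, Finset.sum_div]
  apply Finset.sum_congr rfl
  intro x _
  rw [← Finset.mul_sum, mul_div_assoc]

omit [DecidableEq X] in
/-- The kernel is symmetric. -/
private theorem mixAbs_symm {ι : Type*} (I : Finset ι) (rel : ι → X → X → Prop)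
    (hrel : ∀ i ∈ I, Equivalence (rel i)) (x y : X) :
    heatKernel I rel x y = heatKernel I rel y x := by
  unfold heatKernel
  congr 1
  apply Finset.sum_congr rfl
  intro i hi
  have hr := hrel i hi
  by_cases h : rel i x y
  · have h' : rel i y x := hr.symm h
    have hcl : (Finset.univ.filter (fun z => rel i x z)) = Finset.univ.filter (fun z => rel i y z) := by
      ext z
      simp only [Finset.mem_filter, Finset.mem_univ, true_and]
      exact ⟨fun hz => hr.trans h' hz, fun hz => hr.trans h hz⟩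
    rw [if_pos h, if_pos h', hcl]
  · have h' : ¬ rel i y x := fun hh => h (hr.symm hh)
    rw [if_neg h, if_neg h']

/-- If the variance of every function is at most `Cp` times the sum over `i ∈ I` of the
variances inside the `rel i`-classes, then the `t`-step distribution from any start `x` is
within `sqrt |X| * (1 - 1 / (Cp * |I|)) ^ t` of the uniform distribution, in `ℓ¹` distance
(twice the total variation distance). -/
theorem heatKernel_mix {ι : Type*} (I : Finset ι) (hI : I.Nonempty) (rel : ι → X → X → Prop)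
    (hrel : ∀ i ∈ I, Equivalence (rel i)) (Cp : ℝ) (hC : 1 ≤ Cp)
    (hP : ∀ f : X → ℝ, ∑ x, (f x - (∑ y, f y) / (Fintype.card X : ℝ)) ^ 2
      ≤ Cp * ∑ i ∈ I, ∑ x, (f x - av (rel i) f x) ^ 2)
    (x : X) (t : ℕ) :
    ∑ y, |(heatKernel I rel ^ t) x y - 1 / (Fintype.card X : ℝ)|
      ≤ Real.sqrt (Fintype.card X : ℝ) * (1 - 1 / (Cp * (I.card : ℝ))) ^ t := by
  -- constants
  have hcardI : (1 : ℝ) ≤ (I.card : ℝ) := by
    have h : 1 ≤ I.card := Finset.card_pos.mpr hI
    exact_mod_cast h
  have hc0 : (0 : ℝ) < (I.card : ℝ) := by linarith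
  have hCp0 : (0 : ℝ) < Cp := by linarith
  have hN1 : (1 : ℝ) ≤ (Fintype.card X : ℝ) := by
    have h : 1 ≤ Fintype.card X := Fintype.card_pos_iff.mpr ⟨x⟩
    exact_mod_cast h
  have hN0 : (0 : ℝ) < (Fintype.card X : ℝ) := by linarith
  obtain ⟨N, hN⟩ : ∃ N : ℝ, N = (Fintype.card X : ℝ) := ⟨_, rfl⟩
  obtain ⟨c, hcdef⟩ : ∃ c : ℝ, c = (I.card : ℝ) := ⟨_, rfl⟩
  obtain ⟨γ, hγ⟩ : ∃ γ : ℝ, γ = 1 - 1 / (Cp * c) := ⟨_, rfl⟩
  rw [← hN, ← hcdef, ← hγ]
  rw [← hcdef] at hcardI hc0
  rw [← hN] at hN1 hN0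
  have hγ0 : 0 ≤ γ := by
    rw [hγ]
    have h1 : 1 / (Cp * c) ≤ 1 := by
      rw [div_le_one (by positivity)]
      nlinarith
    linarith
  -- the operator
  obtain ⟨T, hT⟩ : ∃ T : (X → ℝ) → (X → ℝ),
      T = fun g x => (∑ i ∈ I, av (rel i) g x) / c := ⟨_, rfl⟩
  have hTP : ∀ g : X → ℝ, (heatKernel I rel).mulVec g = T g := by
    intro g
    funext z
    rw [mixAbs_mulVec I rel g z, hT, hcdef]
  have hpair : ∀ u g : X → ℝ, ∑ z, u z * T g z = (∑ i ∈ I, ∑ z, u z * av (rel i) g z) / c := by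
    intro u g
    rw [hT]
    exact mixAbs_pair I (fun i => av (rel i) g) u c
  have lin : ∀ (u v : X → ℝ) (s : ℝ),
      T (fun z => u z + s * v z) = fun z => T u z + s * T v z := by
    intro u v s
    rw [hT]
    funext z
    have e : ∀ i, av (rel i) (fun z => u z + s * v z) z
        = av (rel i) u z + s * av (rel i) v z := by
      intro i
      have h1 := congrFun (av_add (rel i) u (fun z => s * v z)) z
      have h2 := congrFun (av_const_mul (rel i) s v) z
      rw [h1, h2]
    show (∑ i ∈ I, av (rel i) (fun z => u z + s * v z) z) / c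
      = (∑ i ∈ I, av (rel i) u z) / c + s * ((∑ i ∈ I, av (rel i) v z) / c)
    rw [Finset.sum_congr rfl (fun i _ => e i), Finset.sum_add_distrib, ← Finset.mul_sum]
    ring
  have sa : ∀ u v : X → ℝ, ∑ z, u z * T v z = ∑ z, T u z * v z := by
    intro u v
    have h1 : ∑ z, T u z * v z = ∑ z, v z * T u z :=
      Finset.sum_congr rfl (fun z _ => mul_comm _ _)
    rw [h1, hpair u v, hpair v u]
    congr 1
    apply Finset.sum_congr rfl
    intro i hi
    rw [sum_mul_av (hrel i hi) u v]
    exact Finset.sum_congr rfl (fun z _ => mul_comm _ _)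
  have mean : ∀ g : X → ℝ, ∑ z, T g z = ∑ z, g z := by
    intro g
    have h1 : ∑ z, T g z = ∑ z, (1 : ℝ) * T g z :=
      Finset.sum_congr rfl (fun z _ => (one_mul _).symm)
    rw [h1, hpair (fun _ => 1) g]
    have h2 : ∀ i ∈ I, ∑ z, (1 : ℝ) * av (rel i) g z = ∑ z, g z := by
      intro i hi
      rw [← sum_av (hrel i hi) g]
      exact Finset.sum_congr rfl (fun z _ => one_mul _)
    rw [Finset.sum_congr rfl h2, Finset.sum_const, nsmul_eq_mul, ← hcdef]
    field_simp
  have psd : ∀ g : X → ℝ, 0 ≤ ∑ z, g z * T g z := by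
    intro g
    rw [hpair g g]
    apply div_nonneg _ hc0.le
    apply Finset.sum_nonneg
    intro i hi
    rw [← sum_av_sq (hrel i hi) g]
    exact Finset.sum_nonneg (fun z _ => sq_nonneg _)
  have gap : ∀ g : X → ℝ, ∑ z, g z = 0 → ∑ z, g z * T g z ≤ γ * ∑ z, g z ^ 2 := by
    intro g hg
    have h := hP g
    rw [hg, zero_div] at h
    have e1 : ∑ z, (g z - 0) ^ 2 = ∑ z, g z ^ 2 :=
      Finset.sum_congr rfl (fun z _ => by rw [sub_zero])
    have e2 : ∑ i ∈ I, ∑ z, (g z - av (rel i) g z) ^ 2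
        = c * ∑ z, g z ^ 2 - c * ∑ z, g z * T g z := by
      rw [hpair g g]
      rw [Finset.sum_congr rfl (fun i hi => sum_sub_av_sq (hrel i hi) g),
        Finset.sum_sub_distrib, Finset.sum_const, nsmul_eq_mul, ← hcdef]
      field_simp
    rw [e1, e2] at h
    obtain ⟨p, hp⟩ : ∃ p, p = ∑ z, g z ^ 2 := ⟨_, rfl⟩
    obtain ⟨b, hb⟩ : ∃ b, b = ∑ z, g z * T g z := ⟨_, rfl⟩
    rw [← hp, ← hb] at h ⊢
    rw [hγ]
    have hCc : 0 < Cp * c := mul_pos hCp0 hc0
    have h3 : p / (Cp * c) ≤ p - b := by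
      rw [div_le_iff₀ hCc]
      nlinarith
    have h4 : (1 - 1 / (Cp * c)) * p = p - p / (Cp * c) := by ring
    rw [h4]
    linarith
  have hcontract : ∀ g : X → ℝ, ∑ z, g z = 0 → ∑ z, T g z ^ 2 ≤ γ ^ 2 * ∑ z, g z ^ 2 :=
    mixAbs_contract T γ hγ0 lin sa mean psd gap
  -- iteration
  have hiter : ∀ (n : ℕ) (g : X → ℝ), ∑ z, g z = 0 →
      ∑ z, ((heatKernel I rel ^ n).mulVec g) z = 0 ∧
        ∑ z, ((heatKernel I rel ^ n).mulVec g) z ^ 2 ≤ γ ^ (2 * n) * ∑ z, g z ^ 2 := by
    intro n
    induction n with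
    | zero =>
      intro g hg
      rw [pow_zero, Matrix.one_mulVec]
      refine ⟨hg, ?_⟩
      rw [Nat.mul_zero, pow_zero, one_mul]
    | succ n ih =>
      intro g hg
      obtain ⟨ih1, ih2⟩ := ih g hg
      have hstep : (heatKernel I rel ^ (n + 1)).mulVec g
          = T ((heatKernel I rel ^ n).mulVec g) := by
        rw [pow_succ', ← Matrix.mulVec_mulVec, hTP]
      rw [hstep]
      refine ⟨by rw [mean]; exact ih1, ?_⟩
      have h5 := hcontract _ ih1
      have h6 : γ ^ (2 * (n + 1)) = γ ^ 2 * γ ^ (2 * n) := by ring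
      rw [h6, mul_assoc]
      exact le_trans h5 (mul_le_mul_of_nonneg_left ih2 (sq_nonneg γ))
  -- rows of the powers sum to one
  have hone : T (fun _ => (1 : ℝ)) = fun _ => (1 : ℝ) := by
    rw [hT]
    funext z
    have e : ∀ i ∈ I, av (rel i) (fun _ => (1 : ℝ)) z = 1 := by
      intro i hi
      rw [av_of_invariant (hrel i hi) (f := fun _ => (1 : ℝ)) (fun _ _ _ => rfl)]
    show (∑ i ∈ I, av (rel i) (fun _ => (1 : ℝ)) z) / c = 1
    rw [Finset.sum_congr rfl e, Finset.sum_const, nsmul_eq_mul, mul_one, ← hcdef]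
    exact div_self hc0.ne'
  have hrows : ∀ n : ℕ, (heatKernel I rel ^ n).mulVec (fun _ => (1 : ℝ)) = fun _ => (1 : ℝ) := by
    intro n
    induction n with
    | zero => rw [pow_zero, Matrix.one_mulVec]
    | succ n ih => rw [pow_succ', ← Matrix.mulVec_mulVec, ih, hTP, hone]
  -- symmetry of the powers
  have hsymP : (heatKernel I rel).transpose = heatKernel I rel := by
    ext a b
    rw [Matrix.transpose_apply]
    exact mixAbs_symm I rel hrel b a
  have hsymPt : ∀ a b : X, (heatKernel I rel ^ t) a b = (heatKernel I rel ^ t) b a := by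
    intro a b
    have h : ((heatKernel I rel) ^ t).transpose = (heatKernel I rel) ^ t := by
      rw [Matrix.transpose_pow, hsymP]
    have h2 := congrFun (congrFun h b) a
    rw [Matrix.transpose_apply] at h2
    exact h2
  -- the test function
  obtain ⟨g, hgdef⟩ : ∃ g : X → ℝ, g = fun z => (if z = x then (1 : ℝ) else 0) - 1 / N :=
    ⟨_, rfl⟩
  have hN' : N ≠ 0 := hN0.ne'
  have hg0 : ∑ z, g z = 0 := by
    rw [hgdef]
    rw [Finset.sum_sub_distrib, Finset.sum_ite_eq' Finset.univ x, if_pos (Finset.mem_univ x),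
      Finset.sum_const, Finset.card_univ, nsmul_eq_mul, ← hN]
    field_simp
    ring
  have hg2 : ∑ z, g z ^ 2 ≤ 1 := by
    have e : ∀ z, g z ^ 2 = (if z = x then (1 : ℝ) else 0) * (1 - 2 / N) + 1 / N ^ 2 := by
      intro z
      rw [hgdef]
      by_cases hz : z = x
      · simp only [hz, if_true]
        field_simp
        ring
      · simp only [hz, if_false]
        field_simp
        ring
    rw [Finset.sum_congr rfl (fun z _ => e z), Finset.sum_add_distrib, ← Finset.sum_mul,
      Finset.sum_ite_eq' Finset.univ x, if_pos (Finset.mem_univ x), Finset.sum_const,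
      Finset.card_univ, nsmul_eq_mul, ← hN]
    have h1 : (1 : ℝ) * (1 - 2 / N) + N * (1 / N ^ 2) = 1 - 1 / N := by
      field_simp
      ring
    rw [h1]
    have h2 : 0 ≤ 1 / N := by positivity
    linarith
  have hval : ∀ y : X, ((heatKernel I rel ^ t).mulVec g) y = (heatKernel I rel ^ t) x y - 1 / N := by
    intro y
    have hr := congrFun (hrows t) y
    have hr' : ∑ z, (heatKernel I rel ^ t) y z = 1 := by
      have : ((heatKernel I rel ^ t).mulVec (fun _ => (1 : ℝ))) y
          = ∑ z, (heatKernel I rel ^ t) y z * 1 := rfl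
      rw [this] at hr
      rw [← hr]
      exact Finset.sum_congr rfl (fun z _ => (mul_one _).symm)
    have e1 : ((heatKernel I rel ^ t).mulVec g) y = ∑ z, (heatKernel I rel ^ t) y z * g z := rfl
    rw [e1, hgdef]
    have e2 : ∀ z, (heatKernel I rel ^ t) y z * ((if z = x then (1 : ℝ) else 0) - 1 / N)
        = (if z = x then (heatKernel I rel ^ t) y z else 0)
          - (heatKernel I rel ^ t) y z * (1 / N) := by
      intro z
      by_cases hz : z = x
      · simp only [hz, if_true]
        ring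
      · simp only [hz, if_false]
        ring
    rw [Finset.sum_congr rfl (fun z _ => e2 z), Finset.sum_sub_distrib,
      Finset.sum_ite_eq' Finset.univ x, if_pos (Finset.mem_univ x), ← Finset.sum_mul, hr',
      hsymPt y x, one_mul]
  -- final estimate
  obtain ⟨h5, h6⟩ := hiter t g hg0
  have hsq : ∑ y, ((heatKernel I rel ^ t) x y - 1 / N) ^ 2 ≤ (γ ^ t) ^ 2 := by
    have e : ∑ y, ((heatKernel I rel ^ t) x y - 1 / N) ^ 2
        = ∑ y, ((heatKernel I rel ^ t).mulVec g) y ^ 2 :=
      Finset.sum_congr rfl (fun y _ => by rw [hval y])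
    rw [e]
    have h7 : γ ^ (2 * t) = (γ ^ t) ^ 2 := by ring
    rw [h7] at h6
    have h8 : (γ ^ t) ^ 2 * ∑ z, g z ^ 2 ≤ (γ ^ t) ^ 2 * 1 :=
      mul_le_mul_of_nonneg_left hg2 (sq_nonneg _)
    linarith
  have hcs : (∑ y, |(heatKernel I rel ^ t) x y - 1 / N|) ^ 2
      ≤ N * ∑ y, ((heatKernel I rel ^ t) x y - 1 / N) ^ 2 := by
    have h := sq_sum_le_card_mul_sum_sq (s := (Finset.univ : Finset X))
      (f := fun y => |(heatKernel I rel ^ t) x y - 1 / N|)
    rw [Finset.card_univ, ← hN] at h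
    have e : ∑ y, |(heatKernel I rel ^ t) x y - 1 / N| ^ 2
        = ∑ y, ((heatKernel I rel ^ t) x y - 1 / N) ^ 2 :=
      Finset.sum_congr rfl (fun y _ => sq_abs _)
    rw [e] at h
    exact h
  have hsum0 : 0 ≤ ∑ y, |(heatKernel I rel ^ t) x y - 1 / N| :=
    Finset.sum_nonneg (fun y _ => abs_nonneg _)
  have hγt : 0 ≤ γ ^ t := pow_nonneg hγ0 t
  have hfin : (∑ y, |(heatKernel I rel ^ t) x y - 1 / N|) ^ 2 ≤ (Real.sqrt N * γ ^ t) ^ 2 := by
    rw [mul_pow, Real.sq_sqrt hN0.le]
    exact le_trans hcs (mul_le_mul_of_nonneg_left hsq hN0.le)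
  exact abs_le_of_sq_le_sq' hfin (mul_nonneg (Real.sqrt_nonneg _) hγt) |>.2

end Vale.Agent.Lib.P328.CT
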