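import Vale.Agent.Lib.P328.CT.Defs

/-!
# P328: connectivity of the tables with unit rows under the block moves

All rows except `u₁`, `u₂` have sum 1.  The particles are the rows other than `u₂`; a pair of
particles `p` moves the rows of `ext u₁ u₂ p`.  A function that is invariant under all these
moves is constant on `Tab r c`.
-/

namespace Vale.Agent.Lib.P328.CT

open Finset
open scoped Classical
open Vale.Agent.Lib.P335.Bip

variable {R C : Type*} [Fintype R] [Fintype C]

/-- Moving one unit from one point to another does not change a sum. -/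
private lemma conn_sum_move {α : Type*} [Fintype α] (g g' : α → ℕ) (i j : α)
    (h : ∀ l, g' l + (if l = i then 1 else 0) = g l + (if l = j then 1 else 0)) :
    ∑ l, g' l = ∑ l, g l := by
  have h1 : ∑ l, (g' l + (if l = i then 1 else 0)) = ∑ l, (g l + (if l = j then 1 else 0)) :=
    Finset.sum_congr rfl (fun l _ => h l)
  rw [Finset.sum_add_distrib, Finset.sum_add_distrib, Finset.sum_ite_eq', Finset.sum_ite_eq',
    if_pos (Finset.mem_univ i), if_pos (Finset.mem_univ j)] at h1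
  exact Nat.add_right_cancel h1

/-- A function that loses one unit at `p` and gains one at `q`, pointwise. -/
private lemma conn_shift_pt {α : Type*} (g g' : α → ℕ) (p q : α) (hpq : p ≠ q)
    (hp : g' p + 1 = g p) (hq : g' q = g q + 1) (ho : ∀ k, k ≠ p → k ≠ q → g' k = g k)
    (k : α) : g' k + (if k = p then 1 else 0) = g k + (if k = q then 1 else 0) := by
  by_cases hkp : k = p
  · have hkq : k ≠ q := fun h => hpq (hkp.symm.trans h)
    rw [if_pos hkp, if_neg hkq, hkp]
    omega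
  · by_cases hkq : k = q
    · rw [if_neg hkp, if_pos hkq, hkq]
      omega
    · rw [if_neg hkp, if_neg hkq, ho k hkp hkq]

/-- A function that loses one unit at `p` and gains one at `q` keeps its sum. -/
private lemma conn_sum_shift {α : Type*} [Fintype α] (g g' : α → ℕ) (p q : α) (hpq : p ≠ q)
    (hp : g' p + 1 = g p) (hq : g' q = g q + 1) (ho : ∀ k, k ≠ p → k ≠ q → g' k = g k) :
    ∑ k, g' k = ∑ k, g k :=
  conn_sum_move g g' p q (conn_shift_pt g g' p q hpq hp hq ho)

/-- A row with sum one is the indicator of a column. -/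
private lemma conn_unit_row {r : R → ℕ} {c : C → ℕ} (x : Tab r c) {a : R} (ha : r a = 1) :
    ∃ i, x.1 a = Pi.single i 1 := by
  have hs : ∑ l, x.1 a l = 1 := (x.rowSum a).trans ha
  have hex : ∃ i, x.1 a i ≠ 0 := by
    by_contra hne
    push Not at hne
    rw [Finset.sum_congr rfl (fun l _ => hne l), Finset.sum_const_zero] at hs
    exact zero_ne_one hs
  obtain ⟨i, hi⟩ := hex
  refine ⟨i, ?_⟩
  have hsplit : x.1 a i + ∑ l ∈ univ.erase i, x.1 a l = 1 := by
    rw [Finset.add_sum_erase _ _ (Finset.mem_univ i)]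
    exact hs
  have h1 : x.1 a i = 1 := by omega
  have h0 : ∑ l ∈ univ.erase i, x.1 a l = 0 := by omega
  funext l
  by_cases hl : l = i
  · rw [hl, Pi.single_eq_same]
    exact h1
  · rw [Pi.single_eq_of_ne hl]
    exact (Finset.sum_eq_zero_iff_of_nonneg (fun _ _ => Nat.zero_le _)).mp h0 l
      (Finset.mem_erase.mpr ⟨hl, Finset.mem_univ l⟩)

/-- The elementary move: one unit of row `a` goes from column `i` to column `j`, and one unit
of row `u` goes from column `j` to column `i`. -/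
private lemma conn_move_exists {r : R → ℕ} {c : C → ℕ} (x : Tab r c) (a u : R) (i j : C)
    (hau : a ≠ u) (hij : i ≠ j) (hai : 1 ≤ x.1 a i) (huj : 1 ≤ x.1 u j) :
    ∃ x' : Tab r c, (∀ k, k ≠ a → k ≠ u → x'.1 k = x.1 k) ∧
      (∀ l, x'.1 a l + (if l = i then 1 else 0) = x.1 a l + (if l = j then 1 else 0)) := by
  obtain ⟨M', hM'⟩ : ∃ M' : R → C → ℕ, ∀ k l, M' k l =
      if k = a then (if l = i then x.1 a i - 1 else if l = j then x.1 a j + 1 else x.1 a l)
      else if k = u then (if l = j then x.1 u j - 1 else if l = i then x.1 u i + 1 else x.1 u l)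
      else x.1 k l := ⟨_, fun _ _ => rfl⟩
  have hMa_i : M' a i + 1 = x.1 a i := by
    rw [hM' a i, if_pos rfl, if_pos rfl]
    omega
  have hMa_j : M' a j = x.1 a j + 1 := by
    rw [hM' a j, if_pos rfl, if_neg (Ne.symm hij), if_pos rfl]
  have hMa_o : ∀ l, l ≠ i → l ≠ j → M' a l = x.1 a l := by
    intro l h1 h2
    rw [hM' a l, if_pos rfl, if_neg h1, if_neg h2]
  have hMu_j : M' u j + 1 = x.1 u j := by
    rw [hM' u j, if_neg (Ne.symm hau), if_pos rfl, if_pos rfl]
    omega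
  have hMu_i : M' u i = x.1 u i + 1 := by
    rw [hM' u i, if_neg (Ne.symm hau), if_pos rfl, if_neg hij, if_pos rfl]
  have hMu_o : ∀ l, l ≠ j → l ≠ i → M' u l = x.1 u l := by
    intro l h1 h2
    rw [hM' u l, if_neg (Ne.symm hau), if_pos rfl, if_neg h1, if_neg h2]
  have hother : ∀ k, k ≠ a → k ≠ u → ∀ l, M' k l = x.1 k l := by
    intro k h1 h2 l
    rw [hM' k l, if_neg h1, if_neg h2]
  have hmem : M' ∈ tables r c := by
    rw [mem_tables]
    refine ⟨?_, ?_⟩
    · intro k
      by_cases hka : k = a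
      · rw [hka]
        exact (conn_sum_shift (x.1 a) (M' a) i j hij hMa_i hMa_j hMa_o).trans (x.rowSum a)
      · by_cases hku : k = u
        · rw [hku]
          exact (conn_sum_shift (x.1 u) (M' u) j i (Ne.symm hij) hMu_j hMu_i hMu_o).trans
            (x.rowSum u)
        · exact (Finset.sum_congr rfl (fun l _ => hother k hka hku l)).trans (x.rowSum k)
    · intro l
      by_cases hli : l = i
      · rw [hli]
        exact (conn_sum_shift (fun k => x.1 k i) (fun k => M' k i) a u hau hMa_i hMu_i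
          (fun k h1 h2 => hother k h1 h2 i)).trans (x.colSum i)
      · by_cases hlj : l = j
        · rw [hlj]
          exact (conn_sum_shift (fun k => x.1 k j) (fun k => M' k j) u a (Ne.symm hau) hMu_j
            hMa_j (fun k h1 h2 => hother k h2 h1 j)).trans (x.colSum j)
        · refine (Finset.sum_congr rfl (fun k _ => ?_)).trans (x.colSum l)
          by_cases hka : k = a
          · rw [hka]
            exact hMa_o l hli hlj
          · by_cases hku : k = u
            · rw [hku]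
              exact hMu_o l hlj hli
            · exact hother k hka hku l
  refine ⟨⟨M', hmem⟩, ?_, ?_⟩
  · intro k h1 h2
    funext l
    exact hother k h1 h2 l
  · exact conn_shift_pt (x.1 a) (M' a) i j hij hMa_i hMa_j hMa_o

/-- The pair of the particle `u₁` and a unit row is a pair of particles. -/
private lemma conn_pair_one (u₁ u₂ a : R) (hu : u₁ ≠ u₂) (ha1 : a ≠ u₁) (ha2 : a ≠ u₂) :
    ({u₁, a} : Finset R) ∈ (Finset.univ.erase u₂).powersetCard 2 := by
  rw [Finset.mem_powersetCard]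
  refine ⟨?_, Finset.card_pair (Ne.symm ha1)⟩
  intro k hk
  rw [Finset.mem_insert, Finset.mem_singleton] at hk
  rcases hk with hk | hk
  · rw [hk]
    exact Finset.mem_erase.mpr ⟨hu, Finset.mem_univ _⟩
  · rw [hk]
    exact Finset.mem_erase.mpr ⟨ha2, Finset.mem_univ _⟩

/-- A pair of unit rows is a pair of particles. -/
private lemma conn_pair_two (u₂ a b : R) (hab : a ≠ b) (ha2 : a ≠ u₂) (hb2 : b ≠ u₂) :
    ({a, b} : Finset R) ∈ (Finset.univ.erase u₂).powersetCard 2 := by
  rw [Finset.mem_powersetCard]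
  refine ⟨?_, Finset.card_pair hab⟩
  intro k hk
  rw [Finset.mem_insert, Finset.mem_singleton] at hk
  rcases hk with hk | hk
  · rw [hk]
    exact Finset.mem_erase.mpr ⟨ha2, Finset.mem_univ _⟩
  · rw [hk]
    exact Finset.mem_erase.mpr ⟨hb2, Finset.mem_univ _⟩

/-- Two tables that agree outside the rows `u₁`, `u₂` and a unit row have the same value. -/
private lemma conn_inv_one {r : R → ℕ} {c : C → ℕ} (u₁ u₂ : R) (hu : u₁ ≠ u₂)
    (f : Tab r c → ℝ)
    (hinv : ∀ p ∈ (Finset.univ.erase u₂).powersetCard 2, ∀ x y : Tab r c,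
      RelOut (ext u₁ u₂ p) x y → f x = f y)
    (a : R) (ha1 : a ≠ u₁) (ha2 : a ≠ u₂) (x y : Tab r c)
    (h : ∀ k, k ≠ u₁ → k ≠ u₂ → k ≠ a → x.1 k = y.1 k) : f x = f y := by
  apply hinv {u₁, a} (conn_pair_one u₁ u₂ a hu ha1 ha2) x y
  have hext : ext u₁ u₂ {u₁, a} = insert u₂ {u₁, a} := by
    unfold ext
    rw [if_pos (Finset.mem_insert_self _ _)]
  rw [hext]
  intro k hk
  rw [Finset.mem_insert, Finset.mem_insert, Finset.mem_singleton] at hk
  exact h k (fun e => hk (Or.inr (Or.inl e))) (fun e => hk (Or.inl e))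
    (fun e => hk (Or.inr (Or.inr e)))

/-- Two tables that agree outside two unit rows have the same value. -/
private lemma conn_inv_two {r : R → ℕ} {c : C → ℕ} (u₁ u₂ : R)
    (f : Tab r c → ℝ)
    (hinv : ∀ p ∈ (Finset.univ.erase u₂).powersetCard 2, ∀ x y : Tab r c,
      RelOut (ext u₁ u₂ p) x y → f x = f y)
    (a b : R) (hab : a ≠ b) (ha1 : a ≠ u₁) (ha2 : a ≠ u₂) (hb1 : b ≠ u₁) (hb2 : b ≠ u₂)
    (x y : Tab r c) (h : ∀ k, k ≠ a → k ≠ b → x.1 k = y.1 k) : f x = f y := by
  apply hinv {a, b} (conn_pair_two u₂ a b hab ha2 hb2) x y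
  have hext : ext u₁ u₂ {a, b} = {a, b} := by
    unfold ext
    rw [if_neg]
    intro hmem
    rw [Finset.mem_insert, Finset.mem_singleton] at hmem
    rcases hmem with e | e
    · exact ha1 e.symm
    · exact hb1 e.symm
  rw [hext]
  intro k hk
  rw [Finset.mem_insert, Finset.mem_singleton] at hk
  exact h k (fun e => hk (Or.inl e)) (fun e => hk (Or.inr e))

/-- The step through one of the rows `u₁`, `u₂`. -/
private lemma conn_case_one {r : R → ℕ} {c : C → ℕ} (u₁ u₂ : R) (hu : u₁ ≠ u₂)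
    (f : Tab r c → ℝ)
    (hinv : ∀ p ∈ (Finset.univ.erase u₂).powersetCard 2, ∀ x y : Tab r c,
      RelOut (ext u₁ u₂ p) x y → f x = f y)
    (x y : Tab r c) (a : R) (ha1 : a ≠ u₁) (ha2 : a ≠ u₂) (u : R) (hu' : u = u₁ ∨ u = u₂)
    (i j : C) (hij : i ≠ j) (hxi : x.1 a = Pi.single i 1) (hyj : y.1 a = Pi.single j 1)
    (huj : 1 ≤ x.1 u j) :
    ∃ x' : Tab r c, f x = f x' ∧ x'.1 a = y.1 a ∧
      ∀ b, b ≠ u₁ → b ≠ u₂ → b ≠ a → x'.1 b = x.1 b := by
  have hau : a ≠ u := by
    rcases hu' with e | e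
    · rw [e]
      exact ha1
    · rw [e]
      exact ha2
  have hai : 1 ≤ x.1 a i := by
    rw [hxi, Pi.single_eq_same]
  obtain ⟨x', hoth, hrow⟩ := conn_move_exists x a u i j hau hij hai huj
  have hoth' : ∀ b, b ≠ u₁ → b ≠ u₂ → b ≠ a → x'.1 b = x.1 b := by
    intro b hb1 hb2 hba
    apply hoth b hba
    rcases hu' with e | e
    · rw [e]
      exact hb1
    · rw [e]
      exact hb2
  refine ⟨x', ?_, ?_, hoth'⟩
  · exact conn_inv_one u₁ u₂ hu f hinv a ha1 ha2 x x'
      (fun k h1 h2 h3 => (hoth' k h1 h2 h3).symm)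
  · funext l
    have h := hrow l
    rw [hxi, Pi.single_apply] at h
    rw [hyj, Pi.single_apply]
    omega

/-- The step through another unit row. -/
private lemma conn_case_two {r : R → ℕ} {c : C → ℕ} (u₁ u₂ : R)
    (hunit : ∀ i, i ≠ u₁ → i ≠ u₂ → r i = 1) (f : Tab r c → ℝ)
    (hinv : ∀ p ∈ (Finset.univ.erase u₂).powersetCard 2, ∀ x y : Tab r c,
      RelOut (ext u₁ u₂ p) x y → f x = f y)
    (x y : Tab r c) (a : R) (ha1 : a ≠ u₁) (ha2 : a ≠ u₂)
    (i j : C) (hij : i ≠ j) (hxi : x.1 a = Pi.single i 1) (hyj : y.1 a = Pi.single j 1)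
    (h1 : x.1 u₁ j = 0) (h2 : x.1 u₂ j = 0) :
    ∃ x' : Tab r c, f x = f x' ∧ x'.1 a = y.1 a ∧
      ∃ b, b ≠ u₁ ∧ b ≠ u₂ ∧ x.1 b ≠ y.1 b ∧
        ∀ k, k ≠ u₁ → k ≠ u₂ → k ≠ a → k ≠ b → x'.1 k = x.1 k := by
  have hxaj : x.1 a j = 0 := by
    rw [hxi, Pi.single_eq_of_ne (Ne.symm hij)]
  have hyaj : y.1 a j = 1 := by
    rw [hyj, Pi.single_eq_same]
  obtain ⟨b, hb1, hb2, hba, hlt⟩ :
      ∃ b, b ≠ u₁ ∧ b ≠ u₂ ∧ b ≠ a ∧ y.1 b j < x.1 b j := by
    by_contra hcon
    push Not at hcon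
    have hle : ∑ k, (x.1 k j + (if k = a then 1 else 0)) ≤ ∑ k, y.1 k j := by
      apply Finset.sum_le_sum
      intro k _
      by_cases hka : k = a
      · rw [if_pos hka, hka]
        omega
      · rw [if_neg hka]
        by_cases hk1 : k = u₁
        · rw [hk1, h1]
          omega
        · by_cases hk2 : k = u₂
          · rw [hk2, h2]
            omega
          · have h3 := hcon k hk1 hk2 hka
            omega
    rw [Finset.sum_add_distrib, Finset.sum_ite_eq', if_pos (Finset.mem_univ a), x.colSum j,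
      y.colSum j] at hle
    omega
  obtain ⟨i', hxb⟩ := conn_unit_row x (hunit b hb1 hb2)
  have hi' : i' = j := by
    by_contra hne
    rw [hxb, Pi.single_eq_of_ne (Ne.symm hne)] at hlt
    omega
  rw [hi'] at hxb
  have hrab : r a = r b := (hunit a ha1 ha2).trans (hunit b hb1 hb2).symm
  refine ⟨swapTab a b hrab x, ?_, ?_, b, hb1, hb2, ?_, ?_⟩
  · apply conn_inv_two u₁ u₂ f hinv a b (Ne.symm hba) ha1 ha2 hb1 hb2
    intro k hka hkb
    rw [swapTab_val, Equiv.swap_apply_of_ne_of_ne hka hkb]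
  · rw [swapTab_val, Equiv.swap_apply_left, hxb, hyj]
  · intro e
    rw [e] at hlt
    omega
  · intro k _ _ hka hkb
    rw [swapTab_val, Equiv.swap_apply_of_ne_of_ne hka hkb]

/-- One step: a unit row where the two tables differ is repaired, and no new difference is
created in the unit rows. -/
private lemma conn_step {r : R → ℕ} {c : C → ℕ} (u₁ u₂ : R) (hu : u₁ ≠ u₂)
    (hunit : ∀ i, i ≠ u₁ → i ≠ u₂ → r i = 1) (f : Tab r c → ℝ)
    (hinv : ∀ p ∈ (Finset.univ.erase u₂).powersetCard 2, ∀ x y : Tab r c,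
      RelOut (ext u₁ u₂ p) x y → f x = f y)
    (x y : Tab r c) (a : R) (ha1 : a ≠ u₁) (ha2 : a ≠ u₂) (hne : x.1 a ≠ y.1 a) :
    ∃ x' : Tab r c, f x = f x' ∧ x'.1 a = y.1 a ∧
      ∀ b, b ≠ u₁ → b ≠ u₂ → x'.1 b ≠ y.1 b → x.1 b ≠ y.1 b := by
  obtain ⟨i, hxi⟩ := conn_unit_row x (hunit a ha1 ha2)
  obtain ⟨j, hyj⟩ := conn_unit_row y (hunit a ha1 ha2)
  have hij : i ≠ j := by
    intro e
    rw [e] at hxi
    exact hne (hxi.trans hyj.symm)
  by_cases h1 : 1 ≤ x.1 u₁ j
  · obtain ⟨x', hf, hxa, hoth⟩ :=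
      conn_case_one u₁ u₂ hu f hinv x y a ha1 ha2 u₁ (Or.inl rfl) i j hij hxi hyj h1
    refine ⟨x', hf, hxa, ?_⟩
    intro b hb1 hb2 hb
    by_cases hba : b = a
    · rw [hba]
      exact hne
    · rw [hoth b hb1 hb2 hba] at hb
      exact hb
  · by_cases h2 : 1 ≤ x.1 u₂ j
    · obtain ⟨x', hf, hxa, hoth⟩ :=
        conn_case_one u₁ u₂ hu f hinv x y a ha1 ha2 u₂ (Or.inr rfl) i j hij hxi hyj h2
      refine ⟨x', hf, hxa, ?_⟩
      intro b hb1 hb2 hb
      by_cases hba : b = a
      · rw [hba]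
        exact hne
      · rw [hoth b hb1 hb2 hba] at hb
        exact hb
    · obtain ⟨x', hf, hxa, b₀, _, _, hb₀, hoth⟩ :=
        conn_case_two u₁ u₂ hunit f hinv x y a ha1 ha2 i j hij hxi hyj (by omega) (by omega)
      refine ⟨x', hf, hxa, ?_⟩
      intro b hb1 hb2 hb
      by_cases hba : b = a
      · rw [hba]
        exact hne
      · by_cases hbb : b = b₀
        · rw [hbb]
          exact hb₀
        · rw [hoth b hb1 hb2 hba hbb] at hb
          exact hb

theorem conn_blocks {r : R → ℕ} {c : C → ℕ} (u₁ u₂ : R) (hu : u₁ ≠ u₂)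
    (hunit : ∀ i, i ≠ u₁ → i ≠ u₂ → r i = 1) (hex : ∃ a : R, a ≠ u₁ ∧ a ≠ u₂)
    (f : Tab r c → ℝ)
    (hinv : ∀ p ∈ (Finset.univ.erase u₂).powersetCard 2, ∀ x y : Tab r c,
      RelOut (ext u₁ u₂ p) x y → f x = f y) :
    ∀ x y : Tab r c, f x = f y := by
  obtain ⟨a₀, ha₀1, ha₀2⟩ := hex
  have key : ∀ n : ℕ, ∀ x y : Tab r c,
      (Finset.univ.filter (fun a => a ≠ u₁ ∧ a ≠ u₂ ∧ x.1 a ≠ y.1 a)).card ≤ n →
        f x = f y := by
    intro n
    induction n with
    | zero =>
      intro x y hd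
      apply conn_inv_one u₁ u₂ hu f hinv a₀ ha₀1 ha₀2 x y
      intro k hk1 hk2 _
      by_contra hne
      have hmem : k ∈ Finset.univ.filter (fun a => a ≠ u₁ ∧ a ≠ u₂ ∧ x.1 a ≠ y.1 a) :=
        Finset.mem_filter.mpr ⟨Finset.mem_univ k, hk1, hk2, hne⟩
      have hpos := Finset.card_pos.mpr ⟨k, hmem⟩
      omega
    | succ n ih =>
      intro x y hd
      by_cases hD : ∀ a, a ≠ u₁ → a ≠ u₂ → x.1 a = y.1 a
      · exact conn_inv_one u₁ u₂ hu f hinv a₀ ha₀1 ha₀2 x y (fun k hk1 hk2 _ => hD k hk1 hk2)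
      · push Not at hD
        obtain ⟨a, ha1, ha2, hne⟩ := hD
        obtain ⟨x', hfx, hxa', hsub⟩ := conn_step u₁ u₂ hu hunit f hinv x y a ha1 ha2 hne
        rw [hfx]
        apply ih
        have hamem : a ∈ Finset.univ.filter (fun a => a ≠ u₁ ∧ a ≠ u₂ ∧ x.1 a ≠ y.1 a) :=
          Finset.mem_filter.mpr ⟨Finset.mem_univ a, ha1, ha2, hne⟩
        have hss : Finset.univ.filter (fun a => a ≠ u₁ ∧ a ≠ u₂ ∧ x'.1 a ≠ y.1 a)
            ⊆ (Finset.univ.filter (fun a => a ≠ u₁ ∧ a ≠ u₂ ∧ x.1 a ≠ y.1 a)).erase a := by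
          intro b hb
          rw [Finset.mem_filter] at hb
          obtain ⟨_, hb1, hb2, hbne⟩ := hb
          rw [Finset.mem_erase, Finset.mem_filter]
          refine ⟨?_, Finset.mem_univ b, hb1, hb2, hsub b hb1 hb2 hbne⟩
          intro hba
          rw [hba] at hbne
          exact hbne hxa'
        have hc1 := Finset.card_le_card hss
        rw [Finset.card_erase_of_mem hamem] at hc1
        omega
  intro x y
  exact key _ x y le_rfl

end Vale.Agent.Lib.P328.CT
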