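import Vale.Agent.Lib.P335.Bip.Av
import Vale.Agent.Lib.P335.Bip.AvMore
import Vale.Agent.Lib.P335.Bip.TripleGap
import Vale.Agent.Lib.P335.Bip.Gap
import Vale.Agent.Lib.P335.Bip.Knabe

/-!
# P328 / abstract: the finite-size criterion with commuting disjoint pairs

`X` is a finite type, `S` a finite set of labels, `r p` an equivalence relation on `X` for
every 2-subset and 3-subset `p` of `S`, `s` a coarser relation.  If the averages of disjoint
pairs commute and every 3-subset satisfies the three-body inequality with constant 2, then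
the variance inside the `s`-classes is at most the sum over the pairs of the variances inside
the pair classes.
-/

namespace Vale.Agent.Lib.P328.CT

open Finset
open scoped Classical
open Vale.Agent.Lib.P335.Bip

variable {X : Type*} [Fintype X]

/-- Sum of all products of a finite family of functions: the square of the sum. -/
private theorem gapOne_sq_sum {ι : Type*} (I : Finset ι) (P : ι → X → ℝ) :
    ∑ p ∈ I, ∑ q ∈ I, ∑ x, P p x * P q x = ∑ x, (∑ p ∈ I, P p x) ^ 2 := by
  have h1 : ∀ x, (∑ p ∈ I, P p x) ^ 2 = ∑ p ∈ I, ∑ q ∈ I, P p x * P q x := by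
    intro x
    rw [sq, Finset.sum_mul_sum]
  calc ∑ p ∈ I, ∑ q ∈ I, ∑ x, P p x * P q x
      = ∑ p ∈ I, ∑ x, ∑ q ∈ I, P p x * P q x :=
        Finset.sum_congr rfl (fun p _ => Finset.sum_comm)
    _ = ∑ x, ∑ p ∈ I, ∑ q ∈ I, P p x * P q x := Finset.sum_comm
    _ = ∑ x, (∑ p ∈ I, P p x) ^ 2 := Finset.sum_congr rfl (fun x _ => (h1 x).symm)

/-- For two commuting class averages the complementary projections have a nonnegative
cross term. -/
private theorem gapOne_cross {r s : X → X → Prop}
    (hr : Equivalence r) (hs : Equivalence s)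
    (hcomm : ∀ f : X → ℝ, av r (av s f) = av s (av r f)) (a : X → ℝ) :
    0 ≤ ∑ x, (a x - av r a x) * (a x - av s a x) := by
  have hEsb : av s (fun x => a x - av s a x) = fun _ => 0 := by
    rw [av_sub s a (av s a), av_av hs a]
    funext x
    exact sub_self _
  have hz : ∀ g : X → ℝ, ∑ x, av s g x * (a x - av s a x) = 0 := by
    intro g
    rw [← sum_mul_av hs g (fun x => a x - av s a x), hEsb]
    simp
  have hErb : av r (fun x => a x - av s a x) = fun x => av r a x - av s (av r a) x := by
    rw [av_sub r a (av s a), hcomm a]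
  have key : ∑ x, (a x - av r a x) * (a x - av s a x)
      = ∑ x, ((a x - av s a x) - av r (fun y => a y - av s a y) x) ^ 2 := by
    rw [sum_sub_av_sq hr (fun x => a x - av s a x), hErb]
    have e1 : ∑ x, (a x - av s a x) ^ 2
        = ∑ x, a x * (a x - av s a x) - ∑ x, av s a x * (a x - av s a x) := by
      rw [← Finset.sum_sub_distrib]
      exact Finset.sum_congr rfl (fun x _ => by ring)
    have e2 : ∑ x, (a x - av s a x) * (av r a x - av s (av r a) x)
        = ∑ x, av r a x * (a x - av s a x) - ∑ x, av s (av r a) x * (a x - av s a x) := by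
      rw [← Finset.sum_sub_distrib]
      exact Finset.sum_congr rfl (fun x _ => by ring)
    have e3 : ∑ x, (a x - av r a x) * (a x - av s a x)
        = ∑ x, a x * (a x - av s a x) - ∑ x, av r a x * (a x - av s a x) := by
      rw [← Finset.sum_sub_distrib]
      exact Finset.sum_congr rfl (fun x _ => by ring)
    rw [e1, e2, e3, hz a, hz (av r a)]
    ring
  rw [key]
  exact Finset.sum_nonneg (fun x _ => sq_nonneg _)

theorem gap_one {V : Type*} [DecidableEq V] (S : Finset V)
    (r : Finset V → X → X → Prop) (s : X → X → Prop)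
    (hr2 : ∀ p ∈ S.powersetCard 2, Equivalence (r p))
    (hr3 : ∀ t ∈ S.powersetCard 3, Equivalence (r t)) (hs : Equivalence s)
    (hfine : ∀ p ∈ S.powersetCard 2, ∀ x y, r p x y → s x y)
    (hfine3 : ∀ t ∈ S.powersetCard 3, ∀ p ∈ t.powersetCard 2, ∀ x y, r p x y → r t x y)
    (hker : ∀ a : X → ℝ, (∀ p ∈ S.powersetCard 2, av (r p) a = a) → av s a = a)
    (hthree : ∀ t ∈ S.powersetCard 3, ∀ g : X → ℝ,
      ∑ p ∈ t.powersetCard 2, ∑ x, g x * av (r p) g x
        ≤ 2 * ∑ x, g x ^ 2 + ∑ x, g x * av (r t) g x)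
    (hcomm : ∀ p ∈ S.powersetCard 2, ∀ q ∈ S.powersetCard 2, Disjoint p q →
      ∀ g : X → ℝ, av (r p) (av (r q) g) = av (r q) (av (r p) g))
    (f : X → ℝ) :
    ∑ x, (f x - av s f x) ^ 2
      ≤ ∑ p ∈ S.powersetCard 2, ∑ x, (f x - av (r p) f x) ^ 2 := by
  -- the local operator
  let H : (X → ℝ) →ₗ[ℝ] (X → ℝ) :=
    ∑ p ∈ S.powersetCard 2, (LinearMap.id - avL (r p))
  have hH : ∀ (a : X → ℝ) (x : X),
      H a x = ∑ p ∈ S.powersetCard 2, (a x - av (r p) a x) := by
    intro a x
    simp only [H, LinearMap.sum_apply, Finset.sum_apply, LinearMap.sub_apply,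
      LinearMap.id_apply, avL_apply, Pi.sub_apply]
  have K1 : ∀ a : X → ℝ, ∑ x, a x * H a x
      = ∑ p ∈ S.powersetCard 2, ∑ x, (a x - av (r p) a x) ^ 2 := by
    intro a
    calc ∑ x, a x * H a x
        = ∑ x, ∑ p ∈ S.powersetCard 2, a x * (a x - av (r p) a x) := by
          refine Finset.sum_congr rfl (fun x _ => ?_)
          rw [hH, Finset.mul_sum]
      _ = ∑ p ∈ S.powersetCard 2, ∑ x, a x * (a x - av (r p) a x) := Finset.sum_comm
      _ = ∑ p ∈ S.powersetCard 2, ∑ x, (a x - av (r p) a x) ^ 2 := by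
          refine Finset.sum_congr rfl (fun p hp => ?_)
          rw [sum_sub_av_sq (hr2 p hp) a, ← Finset.sum_sub_distrib]
          exact Finset.sum_congr rfl (fun x _ => by ring)
  have hsymm : ∀ a b : X → ℝ, ∑ x, H a x * b x = ∑ x, a x * H b x := by
    intro a b
    calc ∑ x, H a x * b x
        = ∑ x, ∑ p ∈ S.powersetCard 2, (a x * b x - av (r p) a x * b x) := by
          refine Finset.sum_congr rfl (fun x _ => ?_)
          rw [hH, Finset.sum_mul]
          exact Finset.sum_congr rfl (fun p _ => by ring)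
      _ = ∑ p ∈ S.powersetCard 2, ∑ x, (a x * b x - av (r p) a x * b x) := Finset.sum_comm
      _ = ∑ p ∈ S.powersetCard 2, ∑ x, (a x * b x - a x * av (r p) b x) := by
          refine Finset.sum_congr rfl (fun p hp => ?_)
          rw [Finset.sum_sub_distrib, Finset.sum_sub_distrib, sum_mul_av (hr2 p hp) a b]
      _ = ∑ x, ∑ p ∈ S.powersetCard 2, (a x * b x - a x * av (r p) b x) := Finset.sum_comm
      _ = ∑ x, a x * H b x := by
          refine Finset.sum_congr rfl (fun x _ => ?_)
          rw [hH, Finset.mul_sum]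
          exact Finset.sum_congr rfl (fun p _ => by ring)
  have hpsd : ∀ a : X → ℝ, 0 ≤ ∑ x, a x * H a x := by
    intro a
    rw [K1]
    exact Finset.sum_nonneg (fun p _ => Finset.sum_nonneg (fun x _ => sq_nonneg _))
  have hav : ∀ a : X → ℝ, H (av s a) = 0 := by
    intro a
    funext x
    rw [hH]
    apply Finset.sum_eq_zero
    intro p hp
    rw [av_coarse' (hr2 p hp) hs (hfine p hp) a]
    exact sub_self _
  have hker' : ∀ a : X → ℝ, H a = 0 → av s a = a := by
    intro a ha
    have h0 : ∑ p ∈ S.powersetCard 2, ∑ x, (a x - av (r p) a x) ^ 2 = 0 := by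
      rw [← K1, ha]
      simp
    have h1 : ∀ p ∈ S.powersetCard 2, av (r p) a = a := by
      intro p hp
      funext x
      have h2 := (Finset.sum_eq_zero_iff_of_nonneg
        (fun p _ => Finset.sum_nonneg (fun x _ => sq_nonneg (a x - av (r p) a x)))).mp
        h0 p hp
      have h4 := (Finset.sum_eq_zero_iff_of_nonneg
        (fun x _ => sq_nonneg (a x - av (r p) a x))).mp h2 x (Finset.mem_univ x)
      have h5 : a x - av (r p) a x = 0 := by
        rcases sq_eq_zero_iff.mp h4 with h6
        exact h6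
      linarith
    exact hker a h1
  have hsq : ∀ a : X → ℝ, ∑ x, a x * H a x ≤ ∑ x, H a x ^ 2 := by
    intro a
    have hdisj : ∀ p ∈ S.powersetCard 2, ∀ q ∈ S.powersetCard 2, Disjoint p q →
        0 ≤ ∑ x, (a x - av (r p) a x) * (a x - av (r q) a x) := by
      intro p hp q hq hpq
      exact gapOne_cross (hr2 p hp) (hr2 q hq) (hcomm p hp q hq hpq) a
    have htri : ∀ t ∈ S.powersetCard 3,
        ∑ p ∈ t.powersetCard 2, ∑ x, (a x - av (r p) a x) * (a x - av (r p) a x)
          ≤ ∑ p ∈ t.powersetCard 2, ∑ q ∈ t.powersetCard 2,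
              ∑ x, (a x - av (r p) a x) * (a x - av (r q) a x) := by
      intro t ht
      have htS : t ⊆ S := (Finset.mem_powersetCard.mp ht).1
      have htc : t.card = 3 := (Finset.mem_powersetCard.mp ht).2
      have hsub : ∀ p ∈ t.powersetCard 2, p ∈ S.powersetCard 2 := by
        intro p hp
        have h1 := Finset.mem_powersetCard.mp hp
        exact Finset.mem_powersetCard.mpr ⟨h1.1.trans htS, h1.2⟩
      have h32 : Nat.choose 3 2 = 3 := by decide
      have hcard : ((t.powersetCard 2).card : ℝ) - 1 = 2 := by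
        rw [Finset.card_powersetCard, htc, h32]
        norm_num
      have htg := triple_gap (t.powersetCard 2) (fun p => r p) (r t)
        (fun p hp => hr2 p (hsub p hp)) (hr3 t ht)
        (fun p hp x y h => hfine3 t ht p hp x y h)
        (fun g => by
          rw [hcard]
          exact hthree t ht g)
        a
      rw [gapOne_sq_sum (t.powersetCard 2) (fun p x => a x - av (r p) a x)]
      refine le_trans (le_of_eq ?_) htg
      exact Finset.sum_congr rfl (fun p _ => Finset.sum_congr rfl (fun x _ => (sq _).symm))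
    have hk := knabe_sum S
      (fun p q => ∑ x, (a x - av (r p) a x) * (a x - av (r q) a x)) hdisj htri
    have e1 : ∑ p ∈ S.powersetCard 2,
        ∑ x, (a x - av (r p) a x) * (a x - av (r p) a x) = ∑ x, a x * H a x := by
      rw [K1]
      exact Finset.sum_congr rfl (fun p _ => Finset.sum_congr rfl (fun x _ => (sq _).symm))
    have e2 : ∑ p ∈ S.powersetCard 2, ∑ q ∈ S.powersetCard 2,
        ∑ x, (a x - av (r p) a x) * (a x - av (r q) a x) = ∑ x, H a x ^ 2 := by
      rw [gapOne_sq_sum (S.powersetCard 2) (fun p x => a x - av (r p) a x)]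
      exact Finset.sum_congr rfl (fun x _ => by rw [hH])
    rw [← e1, ← e2]
    exact hk
  have main := gap_of_sq_ge H s hs hsymm hpsd hsq hker' hav f
  rw [K1 f] at main
  exact main

end Vale.Agent.Lib.P328.CT
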