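import Vale.Agent.Lib.P328.CT.Defs
import Vale.Agent.Lib.P335.Bip.Rect

/-!
# P328: the averages over two disjoint sets of rows commute
-/

namespace Vale.Agent.Lib.P328.CT

open Finset
open scoped Classical
open Vale.Agent.Lib.P335.Bip

variable {R C : Type*} [Fintype R] [Fintype C]

/-- The table with the rows of `z` inside `S'` and the rows of `y` outside `S'` has the right
row and column sums, when `y` agrees with `x` outside `S`, `z` agrees with `x` outside `S'`
and `S`, `S'` are disjoint. -/
private lemma rect_mem {r : R → ℕ} {c : C → ℕ} (S S' : Finset R) (h : Disjoint S S')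
    (x y z : Tab r c) (hxy : RelOut S x y) (hxz : RelOut S' x z) :
    (fun i => if i ∈ S' then z.1 i else y.1 i) ∈ tables r c := by
  rw [mem_tables]
  refine ⟨?_, ?_⟩
  · intro i
    by_cases hi : i ∈ S'
    · simp only [if_pos hi]
      exact z.rowSum i
    · simp only [if_neg hi]
      exact y.rowSum i
  · intro j
    have hpt : ∀ i, (if i ∈ S' then z.1 i else y.1 i) j + x.1 i j = z.1 i j + y.1 i j := by
      intro i
      by_cases hi : i ∈ S'
      · have hiS : i ∉ S := fun hS => Finset.disjoint_left.mp h hS hi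
        rw [if_pos hi, hxy i hiS]
      · rw [if_neg hi, hxz i hi, add_comm]
    have hsum : ∑ i, (if i ∈ S' then z.1 i else y.1 i) j + ∑ i, x.1 i j
        = ∑ i, z.1 i j + ∑ i, y.1 i j := by
      rw [← Finset.sum_add_distrib, ← Finset.sum_add_distrib]
      exact Finset.sum_congr rfl (fun i _ => hpt i)
    rw [x.colSum, z.colSum, y.colSum] at hsum
    exact Nat.add_right_cancel hsum

/-- Resampling the rows of `S` and resampling the rows of `S'` commute when `S` and `S'` are
disjoint. -/
theorem av_relOut_comm {r : R → ℕ} {c : C → ℕ} (S S' : Finset R) (h : Disjoint S S')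
    (g : Tab r c → ℝ) :
    av (RelOut S) (av (RelOut S') g) = av (RelOut S') (av (RelOut S) g) := by
  apply av_comm_of_rect (relOut_equivalence S) (relOut_equivalence S')
  intro x y z hxy hxz
  refine ⟨⟨fun i => if i ∈ S' then z.1 i else y.1 i, rect_mem S S' h x y z hxy hxz⟩,
    ⟨?_, ?_⟩, ?_⟩
  · intro i hi
    show y.1 i = if i ∈ S' then z.1 i else y.1 i
    rw [if_neg hi]
  · intro i hi
    show z.1 i = if i ∈ S' then z.1 i else y.1 i
    by_cases hi' : i ∈ S'
    · rw [if_pos hi']
    · rw [if_neg hi', ← hxy i hi, ← hxz i hi']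
  · rintro w ⟨hw1, hw2⟩
    apply Subtype.ext
    funext i
    show w.1 i = if i ∈ S' then z.1 i else y.1 i
    by_cases hi' : i ∈ S'
    · have hiS : i ∉ S := fun hS => Finset.disjoint_left.mp h hS hi'
      rw [if_pos hi', hw2 i hiS]
    · rw [if_neg hi', hw1 i hi']

end Vale.Agent.Lib.P328.CT
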