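import Vale.Agent.Lib.P328.CT.Three
import Vale.Agent.Lib.P328.CT.GapOne
import Vale.Agent.Lib.P328.CT.Rect
import Vale.Agent.Lib.P328.CT.Conn

/-!
# P328: the block dynamics of the tables with unit rows has Poincare constant 1

All rows except `u₁`, `u₂` have sum 1.  The blocks are the pairs of unit rows and the triples
`{a, u₁, u₂}` with `a` a unit row.
-/

namespace Vale.Agent.Lib.P328.CT

open Finset
open scoped Classical
open Vale.Agent.Lib.P335.Bip

variable {R C : Type*} [Fintype R] [Fintype C]

omit [Fintype R] in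
private theorem block_ext_of_not_mem (u₁ u₂ : R) {A : Finset R} (h : u₁ ∉ A) :
    ext u₁ u₂ A = A := by
  unfold ext
  rw [if_neg h]

omit [Fintype R] in
private theorem block_ext_of_mem (u₁ u₂ : R) {A : Finset R} (h : u₁ ∈ A) :
    ext u₁ u₂ A = insert u₂ A := by
  unfold ext
  rw [if_pos h]

/-- The three-body inequality for every triple of particles. -/
theorem hthree_blocks {r : R → ℕ} {c : C → ℕ} (u₁ u₂ : R) (hu : u₁ ≠ u₂)
    (hunit : ∀ i, i ≠ u₁ → i ≠ u₂ → r i = 1)
    (t : Finset R) (ht : t ∈ (Finset.univ.erase u₂).powersetCard 3) (g : Tab r c → ℝ) :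
    ∑ p ∈ t.powersetCard 2, ∑ x, g x * av (RelOut (ext u₁ u₂ p)) g x
      ≤ 2 * ∑ x, g x ^ 2 + ∑ x, g x * av (RelOut (ext u₁ u₂ t)) g x := by
  rw [Finset.mem_powersetCard] at ht
  obtain ⟨htS, ht3⟩ := ht
  have hne2 : ∀ i ∈ t, i ≠ u₂ := fun i hi => (Finset.mem_erase.mp (htS hi)).1
  rw [Three.sum_powersetCard_two t ht3
    (fun p => ∑ x, g x * av (RelOut (ext u₁ u₂ p)) g x)]
  by_cases h1 : u₁ ∈ t
  · have hc2 : (t.erase u₁).card = 2 := by
      rw [Finset.card_erase_of_mem h1, ht3]
    obtain ⟨a, b, hab, hE⟩ := Finset.card_eq_two.mp hc2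
    have hat : a ∈ t.erase u₁ := by
      rw [hE]
      exact Finset.mem_insert_self _ _
    have hbt : b ∈ t.erase u₁ := by
      rw [hE]
      exact Finset.mem_insert_of_mem (Finset.mem_singleton_self _)
    have ha1 : a ≠ u₁ := (Finset.mem_erase.mp hat).1
    have hb1 : b ≠ u₁ := (Finset.mem_erase.mp hbt).1
    have ha2 : a ≠ u₂ := hne2 a (Finset.mem_erase.mp hat).2
    have hb2 : b ≠ u₂ := hne2 b (Finset.mem_erase.mp hbt).2
    have htE : t = insert u₁ {a, b} := by
      rw [← hE, Finset.insert_erase h1]
    have hmem : ∀ i, i ∈ t ↔ i = u₁ ∨ i = a ∨ i = b := by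
      intro i
      rw [htE]
      simp only [Finset.mem_insert, Finset.mem_singleton]
    have e0 : ext u₁ u₂ (t.erase u₁) = {a, b} := by
      rw [block_ext_of_not_mem u₁ u₂ (Finset.notMem_erase u₁ t), hE]
    have e1 : ext u₁ u₂ (t.erase a) = insert b {u₁, u₂} := by
      rw [block_ext_of_mem u₁ u₂ (Finset.mem_erase.mpr ⟨fun h => ha1 h.symm, h1⟩)]
      ext i
      simp only [Finset.mem_insert, Finset.mem_erase, Finset.mem_singleton, hmem]
      constructor
      · rintro (h | ⟨hia, h | h | h⟩)
        · exact Or.inr (Or.inr h)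
        · exact Or.inr (Or.inl h)
        · exact absurd h hia
        · exact Or.inl h
      · rintro (h | h | h)
        · exact Or.inr ⟨fun hia => hab (hia.symm.trans h), Or.inr (Or.inr h)⟩
        · exact Or.inr ⟨fun hia => ha1 (hia.symm.trans h), Or.inl h⟩
        · exact Or.inl h
    have e2 : ext u₁ u₂ (t.erase b) = insert a {u₁, u₂} := by
      rw [block_ext_of_mem u₁ u₂ (Finset.mem_erase.mpr ⟨fun h => hb1 h.symm, h1⟩)]
      ext i
      simp only [Finset.mem_insert, Finset.mem_erase, Finset.mem_singleton, hmem]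
      constructor
      · rintro (h | ⟨hib, h | h | h⟩)
        · exact Or.inr (Or.inr h)
        · exact Or.inr (Or.inl h)
        · exact Or.inl h
        · exact absurd h hib
      · rintro (h | h | h)
        · exact Or.inr ⟨fun hib => hab (h.symm.trans hib), Or.inr (Or.inl h)⟩
        · exact Or.inr ⟨fun hib => hb1 (hib.symm.trans h), Or.inl h⟩
        · exact Or.inl h
    have e3 : ext u₁ u₂ t = insert a (insert b {u₁, u₂}) := by
      rw [block_ext_of_mem u₁ u₂ h1]
      ext i
      simp only [Finset.mem_insert, Finset.mem_singleton, hmem]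
      constructor
      · rintro (h | h | h | h)
        · exact Or.inr (Or.inr (Or.inr h))
        · exact Or.inr (Or.inr (Or.inl h))
        · exact Or.inl h
        · exact Or.inr (Or.inl h)
      · rintro (h | h | h | h)
        · exact Or.inr (Or.inr (Or.inl h))
        · exact Or.inr (Or.inr (Or.inr h))
        · exact Or.inr (Or.inl h)
        · exact Or.inl h
    have hu1ab : u₁ ∉ ({a, b} : Finset R) := by
      rw [Finset.mem_insert, Finset.mem_singleton]
      rintro (h | h)
      · exact ha1 h.symm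
      · exact hb1 h.symm
    have hsum : ∑ u ∈ t, ∑ x, g x * av (RelOut (ext u₁ u₂ (t.erase u))) g x
        = ∑ x, g x * av (RelOut (ext u₁ u₂ (t.erase u₁))) g x
          + (∑ x, g x * av (RelOut (ext u₁ u₂ (t.erase a))) g x
            + ∑ x, g x * av (RelOut (ext u₁ u₂ (t.erase b))) g x) := by
      conv_lhs => rw [htE]
      rw [Finset.sum_insert hu1ab, Finset.sum_pair hab, ← htE]
    rw [hsum, e0, e1, e2, e3]
    have key := three_comp a b u₁ u₂ hab hu ha1 ha2 hb1 hb2 (hunit a ha1 ha2) (hunit b hb1 hb2) g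
    linarith
  · obtain ⟨a, b, d, hab, had, hbd, htE⟩ := Finset.card_eq_three.mp ht3
    have hat : a ∈ t := by
      rw [htE]
      exact Finset.mem_insert_self _ _
    have hbt : b ∈ t := by
      rw [htE]
      exact Finset.mem_insert_of_mem (Finset.mem_insert_self _ _)
    have ha1 : a ≠ u₁ := fun h => h1 (h ▸ hat)
    have hb1 : b ≠ u₁ := fun h => h1 (h ▸ hbt)
    have hmem : ∀ i, i ∈ t ↔ i = a ∨ i = b ∨ i = d := by
      intro i
      rw [htE]
      simp only [Finset.mem_insert, Finset.mem_singleton]
    have hext : ∀ A : Finset R, A ⊆ t → ext u₁ u₂ A = A :=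
      fun A hA => block_ext_of_not_mem u₁ u₂ (fun h => h1 (hA h))
    have e1 : t.erase a = {b, d} := by
      ext i
      simp only [Finset.mem_insert, Finset.mem_erase, Finset.mem_singleton, hmem]
      constructor
      · rintro ⟨hia, h | h | h⟩
        · exact absurd h hia
        · exact Or.inl h
        · exact Or.inr h
      · rintro (h | h)
        · exact ⟨fun hia => hab (hia.symm.trans h), Or.inr (Or.inl h)⟩
        · exact ⟨fun hia => had (hia.symm.trans h), Or.inr (Or.inr h)⟩
    have e2 : t.erase b = {a, d} := by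
      ext i
      simp only [Finset.mem_insert, Finset.mem_erase, Finset.mem_singleton, hmem]
      constructor
      · rintro ⟨hib, h | h | h⟩
        · exact Or.inl h
        · exact absurd h hib
        · exact Or.inr h
      · rintro (h | h)
        · exact ⟨fun hib => hab (h.symm.trans hib), Or.inl h⟩
        · exact ⟨fun hib => hbd (hib.symm.trans h), Or.inr (Or.inr h)⟩
    have e3 : t.erase d = {a, b} := by
      ext i
      simp only [Finset.mem_insert, Finset.mem_erase, Finset.mem_singleton, hmem]
      constructor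
      · rintro ⟨hid, h | h | h⟩
        · exact Or.inl h
        · exact Or.inr h
        · exact absurd h hid
      · rintro (h | h)
        · exact ⟨fun hid => had (h.symm.trans hid), Or.inl h⟩
        · exact ⟨fun hid => hbd (h.symm.trans hid), Or.inr (Or.inl h)⟩
    have hnotin1 : a ∉ ({b, d} : Finset R) := by
      rw [Finset.mem_insert, Finset.mem_singleton]
      rintro (h | h)
      · exact hab h
      · exact had h
    have hsum : ∑ u ∈ t, ∑ x, g x * av (RelOut (ext u₁ u₂ (t.erase u))) g x
        = ∑ x, g x * av (RelOut (ext u₁ u₂ (t.erase a))) g x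
          + (∑ x, g x * av (RelOut (ext u₁ u₂ (t.erase b))) g x
            + ∑ x, g x * av (RelOut (ext u₁ u₂ (t.erase d))) g x) := by
      conv_lhs => rw [htE]
      rw [Finset.sum_insert hnotin1, Finset.sum_pair hbd, ← htE]
    rw [hsum, hext _ (Finset.erase_subset _ _), hext _ (Finset.erase_subset _ _),
      hext _ (Finset.erase_subset _ _), hext t (Finset.Subset.refl _), e1, e2, e3]
    have key := three_unit a b d hab had hbd (hunit a ha1 (hne2 a hat))
      (hunit b hb1 (hne2 b hbt)) g
    rw [← htE] at key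
    linarith

/-- The block dynamics has Poincare constant 1. -/
theorem block_poincare {r : R → ℕ} {c : C → ℕ} (u₁ u₂ : R) (hu : u₁ ≠ u₂)
    (hunit : ∀ i, i ≠ u₁ → i ≠ u₂ → r i = 1) (hex : ∃ a : R, a ≠ u₁ ∧ a ≠ u₂)
    (f : Tab r c → ℝ) :
    ∑ x, (f x - av (RelOut (Finset.univ : Finset R)) f x) ^ 2
      ≤ ∑ p ∈ (Finset.univ.erase u₂).powersetCard 2,
          ∑ x, (f x - av (RelOut (ext u₁ u₂ p)) f x) ^ 2 := by
  refine gap_one (Finset.univ.erase u₂) (fun p => RelOut (r := r) (c := c) (ext u₁ u₂ p))
    (RelOut (Finset.univ : Finset R)) (fun p _ => relOut_equivalence _)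
    (fun t _ => relOut_equivalence _) (relOut_equivalence _)
    (fun p _ x y _ => relOut_univ x y)
    (fun t _ p hp x y h =>
      relOut_mono (ext_mono u₁ u₂ (Finset.mem_powersetCard.mp hp).1) h)
    ?_ (fun t ht g => hthree_blocks u₁ u₂ hu hunit t ht g) ?_ f
  · intro a ha
    apply av_of_invariant (relOut_equivalence _)
    intro x y _
    refine conn_blocks u₁ u₂ hu hunit hex a ?_ x y
    intro p hp x y hxy
    rw [← ha p hp]
    exact av_congr_of_rel (relOut_equivalence _) a hxy
  · intro p hp q hq hpq g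
    apply av_relOut_comm
    have hp2 : u₂ ∉ p := fun h =>
      (Finset.mem_erase.mp ((Finset.mem_powersetCard.mp hp).1 h)).1 rfl
    have hq2 : u₂ ∉ q := fun h =>
      (Finset.mem_erase.mp ((Finset.mem_powersetCard.mp hq).1 h)).1 rfl
    rw [Finset.disjoint_left] at hpq ⊢
    intro i hip hiq
    unfold ext at hip hiq
    by_cases h1p : u₁ ∈ p
    · have h1q : u₁ ∉ q := hpq h1p
      rw [if_pos h1p] at hip
      rw [if_neg h1q] at hiq
      rcases Finset.mem_insert.mp hip with h | h
      · exact hq2 (h ▸ hiq)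
      · exact hpq h hiq
    · rw [if_neg h1p] at hip
      by_cases h1q : u₁ ∈ q
      · rw [if_pos h1q] at hiq
        rcases Finset.mem_insert.mp hiq with h | h
        · exact hp2 (h ▸ hip)
        · exact hpq hip h
      · rw [if_neg h1q] at hiq
        exact hpq hip hiq

end Vale.Agent.Lib.P328.CT
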