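import Vale.Agent.Lib.P328.CT.BoxDefs

/-!
# P328: the classes of the 2 × 2 heat bath are parametrised by an integer interval

Rows `a ≠ b`, columns `j ≠ l`.  A table `z` in the class of `x` (agreeing with `x` outside the
2 × 2 subtable) is determined by its entry `z a j`, and the possible values of this entry are
the integers from `x a j - x b l` (truncated) to `x a j + min (x a l) (x b j)`.
-/

namespace Vale.Agent.Lib.P328.CT

open Finset
open scoped Classical
open Vale.Agent.Lib.P335.Bip

variable {R C : Type*} [Fintype R] [Fintype C]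

/-- Two functions with the same sum that agree outside two points have the same sum on the
two points. -/
private theorem box_aux_pair {α : Type*} [Fintype α] (j l : α) (hjl : j ≠ l) (f g : α → ℕ)
    (hs : ∑ k, f k = ∑ k, g k) (h : ∀ k, k ≠ j → k ≠ l → f k = g k) :
    g j + g l = f j + f l := by
  have hl : l ∈ (Finset.univ : Finset α).erase j :=
    Finset.mem_erase.mpr ⟨hjl.symm, Finset.mem_univ l⟩
  rw [← Finset.add_sum_erase Finset.univ f (Finset.mem_univ j),
    ← Finset.add_sum_erase Finset.univ g (Finset.mem_univ j),
    ← Finset.add_sum_erase _ f hl, ← Finset.add_sum_erase _ g hl] at hs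
  have hrest : ∑ k ∈ (Finset.univ.erase j).erase l, f k
      = ∑ k ∈ (Finset.univ.erase j).erase l, g k :=
    Finset.sum_congr rfl (fun k hk => by
      have h1 := Finset.mem_erase.mp hk
      have h2 := Finset.mem_erase.mp h1.2
      exact h k h2.1 h1.1)
  omega

/-- Two functions that agree outside two points and have the same sum on the two points have
the same sum. -/
private theorem box_aux_sum {α : Type*} [Fintype α] (j l : α) (hjl : j ≠ l) (f g : α → ℕ)
    (hp : f j + f l = g j + g l) (h : ∀ k, k ≠ j → k ≠ l → f k = g k) :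
    ∑ k, f k = ∑ k, g k := by
  have hl : l ∈ (Finset.univ : Finset α).erase j :=
    Finset.mem_erase.mpr ⟨hjl.symm, Finset.mem_univ l⟩
  rw [← Finset.add_sum_erase Finset.univ f (Finset.mem_univ j),
    ← Finset.add_sum_erase Finset.univ g (Finset.mem_univ j),
    ← Finset.add_sum_erase _ f hl, ← Finset.add_sum_erase _ g hl]
  have hrest : ∑ k ∈ (Finset.univ.erase j).erase l, f k
      = ∑ k ∈ (Finset.univ.erase j).erase l, g k :=
    Finset.sum_congr rfl (fun k hk => by
      have h1 := Finset.mem_erase.mp hk
      have h2 := Finset.mem_erase.mp h1.2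
      exact h k h2.1 h1.1)
  omega

private theorem box_aux_notMem {α : Type*} {j l k : α} (h1 : k ≠ j) (h2 : k ≠ l) :
    k ∉ ({j, l} : Finset α) := by
  intro hmem
  rcases Finset.mem_insert.mp hmem with h | h
  · exact h1 h
  · exact h2 (Finset.mem_singleton.mp h)

/-- The row sum of row `a` inside the two columns is preserved. -/
theorem box_row_a {r : R → ℕ} {c : C → ℕ} (a b : R) (hab : a ≠ b) (j l : C) (hjl : j ≠ l)
    (x z : Tab r c) (h : RelBox {a, b} {j, l} x z) :
    z.1 a j + z.1 a l = x.1 a j + x.1 a l := by
  have _hab := hab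
  exact box_aux_pair j l hjl (fun k => x.1 a k) (fun k => z.1 a k)
    ((x.rowSum a).trans (z.rowSum a).symm)
    (fun k h1 h2 => h a k (Or.inr (box_aux_notMem h1 h2)))

/-- The column sum of column `j` inside the two rows is preserved. -/
theorem box_col_j {r : R → ℕ} {c : C → ℕ} (a b : R) (hab : a ≠ b) (j l : C) (hjl : j ≠ l)
    (x z : Tab r c) (h : RelBox {a, b} {j, l} x z) :
    z.1 a j + z.1 b j = x.1 a j + x.1 b j := by
  have _hjl := hjl
  exact box_aux_pair a b hab (fun i => x.1 i j) (fun i => z.1 i j)
    ((x.colSum j).trans (z.colSum j).symm)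
    (fun i h1 h2 => h i j (Or.inl (box_aux_notMem h1 h2)))

/-- The column sum of column `l` inside the two rows is preserved. -/
theorem box_col_l {r : R → ℕ} {c : C → ℕ} (a b : R) (hab : a ≠ b) (j l : C) (hjl : j ≠ l)
    (x z : Tab r c) (h : RelBox {a, b} {j, l} x z) :
    z.1 a l + z.1 b l = x.1 a l + x.1 b l := by
  have _hjl := hjl
  exact box_aux_pair a b hab (fun i => x.1 i l) (fun i => z.1 i l)
    ((x.colSum l).trans (z.colSum l).symm)
    (fun i h1 h2 => h i l (Or.inl (box_aux_notMem h1 h2)))

/-- A table of the class is determined by its entry in row `a` and column `j`. -/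
theorem box_inj {r : R → ℕ} {c : C → ℕ} (a b : R) (hab : a ≠ b) (j l : C) (hjl : j ≠ l)
    (x : Tab r c) :
    Set.InjOn (fun z : Tab r c => z.1 a j)
      ((Finset.univ.filter (fun z : Tab r c => RelBox {a, b} {j, l} x z) : Finset (Tab r c))
        : Set (Tab r c)) := by
  intro z hz z' hz' hzz
  have hz1 : RelBox {a, b} {j, l} x z := (Finset.mem_filter.mp (Finset.mem_coe.mp hz)).2
  have hz2 : RelBox {a, b} {j, l} x z' := (Finset.mem_filter.mp (Finset.mem_coe.mp hz')).2
  have e0 : z.1 a j = z'.1 a j := hzz
  have r1 := box_row_a a b hab j l hjl x z hz1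
  have r2 := box_row_a a b hab j l hjl x z' hz2
  have c1 := box_col_j a b hab j l hjl x z hz1
  have c2 := box_col_j a b hab j l hjl x z' hz2
  have d1 := box_col_l a b hab j l hjl x z hz1
  have d2 := box_col_l a b hab j l hjl x z' hz2
  have e1 : z.1 a l = z'.1 a l := by omega
  have e2 : z.1 b j = z'.1 b j := by omega
  have e3 : z.1 b l = z'.1 b l := by omega
  apply Subtype.ext
  funext i k
  by_cases hi : i ∉ ({a, b} : Finset R)
  · exact (hz1 i k (Or.inl hi)).symm.trans (hz2 i k (Or.inl hi))
  · by_cases hk : k ∉ ({j, l} : Finset C)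
    · exact (hz1 i k (Or.inr hk)).symm.trans (hz2 i k (Or.inr hk))
    · rw [not_not] at hi hk
      rcases Finset.mem_insert.mp hi with hi' | hi'
      · rcases Finset.mem_insert.mp hk with hk' | hk'
        · rw [hi', hk']
          exact e0
        · rw [hi', Finset.mem_singleton.mp hk']
          exact e1
      · rcases Finset.mem_insert.mp hk with hk' | hk'
        · rw [Finset.mem_singleton.mp hi', hk']
          exact e2
        · rw [Finset.mem_singleton.mp hi', Finset.mem_singleton.mp hk']
          exact e3

/-- The table obtained from `M` by prescribing the entry `t` in row `a` and column `j` and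
adjusting the three other entries of the subtable. -/
private noncomputable def boxFill (M : R → C → ℕ) (a b : R) (j l : C) (t : ℕ) : R → C → ℕ :=
  fun i k =>
    if i = a ∧ k = j then t
    else if i = a ∧ k = l then M a j + M a l - t
    else if i = b ∧ k = j then M a j + M b j - t
    else if i = b ∧ k = l then M b l + t - M a j
    else M i k

omit [Fintype R] [Fintype C] in
private theorem boxFill_aj (M : R → C → ℕ) (a b : R) (j l : C) (t : ℕ) :
    boxFill M a b j l t a j = t := by
  unfold boxFill
  simp

omit [Fintype R] [Fintype C] in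
private theorem boxFill_al (M : R → C → ℕ) (a b : R) (j l : C) (hjl : j ≠ l) (t : ℕ) :
    boxFill M a b j l t a l = M a j + M a l - t := by
  unfold boxFill
  simp [hjl.symm]

omit [Fintype R] [Fintype C] in
private theorem boxFill_bj (M : R → C → ℕ) (a b : R) (hab : a ≠ b) (j l : C) (t : ℕ) :
    boxFill M a b j l t b j = M a j + M b j - t := by
  unfold boxFill
  simp [hab.symm]

omit [Fintype R] [Fintype C] in
private theorem boxFill_bl (M : R → C → ℕ) (a b : R) (hab : a ≠ b) (j l : C) (hjl : j ≠ l)
    (t : ℕ) : boxFill M a b j l t b l = M b l + t - M a j := by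
  unfold boxFill
  simp [hab.symm, hjl.symm]

omit [Fintype R] [Fintype C] in
private theorem boxFill_row (M : R → C → ℕ) (a b : R) (j l : C) (t : ℕ) (i : R) (k : C)
    (h1 : i ≠ a) (h2 : i ≠ b) : boxFill M a b j l t i k = M i k := by
  unfold boxFill
  simp [h1, h2]

omit [Fintype R] [Fintype C] in
private theorem boxFill_col (M : R → C → ℕ) (a b : R) (j l : C) (t : ℕ) (i : R) (k : C)
    (h1 : k ≠ j) (h2 : k ≠ l) : boxFill M a b j l t i k = M i k := by
  unfold boxFill
  simp [h1, h2]

/-- The values of the entry in row `a` and column `j` over the class of `x`. -/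
theorem box_image {r : R → ℕ} {c : C → ℕ} (a b : R) (hab : a ≠ b) (j l : C) (hjl : j ≠ l)
    (x : Tab r c) :
    (Finset.univ.filter (fun z : Tab r c => RelBox {a, b} {j, l} x z)).image
        (fun z : Tab r c => z.1 a j)
      = Finset.Icc (x.1 a j - x.1 b l) (x.1 a j + min (x.1 a l) (x.1 b j)) := by
  ext t
  rw [Finset.mem_image, Finset.mem_Icc]
  constructor
  · rintro ⟨z, hz, rfl⟩
    have hz1 : RelBox {a, b} {j, l} x z := (Finset.mem_filter.mp hz).2
    have r1 := box_row_a a b hab j l hjl x z hz1
    have c1 := box_col_j a b hab j l hjl x z hz1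
    have d1 := box_col_l a b hab j l hjl x z hz1
    refine ⟨by omega, ?_⟩
    rcases le_total (x.1 a l) (x.1 b j) with hm | hm
    · rw [min_eq_left hm]
      omega
    · rw [min_eq_right hm]
      omega
  · rintro ⟨hlo, hhi⟩
    have h1 : t ≤ x.1 a j + x.1 a l :=
      hhi.trans (Nat.add_le_add_left (min_le_left _ _) _)
    have h2 : t ≤ x.1 a j + x.1 b j :=
      hhi.trans (Nat.add_le_add_left (min_le_right _ _) _)
    have h3 : x.1 a j ≤ x.1 b l + t := by omega
    have haj := boxFill_aj x.1 a b j l t
    have hal := boxFill_al x.1 a b j l hjl t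
    have hbj := boxFill_bj x.1 a b hab j l t
    have hbl := boxFill_bl x.1 a b hab j l hjl t
    have hrow : ∀ i, ∑ k, boxFill x.1 a b j l t i k = r i := by
      intro i
      rw [← x.rowSum i]
      refine box_aux_sum j l hjl _ _ ?_ (fun k hk1 hk2 => boxFill_col x.1 a b j l t i k hk1 hk2)
      by_cases hia : i = a
      · rw [hia, haj, hal]
        omega
      · by_cases hib : i = b
        · rw [hib, hbj, hbl]
          omega
        · rw [boxFill_row x.1 a b j l t i j hia hib, boxFill_row x.1 a b j l t i l hia hib]
    have hcol : ∀ k, ∑ i, boxFill x.1 a b j l t i k = c k := by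
      intro k
      rw [← x.colSum k]
      refine box_aux_sum a b hab (fun i => boxFill x.1 a b j l t i k) (fun i => x.1 i k) ?_
        (fun i hi1 hi2 => boxFill_row x.1 a b j l t i k hi1 hi2)
      show boxFill x.1 a b j l t a k + boxFill x.1 a b j l t b k = x.1 a k + x.1 b k
      by_cases hkj : k = j
      · rw [hkj, haj, hbj]
        omega
      · by_cases hkl : k = l
        · rw [hkl, hal, hbl]
          omega
        · rw [boxFill_col x.1 a b j l t a k hkj hkl, boxFill_col x.1 a b j l t b k hkj hkl]
    refine ⟨⟨boxFill x.1 a b j l t, mem_tables.mpr ⟨hrow, hcol⟩⟩, ?_, haj⟩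
    rw [Finset.mem_filter]
    refine ⟨Finset.mem_univ _, ?_⟩
    intro i k hik
    show x.1 i k = boxFill x.1 a b j l t i k
    rcases hik with hi | hk
    · have hia : i ≠ a := fun e => hi (by rw [e]; exact Finset.mem_insert_self _ _)
      have hib : i ≠ b := fun e => hi (by
        rw [e]
        exact Finset.mem_insert_of_mem (Finset.mem_singleton_self _))
      exact (boxFill_row x.1 a b j l t i k hia hib).symm
    · have hkj : k ≠ j := fun e => hk (by rw [e]; exact Finset.mem_insert_self _ _)
      have hkl : k ≠ l := fun e => hk (by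
        rw [e]
        exact Finset.mem_insert_of_mem (Finset.mem_singleton_self _))
      exact (boxFill_col x.1 a b j l t i k hkj hkl).symm

end Vale.Agent.Lib.P328.CT
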