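import Vale.Agent.Lib.P328.CT.BoxDefs

/-!
# P328: two tables that agree outside two rows are joined by a path of unit moves
-/

namespace Vale.Agent.Lib.P328.CT

open Finset
open scoped Classical
open Vale.Agent.Lib.P335.Bip

variable {R C : Type*} [Fintype R] [Fintype C]

theorem adj_symm {r : R → ℕ} {c : C → ℕ} (a b : R) {x y : Tab r c} (h : Adj a b x y) :
    Adj a b y x := by
  obtain ⟨h1, u, v, huv, hu, hv, hl⟩ := h
  exact ⟨fun i hi => (h1 i hi).symm, v, u, huv.symm, hv.symm, hu.symm,
    fun l hlv hlu => (hl l hlu hlv).symm⟩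

/-- Moving one unit from the index `v` to the index `u` does not change the sum. -/
private theorem sum_move {α : Type*} [Fintype α] {f g : α → ℕ} {u v : α} (huv : u ≠ v)
    (hu : g u = f u + 1) (hv : g v + 1 = f v) (hl : ∀ l, l ≠ u → l ≠ v → g l = f l) :
    ∑ l, g l = ∑ l, f l := by
  have hvm : v ∈ (Finset.univ : Finset α).erase u :=
    Finset.mem_erase.mpr ⟨huv.symm, Finset.mem_univ v⟩
  have g1 : g u + ∑ l ∈ (Finset.univ : Finset α).erase u, g l = ∑ l, g l :=
    Finset.add_sum_erase Finset.univ g (Finset.mem_univ u)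
  have g2 : g v + ∑ l ∈ ((Finset.univ : Finset α).erase u).erase v, g l
      = ∑ l ∈ (Finset.univ : Finset α).erase u, g l :=
    Finset.add_sum_erase _ g hvm
  have f1 : f u + ∑ l ∈ (Finset.univ : Finset α).erase u, f l = ∑ l, f l :=
    Finset.add_sum_erase Finset.univ f (Finset.mem_univ u)
  have f2 : f v + ∑ l ∈ ((Finset.univ : Finset α).erase u).erase v, f l
      = ∑ l ∈ (Finset.univ : Finset α).erase u, f l :=
    Finset.add_sum_erase _ f hvm
  have hrest : ∑ l ∈ ((Finset.univ : Finset α).erase u).erase v, g l
      = ∑ l ∈ ((Finset.univ : Finset α).erase u).erase v, f l :=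
    Finset.sum_congr rfl (fun l hl' =>
      hl l (Finset.mem_erase.mp (Finset.mem_erase.mp hl').2).1 (Finset.mem_erase.mp hl').1)
  omega

/-- In every column the two rows `a`, `b` of two tables that agree in the other rows have the
same sum. -/
private theorem col_two {r : R → ℕ} {c : C → ℕ} (a b : R) (hab : a ≠ b) (x y : Tab r c)
    (h : RelOut {a, b} x y) (j : C) : x.1 a j + x.1 b j = y.1 a j + y.1 b j := by
  have hbm : b ∈ (Finset.univ : Finset R).erase a :=
    Finset.mem_erase.mpr ⟨hab.symm, Finset.mem_univ b⟩
  have x1 : x.1 a j + ∑ i ∈ (Finset.univ : Finset R).erase a, x.1 i j = ∑ i, x.1 i j :=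
    Finset.add_sum_erase Finset.univ (fun i => x.1 i j) (Finset.mem_univ a)
  have x2 : x.1 b j + ∑ i ∈ ((Finset.univ : Finset R).erase a).erase b, x.1 i j
      = ∑ i ∈ (Finset.univ : Finset R).erase a, x.1 i j :=
    Finset.add_sum_erase _ (fun i => x.1 i j) hbm
  have y1 : y.1 a j + ∑ i ∈ (Finset.univ : Finset R).erase a, y.1 i j = ∑ i, y.1 i j :=
    Finset.add_sum_erase Finset.univ (fun i => y.1 i j) (Finset.mem_univ a)
  have y2 : y.1 b j + ∑ i ∈ ((Finset.univ : Finset R).erase a).erase b, y.1 i j
      = ∑ i ∈ (Finset.univ : Finset R).erase a, y.1 i j :=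
    Finset.add_sum_erase _ (fun i => y.1 i j) hbm
  have hrest : ∑ i ∈ ((Finset.univ : Finset R).erase a).erase b, x.1 i j
      = ∑ i ∈ ((Finset.univ : Finset R).erase a).erase b, y.1 i j := by
    refine Finset.sum_congr rfl (fun i hi => ?_)
    have hib : i ≠ b := (Finset.mem_erase.mp hi).1
    have hia : i ≠ a := (Finset.mem_erase.mp (Finset.mem_erase.mp hi).2).1
    have hmem : i ∉ ({a, b} : Finset R) := by
      simp [hia, hib]
    rw [h i hmem]
  have hx := x.colSum j
  have hy := y.colSum j
  omega

/-- The unit move: one unit of row `a` goes from column `v` to column `u`, one unit of row `b`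
from column `u` to column `v`. -/
private theorem exists_move {r : R → ℕ} {c : C → ℕ} (a b : R) (hab : a ≠ b) (x : Tab r c)
    (u v : C) (huv : u ≠ v) (hav : 1 ≤ x.1 a v) (hbu : 1 ≤ x.1 b u) :
    ∃ x' : Tab r c, RelOut {a, b} x x' ∧ x'.1 a u = x.1 a u + 1 ∧ x'.1 a v + 1 = x.1 a v ∧
      ∀ l, l ≠ u → l ≠ v → x'.1 a l = x.1 a l := by
  obtain ⟨M, hM⟩ : ∃ M : R → C → ℕ, M = fun i j =>
      if i = a then (if j = u then x.1 a u + 1 else if j = v then x.1 a v - 1 else x.1 a j)
      else if i = b then
        (if j = u then x.1 b u - 1 else if j = v then x.1 b v + 1 else x.1 b j)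
      else x.1 i j := ⟨_, rfl⟩
  have Ma_u : M a u = x.1 a u + 1 := by
    rw [hM]
    simp
  have Ma_v : M a v = x.1 a v - 1 := by
    rw [hM]
    simp [huv.symm]
  have Ma_l : ∀ l, l ≠ u → l ≠ v → M a l = x.1 a l := by
    intro l hlu hlv
    rw [hM]
    simp [hlu, hlv]
  have Mb_u : M b u = x.1 b u - 1 := by
    rw [hM]
    simp [hab.symm]
  have Mb_v : M b v = x.1 b v + 1 := by
    rw [hM]
    simp [hab.symm, huv.symm]
  have Mb_l : ∀ l, l ≠ u → l ≠ v → M b l = x.1 b l := by
    intro l hlu hlv
    rw [hM]
    simp [hab.symm, hlu, hlv]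
  have Mo : ∀ i, i ≠ a → i ≠ b → M i = x.1 i := by
    intro i hia hib
    rw [hM]
    funext j
    simp [hia, hib]
  have hrow : ∀ i, ∑ j, M i j = r i := by
    intro i
    by_cases hia : i = a
    · rw [hia, ← x.rowSum a]
      exact sum_move huv Ma_u (by omega) Ma_l
    · by_cases hib : i = b
      · rw [hib, ← x.rowSum b]
        exact sum_move huv.symm Mb_v (by omega) (fun l hlv hlu => Mb_l l hlu hlv)
      · rw [Mo i hia hib]
        exact x.rowSum i
  have hcol : ∀ j, ∑ i, M i j = c j := by
    intro j
    rw [← x.colSum j]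
    by_cases hju : j = u
    · rw [hju]
      refine sum_move (f := fun i => x.1 i u) (g := fun i => M i u) hab Ma_u ?_ ?_
      · show M b u + 1 = x.1 b u
        omega
      · intro i hia hib
        show M i u = x.1 i u
        rw [Mo i hia hib]
    · by_cases hjv : j = v
      · rw [hjv]
        refine sum_move (f := fun i => x.1 i v) (g := fun i => M i v) hab.symm Mb_v ?_ ?_
        · show M a v + 1 = x.1 a v
          omega
        · intro i hib hia
          show M i v = x.1 i v
          rw [Mo i hia hib]
      · refine Finset.sum_congr rfl (fun i _ => ?_)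
        by_cases hia : i = a
        · rw [hia]
          exact Ma_l j hju hjv
        · by_cases hib : i = b
          · rw [hib]
            exact Mb_l j hju hjv
          · rw [Mo i hia hib]
  refine ⟨⟨M, mem_tables.mpr ⟨hrow, hcol⟩⟩, ?_, Ma_u, ?_, Ma_l⟩
  · intro i hi
    have hia : i ≠ a := fun e => hi (by simp [e])
    have hib : i ≠ b := fun e => hi (by simp [e])
    exact (Mo i hia hib).symm
  · show M a v + 1 = x.1 a v
    omega

theorem adj_conn {r : R → ℕ} {c : C → ℕ} (a b : R) (hab : a ≠ b) (x y : Tab r c)
    (h : RelOut {a, b} x y) : Relation.ReflTransGen (Adj a b) x y := by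
  have key : ∀ (d : ℕ) (x : Tab r c), RelOut {a, b} x y → ∑ l, (x.1 a l - y.1 a l) = d →
      Relation.ReflTransGen (Adj a b) x y := by
    intro d
    induction d with
    | zero =>
      intro x h hd
      have hle : ∀ l, x.1 a l ≤ y.1 a l := by
        intro l
        have h0 := (Finset.sum_eq_zero_iff.mp hd) l (Finset.mem_univ l)
        omega
      have hrow : ∀ l, x.1 a l = y.1 a l := by
        have hsum : ∑ l, x.1 a l = ∑ l, y.1 a l := by
          rw [x.rowSum a, y.rowSum a]
        intro l
        exact (Finset.sum_eq_sum_iff_of_le (fun l _ => hle l)).mp hsum l (Finset.mem_univ l)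
      have hxy : x = y := by
        apply Subtype.ext
        funext i j
        by_cases hia : i = a
        · rw [hia]
          exact hrow j
        · by_cases hib : i = b
          · rw [hib]
            refine entry_eq_of_col x y b j (fun i' hi' => ?_)
            by_cases hi'a : i' = a
            · rw [hi'a]
              exact hrow j
            · have hmem : i' ∉ ({a, b} : Finset R) := by
                simp [hi'a, hi']
              rw [h i' hmem]
          · have hmem : i ∉ ({a, b} : Finset R) := by
              simp [hia, hib]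
            rw [h i hmem]
      rw [hxy]
    | succ d ih =>
      intro x h hd
      have hv : ∃ v, y.1 a v < x.1 a v := by
        by_contra hcon
        push Not at hcon
        have h0 : ∑ l, (x.1 a l - y.1 a l) = 0 :=
          Finset.sum_eq_zero (fun l _ => Nat.sub_eq_zero_of_le (hcon l))
        omega
      obtain ⟨v, hv⟩ := hv
      have hu : ∃ u, x.1 a u < y.1 a u := by
        by_contra hcon
        push Not at hcon
        have hsum : ∑ l, y.1 a l = ∑ l, x.1 a l := by
          rw [x.rowSum a, y.rowSum a]
        have hlt : ∑ l, y.1 a l < ∑ l, x.1 a l :=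
          Finset.sum_lt_sum (fun l _ => hcon l) ⟨v, Finset.mem_univ v, hv⟩
        omega
      obtain ⟨u, hu⟩ := hu
      have huv : u ≠ v := by
        intro huv
        rw [huv] at hu
        omega
      have hcol := col_two a b hab x y h u
      have hbu : 1 ≤ x.1 b u := by omega
      have hav : 1 ≤ x.1 a v := by omega
      obtain ⟨x', hx'out, hx'u, hx'v, hx'l⟩ := exists_move a b hab x u v huv hav hbu
      have hadj : Adj a b x x' := ⟨hx'out, u, v, huv, hx'u, hx'v, hx'l⟩
      have hout' : RelOut {a, b} x' y := fun i hi => (hx'out i hi).symm.trans (h i hi)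
      have hd' : ∑ l, (x'.1 a l - y.1 a l) = d := by
        have e1 : (x.1 a v - y.1 a v) + ∑ l ∈ (Finset.univ : Finset C).erase v,
            (x.1 a l - y.1 a l) = ∑ l, (x.1 a l - y.1 a l) :=
          Finset.add_sum_erase Finset.univ (fun l => x.1 a l - y.1 a l) (Finset.mem_univ v)
        have e2 : (x'.1 a v - y.1 a v) + ∑ l ∈ (Finset.univ : Finset C).erase v,
            (x'.1 a l - y.1 a l) = ∑ l, (x'.1 a l - y.1 a l) :=
          Finset.add_sum_erase Finset.univ (fun l => x'.1 a l - y.1 a l) (Finset.mem_univ v)
        have hrest : ∑ l ∈ (Finset.univ : Finset C).erase v, (x'.1 a l - y.1 a l)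
            = ∑ l ∈ (Finset.univ : Finset C).erase v, (x.1 a l - y.1 a l) := by
          refine Finset.sum_congr rfl (fun l hl => ?_)
          have hlv : l ≠ v := (Finset.mem_erase.mp hl).1
          by_cases hlu : l = u
          · rw [hlu]
            omega
          · rw [hx'l l hlu hlv]
        omega
      exact Relation.ReflTransGen.head hadj (ih x' hout' hd')
  exact key _ x h rfl

end Vale.Agent.Lib.P328.CT
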