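import Vale.Agent.Lib.P328.CT.Defs

/-!
# P328: the 2 × 2 heat bath - definitions

`RelBox q p x y`: the tables `x`, `y` agree outside the subtable with rows in `q` and columns
in `p`.  For `q`, `p` of cardinality 2 the classes are the fibres of the 2 × 2 heat bath move:
the 2 × 2 subtable is replaced by a uniformly random 2 × 2 table of natural numbers with the
same row and column sums.
`Adj a b x y`: `y` is obtained from `x` by moving one unit of row `a` from a column `v` to a
column `u` (and one unit of row `b` from `u` to `v`); all other rows are unchanged.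
-/

namespace Vale.Agent.Lib.P328.CT

open Finset
open scoped Classical
open Vale.Agent.Lib.P335.Bip

variable {R C : Type*} [Fintype R] [Fintype C]

/-- Two tables agree outside the subtable with rows in `q` and columns in `p`. -/
def RelBox {r : R → ℕ} {c : C → ℕ} (q : Finset R) (p : Finset C) (x y : Tab r c) : Prop :=
  ∀ i j, (i ∉ q ∨ j ∉ p) → x.1 i j = y.1 i j

theorem relBox_equivalence {r : R → ℕ} {c : C → ℕ} (q : Finset R) (p : Finset C) :
    Equivalence (RelBox (r := r) (c := c) q p) :=
  ⟨fun _ _ _ _ => rfl, fun h i j hij => (h i j hij).symm,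
    fun h1 h2 i j hij => (h1 i j hij).trans (h2 i j hij)⟩

theorem relBox_relOut {r : R → ℕ} {c : C → ℕ} (q : Finset R) (p : Finset C) {x y : Tab r c}
    (h : RelBox q p x y) : RelOut q x y :=
  fun i hi => funext (fun j => h i j (Or.inl hi))

/-- Two tables that agree in column `j` in all rows except `b` agree in the entry in row `b` and column `j`. -/
theorem entry_eq_of_col {r : R → ℕ} {c : C → ℕ} (x y : Tab r c) (b : R) (j : C)
    (h : ∀ i, i ≠ b → x.1 i j = y.1 i j) : x.1 b j = y.1 b j := by
  have hx := x.colSum j
  have hy := y.colSum j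
  rw [← Finset.add_sum_erase Finset.univ (fun i => x.1 i j) (Finset.mem_univ b)] at hx
  rw [← Finset.add_sum_erase Finset.univ (fun i => y.1 i j) (Finset.mem_univ b)] at hy
  have hrest : ∑ i ∈ Finset.univ.erase b, x.1 i j = ∑ i ∈ Finset.univ.erase b, y.1 i j :=
    Finset.sum_congr rfl (fun i hi => h i (Finset.mem_erase.mp hi).1)
  omega

/-- `y` is obtained from `x` by moving one unit of row `a` from column `v` to column `u`; the
rows other than `a`, `b` are unchanged (row `b` is then determined by the column sums). -/
def Adj {r : R → ℕ} {c : C → ℕ} (a b : R) (x y : Tab r c) : Prop :=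
  RelOut {a, b} x y ∧ ∃ u v : C, u ≠ v ∧ y.1 a u = x.1 a u + 1 ∧ y.1 a v + 1 = x.1 a v ∧
    ∀ l, l ≠ u → l ≠ v → y.1 a l = x.1 a l

/-- The tables that agree with `M` outside the subtable with rows in `q` and columns in `p`. -/
noncomputable def boxClass (r : R → ℕ) (c : C → ℕ) (q : Finset R) (p : Finset C)
    (M : R → C → ℕ) : Finset (R → C → ℕ) :=
  (tables r c).filter (fun N => ∀ i j, (i ∉ q ∨ j ∉ p) → N i j = M i j)

/-- The average of `f` over the tables that agree with `M` outside the subtable with rows in
`q` and columns in `p`: the conditional expectation of `f` given all entries outside the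
subtable, under the uniform distribution on `tables r c`. -/
noncomputable def boxAvg (r : R → ℕ) (c : C → ℕ) (q : Finset R) (p : Finset C)
    (f : (R → C → ℕ) → ℝ) (M : R → C → ℕ) : ℝ :=
  (∑ N ∈ boxClass r c q p M, f N) / ((boxClass r c q p M).card : ℝ)

end Vale.Agent.Lib.P328.CT
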