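import Mathlib

/-!
# P328 / abstract: the averages over two finite sets that are parametrised by two nearby
integer intervals

`A`, `B` are finite sets with an injective coordinate `κ` onto the intervals `[a₁, a₂]`,
`[b₁, b₂]`, where `b₁ - a₁` and `b₂ - a₂` are 0 or 1.  If `|f z - f z'| ≤ Λ` whenever
`z ∈ A`, `z' ∈ B` and `κ z' - κ z` is 0 or 1, then the averages of `f` over `A` and over `B`
differ by at most `Λ` (monotone coupling of the two uniform distributions).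
-/

namespace Vale.Agent.Lib.P328.CT

open Finset
open scoped Classical

private lemma couple_gen {X : Type*} (A : Finset X) (κ : X → ℕ)
    (hAinj : Set.InjOn κ (A : Set X)) (f : X → ℝ) :
    ∃ F : ℕ → ℝ, (∀ z ∈ A, F (κ z) = f z) ∧ ∑ z ∈ A, f z = ∑ t ∈ A.image κ, F t := by
  have hF : ∀ z ∈ A,
      (fun t => if h : ∃ z' ∈ A, κ z' = t then f h.choose else 0) (κ z) = f z := by
    intro z hz
    have hex : ∃ z' ∈ A, κ z' = κ z := ⟨z, hz, rfl⟩
    show (if h : ∃ z' ∈ A, κ z' = κ z then f h.choose else 0) = f z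
    rw [dif_pos hex]
    have hc := hex.choose_spec
    rw [hAinj (Finset.mem_coe.mpr hc.1) (Finset.mem_coe.mpr hz) hc.2]
  refine ⟨fun t => if h : ∃ z' ∈ A, κ z' = t then f h.choose else 0, hF, ?_⟩
  rw [Finset.sum_image (fun x hx y hy hxy =>
    hAinj (Finset.mem_coe.mpr hx) (Finset.mem_coe.mpr hy) hxy)]
  exact Finset.sum_congr rfl (fun z hz => (hF z hz).symm)

private lemma couple_Icc (g : ℕ → ℝ) (a b : ℕ) :
    ∑ t ∈ Finset.Icc a b, g t = ∑ i ∈ Finset.range (b + 1 - a), g (a + i) := by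
  refine Finset.sum_nbij' (fun t => t - a) (fun i => a + i) ?_ ?_ ?_ ?_ ?_
  · intro t ht
    have h := Finset.mem_Icc.mp ht
    show t - a ∈ Finset.range (b + 1 - a)
    exact Finset.mem_range.mpr (by omega)
  · intro i hi
    have h := Finset.mem_range.mp hi
    show a + i ∈ Finset.Icc a b
    exact Finset.mem_Icc.mpr ⟨by omega, by omega⟩
  · intro t ht
    have h := Finset.mem_Icc.mp ht
    show a + (t - a) = t
    omega
  · intro i hi
    show a + i - a = i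
    omega
  · intro t ht
    have h := Finset.mem_Icc.mp ht
    show g t = g (a + (t - a))
    congr 1
    omega

private lemma couple_same (n : ℕ) (hn : 1 ≤ n) (u v : ℕ → ℝ) (Λ : ℝ)
    (h : ∀ i, i < n → |u i - v i| ≤ Λ) :
    |(∑ i ∈ Finset.range n, u i) / (n : ℝ) - (∑ i ∈ Finset.range n, v i) / (n : ℝ)| ≤ Λ := by
  have hn0 : (0 : ℝ) < n := by exact_mod_cast hn
  rw [← sub_div, ← Finset.sum_sub_distrib, abs_div, abs_of_pos hn0, div_le_iff₀ hn0]
  calc |∑ i ∈ Finset.range n, (u i - v i)|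
      ≤ ∑ i ∈ Finset.range n, |u i - v i| := Finset.abs_sum_le_sum_abs _ _
    _ ≤ ∑ i ∈ Finset.range n, Λ :=
        Finset.sum_le_sum (fun i hi => h i (Finset.mem_range.mp hi))
    _ = Λ * n := by
        rw [Finset.sum_const, Finset.card_range, nsmul_eq_mul]
        ring

private lemma couple_identity (n : ℕ) (u v : ℕ → ℝ) :
    ((n : ℝ) + 1) * ∑ i ∈ Finset.range n, u i - (n : ℝ) * ∑ i ∈ Finset.range (n + 1), v i =
      ∑ i ∈ Finset.range n,
        (((n : ℝ) - i) * (u i - v i) + ((i : ℝ) + 1) * (u i - v (i + 1))) := by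
  have e1 : ∑ i ∈ Finset.range n, ((n : ℝ) - i) * v i =
      ∑ i ∈ Finset.range (n + 1), ((n : ℝ) - i) * v i := by
    rw [Finset.sum_range_succ]
    simp
  have e2 : ∑ i ∈ Finset.range n, ((i : ℝ) + 1) * v (i + 1) =
      ∑ i ∈ Finset.range (n + 1), (i : ℝ) * v i := by
    rw [Finset.sum_range_succ']
    simp
  have e3 : ∑ i ∈ Finset.range (n + 1), ((n : ℝ) - i) * v i +
      ∑ i ∈ Finset.range (n + 1), (i : ℝ) * v i =
      (n : ℝ) * ∑ i ∈ Finset.range (n + 1), v i := by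
    rw [← Finset.sum_add_distrib, Finset.mul_sum]
    exact Finset.sum_congr rfl (fun i _ => by ring)
  have e4 : ∑ i ∈ Finset.range n,
        (((n : ℝ) - i) * (u i - v i) + ((i : ℝ) + 1) * (u i - v (i + 1))) =
      ((n : ℝ) + 1) * ∑ i ∈ Finset.range n, u i -
        ∑ i ∈ Finset.range n, ((n : ℝ) - i) * v i -
        ∑ i ∈ Finset.range n, ((i : ℝ) + 1) * v (i + 1) := by
    rw [Finset.mul_sum, ← Finset.sum_sub_distrib, ← Finset.sum_sub_distrib]
    exact Finset.sum_congr rfl (fun i _ => by ring)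
  rw [e4, e1, e2, ← e3]
  ring

private lemma couple_up (n : ℕ) (hn : 1 ≤ n) (u v : ℕ → ℝ) (Λ : ℝ)
    (h : ∀ i, i < n → |u i - v i| ≤ Λ ∧ |u i - v (i + 1)| ≤ Λ) :
    |(∑ i ∈ Finset.range n, u i) / (n : ℝ) -
        (∑ i ∈ Finset.range (n + 1), v i) / ((n : ℝ) + 1)| ≤ Λ := by
  have hn0 : (0 : ℝ) < n := by exact_mod_cast hn
  have hn1 : (0 : ℝ) < (n : ℝ) + 1 := by linarith
  have key := couple_identity n u v
  have hb : |∑ i ∈ Finset.range n,
        (((n : ℝ) - i) * (u i - v i) + ((i : ℝ) + 1) * (u i - v (i + 1)))|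
      ≤ ∑ i ∈ Finset.range n, ((n : ℝ) + 1) * Λ := by
    refine (Finset.abs_sum_le_sum_abs _ _).trans (Finset.sum_le_sum (fun i hi => ?_))
    have hi' : i < n := Finset.mem_range.mp hi
    obtain ⟨h1, h2⟩ := h i hi'
    have w1 : (0 : ℝ) ≤ (n : ℝ) - i := by
      have : (i : ℝ) ≤ n := by exact_mod_cast hi'.le
      linarith
    have w2 : (0 : ℝ) ≤ (i : ℝ) + 1 := by positivity
    calc |((n : ℝ) - i) * (u i - v i) + ((i : ℝ) + 1) * (u i - v (i + 1))|
        ≤ |((n : ℝ) - i) * (u i - v i)| + |((i : ℝ) + 1) * (u i - v (i + 1))| :=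
          abs_add_le _ _
      _ = ((n : ℝ) - i) * |u i - v i| + ((i : ℝ) + 1) * |u i - v (i + 1)| := by
          rw [abs_mul, abs_mul, abs_of_nonneg w1, abs_of_nonneg w2]
      _ ≤ ((n : ℝ) - i) * Λ + ((i : ℝ) + 1) * Λ :=
          add_le_add (mul_le_mul_of_nonneg_left h1 w1) (mul_le_mul_of_nonneg_left h2 w2)
      _ = ((n : ℝ) + 1) * Λ := by ring
  rw [Finset.sum_const, Finset.card_range, nsmul_eq_mul] at hb
  have e : (∑ i ∈ Finset.range n, u i) / (n : ℝ) -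
      (∑ i ∈ Finset.range (n + 1), v i) / ((n : ℝ) + 1) =
      (((n : ℝ) + 1) * ∑ i ∈ Finset.range n, u i -
        (n : ℝ) * ∑ i ∈ Finset.range (n + 1), v i) / ((n : ℝ) * ((n : ℝ) + 1)) := by
    field_simp
  rw [e, key, abs_div, abs_of_pos (mul_pos hn0 hn1), div_le_iff₀ (mul_pos hn0 hn1)]
  calc |∑ i ∈ Finset.range n,
        (((n : ℝ) - i) * (u i - v i) + ((i : ℝ) + 1) * (u i - v (i + 1)))|
      ≤ (n : ℝ) * (((n : ℝ) + 1) * Λ) := hb
    _ = Λ * ((n : ℝ) * ((n : ℝ) + 1)) := by ring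

theorem interval_couple {X : Type*} (A B : Finset X) (κ : X → ℕ) (a₁ a₂ b₁ b₂ : ℕ)
    (hAinj : Set.InjOn κ (A : Set X)) (hBinj : Set.InjOn κ (B : Set X))
    (hA : A.image κ = Finset.Icc a₁ a₂) (hB : B.image κ = Finset.Icc b₁ b₂)
    (ha : a₁ ≤ a₂) (hb : b₁ ≤ b₂)
    (h1 : a₁ ≤ b₁) (h1' : b₁ ≤ a₁ + 1) (h2 : a₂ ≤ b₂) (h2' : b₂ ≤ a₂ + 1)
    (f : X → ℝ) (Λ : ℝ)
    (hf : ∀ z ∈ A, ∀ z' ∈ B, (κ z' = κ z ∨ κ z' = κ z + 1) → |f z - f z'| ≤ Λ) :
    |(∑ z ∈ A, f z) / (A.card : ℝ) - (∑ z ∈ B, f z) / (B.card : ℝ)| ≤ Λ := by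
  obtain ⟨F, hF, hsF⟩ := couple_gen A κ hAinj f
  obtain ⟨G, hG, hsG⟩ := couple_gen B κ hBinj f
  have hcA : A.card = a₂ + 1 - a₁ := by
    rw [← Finset.card_image_of_injOn hAinj, hA, Nat.card_Icc]
  have hcB : B.card = b₂ + 1 - b₁ := by
    rw [← Finset.card_image_of_injOn hBinj, hB, Nat.card_Icc]
  have hzA : ∀ i, i < a₂ + 1 - a₁ → ∃ z ∈ A, κ z = a₁ + i ∧ F (a₁ + i) = f z := by
    intro i hi
    have hm : a₁ + i ∈ A.image κ := by
      rw [hA]
      exact Finset.mem_Icc.mpr ⟨by omega, by omega⟩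
    obtain ⟨z, hz, hzk⟩ := Finset.mem_image.mp hm
    refine ⟨z, hz, hzk, ?_⟩
    rw [← hzk]
    exact hF z hz
  have hzB : ∀ i, i < b₂ + 1 - b₁ → ∃ z ∈ B, κ z = b₁ + i ∧ G (b₁ + i) = f z := by
    intro i hi
    have hm : b₁ + i ∈ B.image κ := by
      rw [hB]
      exact Finset.mem_Icc.mpr ⟨by omega, by omega⟩
    obtain ⟨z, hz, hzk⟩ := Finset.mem_image.mp hm
    refine ⟨z, hz, hzk, ?_⟩
    rw [← hzk]
    exact hG z hz
  have hp : ∀ i j, i < a₂ + 1 - a₁ → j < b₂ + 1 - b₁ →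
      (b₁ + j = a₁ + i ∨ b₁ + j = a₁ + i + 1) → |F (a₁ + i) - G (b₁ + j)| ≤ Λ := by
    intro i j hi hj hij
    obtain ⟨z, hz, hzk, hzf⟩ := hzA i hi
    obtain ⟨z', hz', hzk', hzf'⟩ := hzB j hj
    rw [hzf, hzf']
    refine hf z hz z' hz' ?_
    rw [hzk, hzk']
    exact hij
  rw [hsF, hsG, hA, hB, couple_Icc F a₁ a₂, couple_Icc G b₁ b₂, hcA, hcB]
  obtain ⟨n, hn⟩ : ∃ n, a₂ + 1 - a₁ = n := ⟨_, rfl⟩
  rw [hn] at hp ⊢
  have hn1 : 1 ≤ n := by omega
  have hb1 : b₁ = a₁ ∨ b₁ = a₁ + 1 := by omega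
  have hb2 : b₂ = a₂ ∨ b₂ = a₂ + 1 := by omega
  rcases hb1 with hb1 | hb1
  · rcases hb2 with hb2 | hb2
    · have hm : b₂ + 1 - b₁ = n := by omega
      rw [hm] at hp ⊢
      exact couple_same n hn1 (fun i => F (a₁ + i)) (fun i => G (b₁ + i)) Λ
        (fun i hi => hp i i hi hi (Or.inl (by omega)))
    · have hm : b₂ + 1 - b₁ = n + 1 := by omega
      rw [hm] at hp ⊢
      rw [Nat.cast_add, Nat.cast_one]
      exact couple_up n hn1 (fun i => F (a₁ + i)) (fun i => G (b₁ + i)) Λ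
        (fun i hi => ⟨hp i i hi (by omega) (Or.inl (by omega)),
          hp i (i + 1) hi (by omega) (Or.inr (by omega))⟩)
  · rcases hb2 with hb2 | hb2
    · obtain ⟨m, hm⟩ : ∃ m, b₂ + 1 - b₁ = m := ⟨_, rfl⟩
      rw [hm] at hp ⊢
      have hnm : n = m + 1 := by omega
      have hm1 : 1 ≤ m := by omega
      subst hnm
      rw [abs_sub_comm, Nat.cast_add, Nat.cast_one]
      refine couple_up m hm1 (fun i => G (b₁ + i)) (fun i => F (a₁ + i)) Λ
        (fun i hi => ⟨?_, ?_⟩)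
      · rw [abs_sub_comm]
        exact hp i i (by omega) hi (Or.inr (by omega))
      · rw [abs_sub_comm]
        exact hp (i + 1) i (by omega) hi (Or.inl (by omega))
    · have hm : b₂ + 1 - b₁ = n := by omega
      rw [hm] at hp ⊢
      exact couple_same n hn1 (fun i => F (a₁ + i)) (fun i => G (b₁ + i)) Λ
        (fun i hi => hp i i hi hi (Or.inr (by omega)))

/-- Two finite sets with an injective coordinate `κ` and the same set of coordinates: if
`|f z - f z'| ≤ Λ` whenever `z ∈ A`, `z' ∈ B` have the same coordinate, the averages of `f`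
over `A` and over `B` differ by at most `Λ`. -/
theorem same_couple {X : Type*} (A B : Finset X) (κ : X → ℕ)
    (hAinj : Set.InjOn κ (A : Set X)) (hBinj : Set.InjOn κ (B : Set X))
    (hAB : A.image κ = B.image κ) (hne : A.Nonempty)
    (f : X → ℝ) (Λ : ℝ)
    (hf : ∀ z ∈ A, ∀ z' ∈ B, κ z' = κ z → |f z - f z'| ≤ Λ) :
    |(∑ z ∈ A, f z) / (A.card : ℝ) - (∑ z ∈ B, f z) / (B.card : ℝ)| ≤ Λ := by
  obtain ⟨F, hF, hsF⟩ := couple_gen A κ hAinj f
  obtain ⟨G, hG, hsG⟩ := couple_gen B κ hBinj f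
  have hcA : A.card = (A.image κ).card := (Finset.card_image_of_injOn hAinj).symm
  have hcB : B.card = (A.image κ).card := by
    rw [hAB]
    exact (Finset.card_image_of_injOn hBinj).symm
  have hpos : 0 < (A.image κ).card := Finset.card_pos.mpr (hne.image κ)
  have hN : (0 : ℝ) < ((A.image κ).card : ℝ) := by exact_mod_cast hpos
  have hterm : ∀ t ∈ A.image κ, |F t - G t| ≤ Λ := by
    intro t ht
    have ht' : t ∈ B.image κ := by
      rw [← hAB]
      exact ht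
    obtain ⟨z, hz, hzk⟩ := Finset.mem_image.mp ht
    obtain ⟨z', hz', hzk'⟩ := Finset.mem_image.mp ht'
    have e1 : F t = f z := by
      rw [← hzk]
      exact hF z hz
    have e2 : G t = f z' := by
      rw [← hzk']
      exact hG z' hz'
    rw [e1, e2]
    exact hf z hz z' hz' (by rw [hzk, hzk'])
  rw [hsF, hsG, ← hAB, hcA, hcB, ← sub_div, ← Finset.sum_sub_distrib, abs_div,
    abs_of_pos hN, div_le_iff₀ hN]
  calc |∑ t ∈ A.image κ, (F t - G t)|
      ≤ ∑ t ∈ A.image κ, |F t - G t| := Finset.abs_sum_le_sum_abs _ _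
    _ ≤ ∑ t ∈ A.image κ, Λ := Finset.sum_le_sum hterm
    _ = Λ * ((A.image κ).card : ℝ) := by
        rw [Finset.sum_const, nsmul_eq_mul]
        ring

end Vale.Agent.Lib.P328.CT
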