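import Vale.Agent.Lib.P328.CT.BoxClass
import Vale.Agent.Lib.P328.CT.Couple

/-!
# P328: the 2 × 2 class averages along a unit move - a pair of columns that contains the
receiving column of the move
-/

namespace Vale.Agent.Lib.P328.CT

open Finset
open scoped Classical
open Vale.Agent.Lib.P335.Bip

variable {R C : Type*} [Fintype R] [Fintype C]

/-- Two tables that agree outside the rows `a`, `b` have the same sum of the two entries of
a column in these rows. -/
private theorem blo_col_two {r : R → ℕ} {c : C → ℕ} (a b : R) (hab : a ≠ b) (x y : Tab r c)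
    (hrel : RelOut {a, b} x y) (j : C) : x.1 a j + x.1 b j = y.1 a j + y.1 b j := by
  have hx := x.colSum j
  have hy := y.colSum j
  have hb : b ∈ (Finset.univ : Finset R).erase a :=
    Finset.mem_erase.mpr ⟨hab.symm, Finset.mem_univ b⟩
  rw [← Finset.add_sum_erase Finset.univ (fun i => x.1 i j) (Finset.mem_univ a),
    ← Finset.add_sum_erase _ (fun i => x.1 i j) hb] at hx
  rw [← Finset.add_sum_erase Finset.univ (fun i => y.1 i j) (Finset.mem_univ a),
    ← Finset.add_sum_erase _ (fun i => y.1 i j) hb] at hy
  have hrest : ∑ i ∈ (Finset.univ.erase a).erase b, x.1 i j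
      = ∑ i ∈ (Finset.univ.erase a).erase b, y.1 i j :=
    Finset.sum_congr rfl (fun i hi => by
      have h1 := Finset.mem_erase.mp hi
      have h2 := Finset.mem_erase.mp h1.2
      have hi' : i ∉ ({a, b} : Finset R) := by
        rw [Finset.mem_insert, Finset.mem_singleton]
        exact fun h => h.elim h2.1 h1.1
      rw [hrel i hi'])
  omega

/-- `y` is `x` with one unit of row `a` moved from column `v` to column `u`; `l` is a third
column.  If `f` changes by at most `Λ` along unit moves, the averages of `f` over the 2 × 2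
classes (rows `a, b`, columns `u, l`) of `x` and `y` differ by at most `Λ`. -/
theorem box_lip_one {r : R → ℕ} {c : C → ℕ} (a b : R) (hab : a ≠ b) (f : Tab r c → ℝ)
    (Λ : ℝ) (hΛ : ∀ x y : Tab r c, Adj a b x y → |f x - f y| ≤ Λ) (x y : Tab r c)
    (hrel : RelOut {a, b} x y) (u v : C) (huv : u ≠ v) (hu : y.1 a u = x.1 a u + 1)
    (hv : y.1 a v + 1 = x.1 a v) (hrest : ∀ l, l ≠ u → l ≠ v → y.1 a l = x.1 a l)
    (l : C) (hlu : l ≠ u) (hlv : l ≠ v) :
    |av (RelBox {a, b} {u, l}) f x - av (RelBox {a, b} {u, l}) f y| ≤ Λ := by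
  have hul : u ≠ l := hlu.symm
  have hyal : y.1 a l = x.1 a l := hrest l hlu hlv
  have hybl : y.1 b l = x.1 b l := by
    apply entry_eq_of_col y x b l
    intro i hib
    by_cases hia : i = a
    · rw [hia]
      exact hyal
    · have hi' : i ∉ ({a, b} : Finset R) := by
        rw [Finset.mem_insert, Finset.mem_singleton]
        exact fun h => h.elim hia hib
      rw [hrel i hi']
  have hcol := blo_col_two a b hab x y hrel u
  have hybu : y.1 b u + 1 = x.1 b u := by omega
  show |(∑ z ∈ univ.filter (fun z => RelBox {a, b} {u, l} x z), f z)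
        / ((univ.filter (fun z => RelBox {a, b} {u, l} x z)).card : ℝ)
      - (∑ z ∈ univ.filter (fun z => RelBox {a, b} {u, l} y z), f z)
        / ((univ.filter (fun z => RelBox {a, b} {u, l} y z)).card : ℝ)| ≤ Λ
  refine interval_couple _ _ (fun z : Tab r c => z.1 a u) (x.1 a u - x.1 b l)
    (x.1 a u + min (x.1 a l) (x.1 b u)) (y.1 a u - y.1 b l)
    (y.1 a u + min (y.1 a l) (y.1 b u)) (box_inj a b hab u l hul x) (box_inj a b hab u l hul y)
    (box_image a b hab u l hul x) (box_image a b hab u l hul y)
    (by omega) (by omega) (by omega) (by omega) (by omega) (by omega) f Λ ?_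
  intro z hz z' hz' hκ
  have hκ' : z'.1 a u = z.1 a u ∨ z'.1 a u = z.1 a u + 1 := hκ
  have hzx : RelBox {a, b} {u, l} x z := (Finset.mem_filter.mp hz).2
  have hz'y : RelBox {a, b} {u, l} y z' := (Finset.mem_filter.mp hz').2
  apply hΛ
  have hrowz := box_row_a a b hab u l hul x z hzx
  have hrowz' := box_row_a a b hab u l hul y z' hz'y
  have hout : ∀ j, j ≠ u → j ≠ l → z.1 a j = x.1 a j ∧ z'.1 a j = y.1 a j := by
    intro j hju hjl
    have hj : j ∉ ({u, l} : Finset C) := by
      rw [Finset.mem_insert, Finset.mem_singleton]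
      exact fun h => h.elim hju hjl
    exact ⟨(hzx a j (Or.inr hj)).symm, (hz'y a j (Or.inr hj)).symm⟩
  have hRO : RelOut {a, b} z z' := by
    intro i hi
    rw [← relBox_relOut _ _ hzx i hi, hrel i hi, relBox_relOut _ _ hz'y i hi]
  refine ⟨hRO, ?_⟩
  have hv' := hout v huv.symm hlv.symm
  rcases hκ' with hk | hk
  · refine ⟨l, v, hlv, by omega, by omega, ?_⟩
    intro j hjl hjv
    by_cases hju : j = u
    · rw [hju]
      exact hk
    · have h1 := hout j hju hjl
      have h2 := hrest j hju hjv
      omega
  · refine ⟨u, v, huv, hk, by omega, ?_⟩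
    intro j hju hjv
    by_cases hjl : j = l
    · rw [hjl]
      omega
    · have h1 := hout j hju hjl
      have h2 := hrest j hju hjv
      omega

end Vale.Agent.Lib.P328.CT
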