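import Vale.Agent.Lib.P328.CT.BoxLipDisj
import Vale.Agent.Lib.P328.CT.BoxLipOne
import Vale.Agent.Lib.P328.CT.BoxConn

/-!
# P328: the 2 × 2 class averages are 1-Lipschitz along unit moves, and one of them is constant
-/

namespace Vale.Agent.Lib.P328.CT

open Finset
open scoped Classical
open Vale.Agent.Lib.P335.Bip

variable {R C : Type*} [Fintype R] [Fintype C]

/-- A unit move between the columns `u`, `v` stays inside the 2 × 2 class of these columns. -/
theorem relBox_of_move {r : R → ℕ} {c : C → ℕ} (a b : R) (hab : a ≠ b) (x y : Tab r c)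
    (hrel : RelOut {a, b} x y) (u v : C)
    (hrest : ∀ l, l ≠ u → l ≠ v → y.1 a l = x.1 a l) : RelBox {a, b} {u, v} x y := by
  intro i j hij
  by_cases hi : i ∈ ({a, b} : Finset R)
  · have hj : j ∉ ({u, v} : Finset C) := by
      rcases hij with h | h
      · exact absurd hi h
      · exact h
    rw [Finset.mem_insert, Finset.mem_singleton] at hj
    push Not at hj
    have hja : x.1 a j = y.1 a j := (hrest j hj.1 hj.2).symm
    rw [Finset.mem_insert, Finset.mem_singleton] at hi
    rcases hi with rfl | rfl
    · exact hja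
    · refine entry_eq_of_col x y i j ?_
      intro i' hi'
      by_cases hia : i' = a
      · rw [hia]
        exact hja
      · have hni : i' ∉ ({a, i} : Finset R) := by
          rw [Finset.mem_insert, Finset.mem_singleton]
          push Not
          exact ⟨hia, hi'⟩
        exact congrFun (hrel i' hni) j
  · exact congrFun (hrel i hi) j

/-- One of the 2 × 2 classes contains both ends of a unit move. -/
theorem box_lip_same {r : R → ℕ} {c : C → ℕ} (a b : R) (hab : a ≠ b) (x y : Tab r c)
    (hxy : Adj a b x y) :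
    ∃ p ∈ (Finset.univ : Finset C).powersetCard 2, RelBox {a, b} p x y := by
  obtain ⟨hrel, u, v, huv, _, _, hrest⟩ := hxy
  exact ⟨{u, v}, Finset.mem_powersetCard.mpr ⟨Finset.subset_univ _, Finset.card_pair huv⟩,
    relBox_of_move a b hab x y hrel u v hrest⟩

omit [Fintype C] in
/-- A two-element set containing `u` is `{u, l}`. -/
private theorem boxLip_pair_with (u : C) (p : Finset C) (hp2 : p.card = 2) (h1p : u ∈ p) :
    ∃ l, l ≠ u ∧ l ∈ p ∧ p = {u, l} := by
  have hc1 : (p.erase u).card = 1 := by
    rw [Finset.card_erase_of_mem h1p, hp2]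
  obtain ⟨l, hlE⟩ := Finset.card_eq_one.mp hc1
  have hlp : l ∈ p.erase u := by
    rw [hlE]
    exact Finset.mem_singleton_self _
  refine ⟨l, (Finset.mem_erase.mp hlp).1, (Finset.mem_erase.mp hlp).2, ?_⟩
  rw [← hlE, Finset.insert_erase h1p]

/-- If `f` changes by at most `Λ` along unit moves of the rows `a`, `b`, then so does every
2 × 2 class average of `f`. -/
theorem box_lip {r : R → ℕ} {c : C → ℕ} (a b : R) (hab : a ≠ b) (f : Tab r c → ℝ) (Λ : ℝ)
    (hΛ : ∀ x y : Tab r c, Adj a b x y → |f x - f y| ≤ Λ) (x y : Tab r c)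
    (hxy : Adj a b x y) (p : Finset C) (hp : p ∈ (Finset.univ : Finset C).powersetCard 2) :
    |av (RelBox {a, b} p) f x - av (RelBox {a, b} p) f y| ≤ Λ := by
  have hΛ0 : 0 ≤ Λ := le_trans (abs_nonneg _) (hΛ x y hxy)
  have hp2 : p.card = 2 := (Finset.mem_powersetCard.mp hp).2
  obtain ⟨hrel, u, v, huv, hu, hv, hrest⟩ := hxy
  by_cases hup : u ∈ p
  · obtain ⟨l, hlu, hlp, hpE⟩ := boxLip_pair_with u p hp2 hup
    by_cases hvp : v ∈ p
    · -- the pair is `{u, v}`
      have hlv : l = v := by
        rw [hpE, Finset.mem_insert, Finset.mem_singleton] at hvp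
        rcases hvp with h | h
        · exact absurd h.symm huv
        · exact h.symm
      have hsame : RelBox {a, b} p x y := by
        rw [hpE, hlv]
        exact relBox_of_move a b hab x y hrel u v hrest
      rw [av_congr_of_rel (relBox_equivalence _ _) f hsame, sub_self, abs_zero]
      exact hΛ0
    · have hlv : l ≠ v := fun h => hvp (h ▸ hlp)
      rw [hpE]
      exact box_lip_one a b hab f Λ hΛ x y hrel u v huv hu hv hrest l hlu hlv
  · by_cases hvp : v ∈ p
    · obtain ⟨l, hlv, hlp, hpE⟩ := boxLip_pair_with v p hp2 hvp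
      have hlu : l ≠ u := fun h => hup (h ▸ hlp)
      rw [hpE, abs_sub_comm]
      refine box_lip_one a b hab f Λ hΛ y x ((relOut_equivalence _).symm hrel) v u
        (Ne.symm huv) hv.symm hu.symm ?_ l hlv hlu
      intro l' h1 h2
      exact (hrest l' h2 h1).symm
    · obtain ⟨j, l, hjl, hpE⟩ := Finset.card_eq_two.mp hp2
      have hjp : j ∈ p := by
        rw [hpE]
        exact Finset.mem_insert_self _ _
      have hlp : l ∈ p := by
        rw [hpE]
        exact Finset.mem_insert_of_mem (Finset.mem_singleton_self _)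
      rw [hpE]
      exact box_lip_disj a b hab f Λ hΛ x y hrel u v huv hu hv hrest j l hjl
        (fun h => hup (h ▸ hjp)) (fun h => hvp (h ▸ hjp)) (fun h => hup (h ▸ hlp))
        (fun h => hvp (h ▸ hlp))

end Vale.Agent.Lib.P328.CT
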