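import Vale.Agent.Lib.P328.CT.BoxClass
import Vale.Agent.Lib.P328.CT.Couple

/-!
# P328: the 2 × 2 class averages along a unit move - columns away from the move
-/

namespace Vale.Agent.Lib.P328.CT

open Finset
open scoped Classical
open Vale.Agent.Lib.P335.Bip

variable {R C : Type*} [Fintype R] [Fintype C]

/-- `y` is `x` with one unit of row `a` moved from column `v` to column `u`; the columns `j`,
`l` are different from `u`, `v`.  If `f` changes by at most `Λ` along unit moves, the averages
of `f` over the 2 × 2 classes (rows `a, b`, columns `j, l`) of `x` and `y` differ by at most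
`Λ`. -/
theorem box_lip_disj {r : R → ℕ} {c : C → ℕ} (a b : R) (hab : a ≠ b) (f : Tab r c → ℝ)
    (Λ : ℝ) (hΛ : ∀ x y : Tab r c, Adj a b x y → |f x - f y| ≤ Λ) (x y : Tab r c)
    (hrel : RelOut {a, b} x y) (u v : C) (huv : u ≠ v) (hu : y.1 a u = x.1 a u + 1)
    (hv : y.1 a v + 1 = x.1 a v) (hrest : ∀ l, l ≠ u → l ≠ v → y.1 a l = x.1 a l)
    (j l : C) (hjl : j ≠ l) (hju : j ≠ u) (hjv : j ≠ v) (hlu : l ≠ u) (hlv : l ≠ v) :
    |av (RelBox {a, b} {j, l}) f x - av (RelBox {a, b} {j, l}) f y| ≤ Λ := by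
  have hyaj : y.1 a j = x.1 a j := hrest j hju hjv
  have hyal : y.1 a l = x.1 a l := hrest l hlu hlv
  have hcol : ∀ k : C, k ≠ u → k ≠ v → y.1 b k = x.1 b k := by
    intro k hku hkv
    refine (entry_eq_of_col x y b k ?_).symm
    intro i hib
    by_cases hia : i = a
    · rw [hia]
      exact (hrest k hku hkv).symm
    · have hi : i ∉ ({a, b} : Finset R) := by simp [hia, hib]
      rw [hrel i hi]
  have hybj : y.1 b j = x.1 b j := hcol j hju hjv
  have hybl : y.1 b l = x.1 b l := hcol l hlu hlv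
  show |(∑ z ∈ univ.filter (fun z => RelBox {a, b} {j, l} x z), f z)
        / ((univ.filter (fun z => RelBox {a, b} {j, l} x z)).card : ℝ)
      - (∑ z ∈ univ.filter (fun z => RelBox {a, b} {j, l} y z), f z)
        / ((univ.filter (fun z => RelBox {a, b} {j, l} y z)).card : ℝ)| ≤ Λ
  refine same_couple _ _ (fun z : Tab r c => z.1 a j) (box_inj a b hab j l hjl x)
    (box_inj a b hab j l hjl y) ?_ ?_ f Λ ?_
  · rw [box_image a b hab j l hjl x, box_image a b hab j l hjl y, hyaj, hyal, hybj, hybl]
  · exact ⟨x, Finset.mem_filter.mpr ⟨Finset.mem_univ x, (relBox_equivalence _ _).refl x⟩⟩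
  · intro z hz z' hz' hκ
    have hz1 : RelBox {a, b} {j, l} x z := (Finset.mem_filter.mp hz).2
    have hz2 : RelBox {a, b} {j, l} y z' := (Finset.mem_filter.mp hz').2
    apply hΛ
    refine ⟨?_, u, v, huv, ?_, ?_, ?_⟩
    · intro i hi
      rw [← relBox_relOut _ _ hz1 i hi, hrel i hi, relBox_relOut _ _ hz2 i hi]
    · have hup : u ∉ ({j, l} : Finset C) := by simp [Ne.symm hju, Ne.symm hlu]
      rw [← hz1 a u (Or.inr hup), ← hz2 a u (Or.inr hup)]
      exact hu
    · have hvp : v ∉ ({j, l} : Finset C) := by simp [Ne.symm hjv, Ne.symm hlv]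
      rw [← hz1 a v (Or.inr hvp), ← hz2 a v (Or.inr hvp)]
      exact hv
    · intro l' hl'u hl'v
      by_cases h1 : l' = j
      · rw [h1]
        exact hκ
      · by_cases h2 : l' = l
        · rw [h2]
          have e1 := box_row_a a b hab j l hjl x z hz1
          have e2 := box_row_a a b hab j l hjl y z' hz2
          have e3 : z'.1 a j = z.1 a j := hκ
          omega
        · have hp : l' ∉ ({j, l} : Finset C) := by simp [h1, h2]
          rw [← hz1 a l' (Or.inr hp), ← hz2 a l' (Or.inr hp)]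
          exact hrest l' hl'u hl'v

end Vale.Agent.Lib.P328.CT
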