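import Vale.Agent.Lib.P328.BL.PairSum

/-!
# P328: the pair-count matrix of a box slice

`boxW c R i j` counts the `x ≤ c` with `∑ x = R` to which one unit at `i` and one unit at `j`
can still be added inside the box.
-/

namespace Vale.Agent.Lib.P328.CT

open Finset

open scoped Classical

/-- number of `x : C → ℕ` with `x l + [l = i] + [l = j] ≤ c l` for all `l` and `∑ x = R` -/
noncomputable def boxW {C : Type*} [Fintype C] (c : C → ℕ) (R : ℕ) (i j : C) : ℕ :=
  ((Fintype.piFinset (fun l : C => Finset.range (c l + 1))).filter
    (fun x => (∀ l, x l + (if l = i then 1 else 0) + (if l = j then 1 else 0) ≤ c l)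
      ∧ ∑ l, x l = R)).card

theorem boxW_symm {C : Type*} [Fintype C] (c : C → ℕ) (R : ℕ) (i j : C) :
    boxW c R i j = boxW c R j i := by
  unfold boxW
  congr 1
  apply Finset.filter_congr
  intro x _
  constructor
  · rintro ⟨h1, h2⟩
    exact ⟨fun l => by have := h1 l; omega, h2⟩
  · rintro ⟨h1, h2⟩
    exact ⟨fun l => by have := h1 l; omega, h2⟩

/-- the quadratic form of `boxW` as a sum over the slice -/
theorem boxW_quad {C : Type*} [Fintype C] (c : C → ℕ) (R : ℕ) (s : C → ℝ) :
    ∑ i, ∑ j, (boxW c R i j : ℝ) * (s i * s j)
      = ∑ x ∈ Fintype.piFinset (fun l : C => range (c l + 1)),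
          (if ∑ l, x l = R then BL.pairF (fun l => c l - x l) s else 0) := by
  have hcast : ∀ i j, (boxW c R i j : ℝ)
      = ∑ x ∈ Fintype.piFinset (fun l : C => range (c l + 1)),
        (if (∀ l, x l + (if l = i then 1 else 0) + (if l = j then 1 else 0) ≤ c l)
          ∧ ∑ l, x l = R then (1 : ℝ) else 0) := by
    intro i j
    unfold boxW
    rw [Finset.natCast_card_filter]
  calc ∑ i, ∑ j, (boxW c R i j : ℝ) * (s i * s j)
      = ∑ i, ∑ j, ∑ x ∈ Fintype.piFinset (fun l : C => range (c l + 1)),
          (if (∀ l, x l + (if l = i then 1 else 0) + (if l = j then 1 else 0) ≤ c l)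
            ∧ ∑ l, x l = R then (1 : ℝ) else 0) * (s i * s j) := by
        apply Finset.sum_congr rfl
        intro i _
        apply Finset.sum_congr rfl
        intro j _
        rw [hcast, Finset.sum_mul]
    _ = ∑ i, ∑ x ∈ Fintype.piFinset (fun l : C => range (c l + 1)), ∑ j,
          (if (∀ l, x l + (if l = i then 1 else 0) + (if l = j then 1 else 0) ≤ c l)
            ∧ ∑ l, x l = R then (1 : ℝ) else 0) * (s i * s j) := by
        apply Finset.sum_congr rfl
        intro i _
        exact Finset.sum_comm
    _ = ∑ x ∈ Fintype.piFinset (fun l : C => range (c l + 1)), ∑ i, ∑ j,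
          (if (∀ l, x l + (if l = i then 1 else 0) + (if l = j then 1 else 0) ≤ c l)
            ∧ ∑ l, x l = R then (1 : ℝ) else 0) * (s i * s j) := Finset.sum_comm
    _ = ∑ x ∈ Fintype.piFinset (fun l : C => range (c l + 1)),
          (if ∑ l, x l = R then BL.pairF (fun l => c l - x l) s else 0) := by
        apply Finset.sum_congr rfl
        intro x hx
        have hxl : ∀ l, x l ≤ c l := by
          intro l
          have h := Fintype.mem_piFinset.mp hx l
          rw [Finset.mem_range] at h
          omega
        by_cases hR : ∑ l, x l = R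
        · rw [if_pos hR, ← BL.pair_sum (fun l => c l - x l) s]
          apply Finset.sum_congr rfl
          intro i _
          apply Finset.sum_congr rfl
          intro j _
          have hiff : ((∀ l, x l + (if l = i then 1 else 0) + (if l = j then 1 else 0) ≤ c l)
              ∧ ∑ l, x l = R) ↔
              (∀ l, (if l = i then 1 else 0) + (if l = j then 1 else 0) ≤ c l - x l) := by
            constructor
            · rintro ⟨h1, -⟩ l
              have h2 := h1 l
              omega
            · intro h
              refine ⟨fun l => ?_, hR⟩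
              have h2 := h l
              have h3 := hxl l
              omega
          by_cases h : ∀ l, (if l = i then 1 else 0) + (if l = j then 1 else 0) ≤ c l - x l
          · rw [if_pos h, if_pos (hiff.mpr h), one_mul]
          · rw [if_neg h, if_neg (fun h' => h (hiff.mp h')), zero_mul]
        · rw [if_neg hR]
          apply Finset.sum_eq_zero
          intro i _
          apply Finset.sum_eq_zero
          intro j _
          rw [if_neg (fun h => hR h.2), zero_mul]

end Vale.Agent.Lib.P328.CT
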