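import Vale.Agent.Lib.P328.CT.Defs
import Vale.Agent.Lib.P328.CT.LorDefs

/-!
# P328: counting the tables of a block class of two unit rows and two further rows
-/

namespace Vale.Agent.Lib.P328.CT

open Finset
open scoped Classical
open Vale.Agent.Lib.P335.Bip

variable {R C : Type*} [Fintype R] [Fintype C]

omit [Fintype C] in
/-- a sum over all rows, split into the four rows of the block and the other rows -/
private theorem cc_sum (a b u₁ u₂ : R) (hab : a ≠ b) (hu : u₁ ≠ u₂)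
    (ha1 : a ≠ u₁) (ha2 : a ≠ u₂) (hb1 : b ≠ u₁) (hb2 : b ≠ u₂) (f : R → ℕ) :
    ∑ k, f k = f a + f b + f u₁ + f u₂ + ∑ k ∈ (insert a (insert b {u₁, u₂}))ᶜ, f k := by
  rw [← Finset.sum_add_sum_compl (insert a (insert b {u₁, u₂})) f]
  congr 1
  rw [Finset.sum_insert, Finset.sum_insert, Finset.sum_pair hu]
  · ring
  · simp [hb1, hb2]
  · simp [hab, ha1, ha2]

/-- the block sums of a table of the class are those of `x₀` -/
private theorem cc_block {r : R → ℕ} {c : C → ℕ} (a b u₁ u₂ : R) (hab : a ≠ b) (hu : u₁ ≠ u₂)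
    (ha1 : a ≠ u₁) (ha2 : a ≠ u₂) (hb1 : b ≠ u₁) (hb2 : b ≠ u₂) (x₀ y : Tab r c)
    (hrel : RelOut (insert a (insert b {u₁, u₂})) x₀ y) (l : C) :
    y.1 a l + y.1 b l + y.1 u₁ l + y.1 u₂ l
      = x₀.1 a l + x₀.1 b l + x₀.1 u₁ l + x₀.1 u₂ l := by
  have h1 := cc_sum a b u₁ u₂ hab hu ha1 ha2 hb1 hb2 (fun k => y.1 k l)
  have h2 := cc_sum a b u₁ u₂ hab hu ha1 ha2 hb1 hb2 (fun k => x₀.1 k l)
  have h3 : ∑ k ∈ (insert a (insert b {u₁, u₂}))ᶜ, y.1 k l
      = ∑ k ∈ (insert a (insert b {u₁, u₂}))ᶜ, x₀.1 k l := by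
    apply Finset.sum_congr rfl
    intro k hk
    rw [Finset.mem_compl] at hk
    rw [hrel k hk]
  have h4 := y.colSum l
  have h5 := x₀.colSum l
  beta_reduce at h1 h2
  rw [h3] at h1
  omega

omit [Fintype R] in
/-- a row with sum 1 and an entry 1 is an indicator -/
private theorem cc_unit (f : C → ℕ) (i : C) (hs : ∑ l, f l = 1) (hi : f i = 1) (l : C) :
    f l = if l = i then 1 else 0 := by
  by_cases h : l = i
  · rw [if_pos h, h, hi]
  · rw [if_neg h]
    have h1 := Finset.add_sum_erase Finset.univ f (Finset.mem_univ i)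
    have h2 : ∑ x ∈ Finset.univ.erase i, f x = 0 := by omega
    rw [Finset.sum_eq_zero_iff] at h2
    exact h2 l (Finset.mem_erase.mpr ⟨h, Finset.mem_univ l⟩)

/-- the table with prescribed rows `a`, `b`, `u₁`, the row `u₂` forced by the block sums
`c'`, and the other rows those of `M₀` -/
private noncomputable def ccFun (a b u₁ u₂ : R) (i j : C) (c' : C → ℕ) (x : C → ℕ)
    (M₀ : R → C → ℕ) : R → C → ℕ :=
  fun k l => if k = a then (if l = i then 1 else 0)
    else if k = b then (if l = j then 1 else 0)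
    else if k = u₁ then x l
    else if k = u₂ then c' l - (if l = i then 1 else 0) - (if l = j then 1 else 0) - x l
    else M₀ k l

omit [Fintype R] [Fintype C] in
private theorem ccFun_a (a b u₁ u₂ : R) (i j : C) (c' : C → ℕ) (x : C → ℕ)
    (M₀ : R → C → ℕ) (l : C) :
    ccFun a b u₁ u₂ i j c' x M₀ a l = if l = i then 1 else 0 := by
  unfold ccFun
  rw [if_pos rfl]

omit [Fintype R] [Fintype C] in
private theorem ccFun_b (a b u₁ u₂ : R) (hab : a ≠ b) (i j : C) (c' : C → ℕ) (x : C → ℕ)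
    (M₀ : R → C → ℕ) (l : C) :
    ccFun a b u₁ u₂ i j c' x M₀ b l = if l = j then 1 else 0 := by
  unfold ccFun
  rw [if_neg (Ne.symm hab), if_pos rfl]

omit [Fintype R] [Fintype C] in
private theorem ccFun_u1 (a b u₁ u₂ : R) (ha1 : a ≠ u₁) (hb1 : b ≠ u₁) (i j : C) (c' : C → ℕ)
    (x : C → ℕ) (M₀ : R → C → ℕ) (l : C) :
    ccFun a b u₁ u₂ i j c' x M₀ u₁ l = x l := by
  unfold ccFun
  rw [if_neg (Ne.symm ha1), if_neg (Ne.symm hb1), if_pos rfl]

omit [Fintype R] [Fintype C] in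
private theorem ccFun_u2 (a b u₁ u₂ : R) (hu : u₁ ≠ u₂) (ha2 : a ≠ u₂) (hb2 : b ≠ u₂)
    (i j : C) (c' : C → ℕ) (x : C → ℕ) (M₀ : R → C → ℕ) (l : C) :
    ccFun a b u₁ u₂ i j c' x M₀ u₂ l
      = c' l - (if l = i then 1 else 0) - (if l = j then 1 else 0) - x l := by
  unfold ccFun
  rw [if_neg (Ne.symm ha2), if_neg (Ne.symm hb2), if_neg (Ne.symm hu), if_pos rfl]

omit [Fintype R] [Fintype C] in
private theorem ccFun_out (a b u₁ u₂ : R) (i j : C) (c' : C → ℕ) (x : C → ℕ)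
    (M₀ : R → C → ℕ) (k : R) (hk : k ∉ (insert a (insert b {u₁, u₂}) : Finset R)) (l : C) :
    ccFun a b u₁ u₂ i j c' x M₀ k l = M₀ k l := by
  rw [Finset.mem_insert, Finset.mem_insert, Finset.mem_insert, Finset.mem_singleton] at hk
  push Not at hk
  unfold ccFun
  rw [if_neg hk.1, if_neg hk.2.1, if_neg hk.2.2.1, if_neg hk.2.2.2]

omit [Fintype R] in
private theorem cc_sum_ind (i : C) : ∑ l : C, (if l = i then 1 else 0) = 1 := by
  rw [Finset.sum_ite_eq' Finset.univ i (fun _ => 1), if_pos (Finset.mem_univ i)]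

private theorem ccFun_mem {r : R → ℕ} {c : C → ℕ} (a b u₁ u₂ : R) (hab : a ≠ b) (hu : u₁ ≠ u₂)
    (ha1 : a ≠ u₁) (ha2 : a ≠ u₂) (hb1 : b ≠ u₁) (hb2 : b ≠ u₂)
    (ha : r a = 1) (hb : r b = 1) (x₀ : Tab r c) (i j : C) (x : C → ℕ)
    (hbox : ∀ l, x l + (if l = i then 1 else 0) + (if l = j then 1 else 0)
      ≤ x₀.1 a l + x₀.1 b l + x₀.1 u₁ l + x₀.1 u₂ l)
    (hsum : ∑ l, x l = r u₁) :
    ccFun a b u₁ u₂ i j (fun l => x₀.1 a l + x₀.1 b l + x₀.1 u₁ l + x₀.1 u₂ l) x x₀.1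
      ∈ tables r c := by
  rw [mem_tables]
  refine ⟨fun k => ?_, fun l => ?_⟩
  · by_cases hk : k ∈ (insert a (insert b {u₁, u₂}) : Finset R)
    · rw [Finset.mem_insert, Finset.mem_insert, Finset.mem_insert, Finset.mem_singleton] at hk
      rcases hk with hk | hk | hk | hk
      · rw [hk, ha]
        simp only [ccFun_a]
        exact cc_sum_ind i
      · rw [hk, hb]
        simp only [ccFun_b a b u₁ u₂ hab]
        exact cc_sum_ind j
      · rw [hk]
        simp only [ccFun_u1 a b u₁ u₂ ha1 hb1]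
        exact hsum
      · rw [hk]
        simp only [ccFun_u2 a b u₁ u₂ hu ha2 hb2]
        have h1 : ∑ l, ((x₀.1 a l + x₀.1 b l + x₀.1 u₁ l + x₀.1 u₂ l
              - (if l = i then 1 else 0) - (if l = j then 1 else 0) - x l)
            + (if l = i then 1 else 0) + (if l = j then 1 else 0) + x l)
            = ∑ l, (x₀.1 a l + x₀.1 b l + x₀.1 u₁ l + x₀.1 u₂ l) := by
          apply Finset.sum_congr rfl
          intro l _
          have := hbox l
          omega
        rw [Finset.sum_add_distrib, Finset.sum_add_distrib, Finset.sum_add_distrib,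
          Finset.sum_add_distrib, Finset.sum_add_distrib, Finset.sum_add_distrib,
          cc_sum_ind i, cc_sum_ind j, hsum, x₀.rowSum a, x₀.rowSum b, x₀.rowSum u₁,
          x₀.rowSum u₂, ha, hb] at h1
        omega
    · have h1 : ∀ l, ccFun a b u₁ u₂ i j
          (fun l => x₀.1 a l + x₀.1 b l + x₀.1 u₁ l + x₀.1 u₂ l) x x₀.1 k l = x₀.1 k l :=
        fun l => ccFun_out a b u₁ u₂ i j _ x x₀.1 k hk l
      simp only [h1]
      exact x₀.rowSum k
  · have h1 := cc_sum a b u₁ u₂ hab hu ha1 ha2 hb1 hb2 (fun k => ccFun a b u₁ u₂ i j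
      (fun l => x₀.1 a l + x₀.1 b l + x₀.1 u₁ l + x₀.1 u₂ l) x x₀.1 k l)
    have h2 := cc_sum a b u₁ u₂ hab hu ha1 ha2 hb1 hb2 (fun k => x₀.1 k l)
    have h3 : ∑ k ∈ (insert a (insert b {u₁, u₂}))ᶜ, ccFun a b u₁ u₂ i j
          (fun l => x₀.1 a l + x₀.1 b l + x₀.1 u₁ l + x₀.1 u₂ l) x x₀.1 k l
        = ∑ k ∈ (insert a (insert b {u₁, u₂}))ᶜ, x₀.1 k l := by
      apply Finset.sum_congr rfl
      intro k hk
      rw [Finset.mem_compl] at hk
      exact ccFun_out a b u₁ u₂ i j _ x x₀.1 k hk l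
    have h5 := x₀.colSum l
    have h6 := hbox l
    beta_reduce at h1 h2
    rw [h3, ccFun_a, ccFun_b a b u₁ u₂ hab, ccFun_u1 a b u₁ u₂ ha1 hb1,
      ccFun_u2 a b u₁ u₂ hu ha2 hb2] at h1
    omega

/-- Rows `a`, `b` have sum 1 and `u₁ ≠ u₂` are two further rows.  In the class of `x₀` for
the rows `a, b, u₁, u₂`, the number of tables with the unit of row `a` in column `i` and the
unit of row `b` in column `j` is `boxW c' (r u₁) i j`, where `c' l` is the sum of the entries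
of `x₀` in column `l` and rows `a, b, u₁, u₂` (the row `u₁` of such a table is any `x` with
`x + e_i + e_j ≤ c'` and sum `r u₁`, and then the row `u₂` is `c' - e_i - e_j - x`). -/
theorem count_comp {r : R → ℕ} {c : C → ℕ} (a b u₁ u₂ : R) (hab : a ≠ b) (hu : u₁ ≠ u₂)
    (ha1 : a ≠ u₁) (ha2 : a ≠ u₂) (hb1 : b ≠ u₁) (hb2 : b ≠ u₂)
    (ha : r a = 1) (hb : r b = 1) (x₀ : Tab r c) (i j : C) :
    (Finset.univ.filter (fun y : Tab r c =>
        RelOut (insert a (insert b {u₁, u₂})) x₀ y ∧ y.1 a i = 1 ∧ y.1 b j = 1)).card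
      = boxW (fun l => x₀.1 a l + x₀.1 b l + x₀.1 u₁ l + x₀.1 u₂ l) (r u₁) i j := by
  unfold boxW
  apply Finset.card_bij (fun (y : Tab r c) _ => y.1 u₁)
  · intro y hy
    rw [Finset.mem_filter] at hy
    obtain ⟨-, hrel, hyi, hyj⟩ := hy
    have hF1 := cc_block a b u₁ u₂ hab hu ha1 ha2 hb1 hb2 x₀ y hrel
    have hA := cc_unit (y.1 a) i (by rw [y.rowSum, ha]) hyi
    have hB := cc_unit (y.1 b) j (by rw [y.rowSum, hb]) hyj
    rw [Finset.mem_filter, Fintype.mem_piFinset]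
    refine ⟨fun l => ?_, fun l => ?_, y.rowSum u₁⟩
    · rw [Finset.mem_range]
      have h1 := hF1 l
      beta_reduce
      omega
    · have h1 := hF1 l
      have h2 := hA l
      have h3 := hB l
      beta_reduce
      omega
  · intro y hy y' hy' hyy
    rw [Finset.mem_filter] at hy hy'
    obtain ⟨-, hrel, hyi, hyj⟩ := hy
    obtain ⟨-, hrel', hyi', hyj'⟩ := hy'
    have hF1 := cc_block a b u₁ u₂ hab hu ha1 ha2 hb1 hb2 x₀ y hrel
    have hF1' := cc_block a b u₁ u₂ hab hu ha1 ha2 hb1 hb2 x₀ y' hrel'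
    have hA := cc_unit (y.1 a) i (by rw [y.rowSum, ha]) hyi
    have hA' := cc_unit (y'.1 a) i (by rw [y'.rowSum, ha]) hyi'
    have hB := cc_unit (y.1 b) j (by rw [y.rowSum, hb]) hyj
    have hB' := cc_unit (y'.1 b) j (by rw [y'.rowSum, hb]) hyj'
    have hU : ∀ l, y.1 u₁ l = y'.1 u₁ l := fun l => congrFun hyy l
    apply Subtype.ext
    funext k l
    by_cases hk : k ∈ (insert a (insert b {u₁, u₂}) : Finset R)
    · rw [Finset.mem_insert, Finset.mem_insert, Finset.mem_insert, Finset.mem_singleton] at hk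
      rcases hk with hk | hk | hk | hk
      · rw [hk, hA l, hA' l]
      · rw [hk, hB l, hB' l]
      · rw [hk, hU l]
      · rw [hk]
        have h1 := hF1 l
        have h2 := hF1' l
        have h3 := hA l
        have h4 := hA' l
        have h5 := hB l
        have h6 := hB' l
        have h7 := hU l
        omega
    · rw [← hrel k hk, ← hrel' k hk]
  · intro x hx
    rw [Finset.mem_filter, Fintype.mem_piFinset] at hx
    obtain ⟨-, hbox, hsum⟩ := hx
    have hmem := ccFun_mem a b u₁ u₂ hab hu ha1 ha2 hb1 hb2 ha hb x₀ i j x hbox hsum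
    refine ⟨⟨_, hmem⟩, ?_, ?_⟩
    · rw [Finset.mem_filter]
      refine ⟨Finset.mem_univ _, ?_, ?_, ?_⟩
      · intro k hk
        funext l
        exact (ccFun_out a b u₁ u₂ i j
          (fun l => x₀.1 a l + x₀.1 b l + x₀.1 u₁ l + x₀.1 u₂ l) x x₀.1 k hk l).symm
      · have h1 := ccFun_a a b u₁ u₂ i j
          (fun l => x₀.1 a l + x₀.1 b l + x₀.1 u₁ l + x₀.1 u₂ l) x x₀.1 i
        rw [if_pos rfl] at h1
        exact h1
      · have h1 := ccFun_b a b u₁ u₂ hab i j
          (fun l => x₀.1 a l + x₀.1 b l + x₀.1 u₁ l + x₀.1 u₂ l) x x₀.1 j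
        rw [if_pos rfl] at h1
        exact h1
    · funext l
      exact ccFun_u1 a b u₁ u₂ ha1 hb1 i j
        (fun l => x₀.1 a l + x₀.1 b l + x₀.1 u₁ l + x₀.1 u₂ l) x x₀.1 l

end Vale.Agent.Lib.P328.CT
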