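import Vale.Agent.Lib.P328.CT.LorDefs
import Vale.Agent.Lib.P328.BL.Reflect
import Vale.Agent.Lib.P328.BL.CmLemmas
import Vale.Agent.Lib.P328.BL.Limit

/-!
# P328: the pair-count matrix of a box slice has at most one positive eigenvalue

`boxW_neg`: the quadratic form of the matrix `boxW c R` is `≤ 0` on the vectors orthogonal (for
the matrix) to the constant vector.
Proof: discrete Brascamp-Lieb inequality on a slice (`Vale/Agent/Lib/P328/BL`), applied to the
reflected box, gives `N * Q(s) ≤ V(s)^2` for every `s`, with `V` linear and `N ≥ 0`; shift `s` by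
a constant.
-/

namespace Vale.Agent.Lib.P328.CT

open Finset

open scoped Classical

theorem boxW_neg {C : Type*} [Fintype C] (c : C → ℕ) (R : ℕ) (σ : C → ℝ)
    (h0 : ∑ i, ∑ j, (boxW c R i j : ℝ) * σ i = 0) :
    ∑ i, ∑ j, (boxW c R i j : ℝ) * (σ i * σ j) ≤ 0 := by
  rcases isEmpty_or_nonempty C with hC | hC
  · simp
  by_cases hR : R ≤ ∑ l, c l
  swap
  · -- no configuration of the box has total `R`
    rw [boxW_quad]
    apply le_of_eq
    apply Finset.sum_eq_zero
    intro x hx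
    rw [if_neg]
    intro hsum
    apply hR
    rw [← hsum]
    apply Finset.sum_le_sum
    intro l _
    have := Fintype.mem_piFinset.mp hx l
    have h2 := Finset.mem_range.mp this
    omega
  -- main case
  have hq0 : ∀ (l : C) (k : ℕ), (0 : ℝ) ≤ (if k ≤ c l then (1 : ℝ) else 0) := by
    intro l k
    split_ifs <;> norm_num
  have hQ : ∀ s : C → ℝ, ∑ i, ∑ j, (boxW c R i j : ℝ) * (s i * s j)
      = - BL.cT (fun l k => if k ≤ c l then (1 : ℝ) else 0) s (∑ l, c l) (∑ l, c l - R) := by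
    intro s
    rw [boxW_quad, BL.reflect_sum c R hR s]
  have hE : ∀ s : C → ℝ,
      0 ≤ (BL.cM (fun l k => if k ≤ c l then (1 : ℝ) else 0) s (∑ l, c l) (∑ l, c l - R)) ^ 2
        + BL.cA (fun l k => if k ≤ c l then (1 : ℝ) else 0) (∑ l, c l) (∑ l, c l - R)
          * BL.cT (fun l k => if k ≤ c l then (1 : ℝ) else 0) s (∑ l, c l) (∑ l, c l - R) :=
    fun s => BL.E_box c s (∑ l, c l) (∑ l, c l - R) (Nat.sub_le _ _)
  have hsym : ∑ i, ∑ j, (boxW c R i j : ℝ) * σ j = 0 := by
    rw [Finset.sum_comm, ← h0]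
    apply sum_congr rfl
    intro i _
    apply sum_congr rfl
    intro j _
    rw [boxW_symm]
  have hshift : ∀ t : ℝ, ∑ i, ∑ j, (boxW c R i j : ℝ) * ((σ i + t) * (σ j + t))
      = ∑ i, ∑ j, (boxW c R i j : ℝ) * (σ i * σ j) + t ^ 2 * ∑ i, ∑ j, (boxW c R i j : ℝ) := by
    intro t
    have e : ∀ i j, (boxW c R i j : ℝ) * ((σ i + t) * (σ j + t))
        = (boxW c R i j : ℝ) * (σ i * σ j) + t * ((boxW c R i j : ℝ) * σ i)
          + t * ((boxW c R i j : ℝ) * σ j) + t ^ 2 * (boxW c R i j : ℝ) := by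
      intro i j
      ring
    simp only [e, sum_add_distrib, ← mul_sum, h0, hsym]
    ring
  set Q : ℝ := ∑ i, ∑ j, (boxW c R i j : ℝ) * (σ i * σ j) with hQdef
  set W1 : ℝ := ∑ i, ∑ j, (boxW c R i j : ℝ) with hW1def
  have hW1 : 0 ≤ W1 := by
    apply sum_nonneg
    intro i _
    apply sum_nonneg
    intro j _
    exact Nat.cast_nonneg _
  set N : ℝ := BL.cA (fun l k => if k ≤ c l then (1 : ℝ) else 0) (∑ l, c l) (∑ l, c l - R)
    with hNdef
  have hN : 0 ≤ N := BL.cA_nonneg _ hq0 _ _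
  set V1 : ℝ := BL.cM (fun l k => if k ≤ c l then (1 : ℝ) else 0) (fun _ => 1) (∑ l, c l)
    (∑ l, c l - R) with hV1def
  set Vs : ℝ := BL.cM (fun l k => if k ≤ c l then (1 : ℝ) else 0) σ (∑ l, c l)
    (∑ l, c l - R) with hVsdef
  have key : ∀ t : ℝ, N * (Q + t ^ 2 * W1) ≤ (Vs + t * V1) ^ 2 := by
    intro t
    have h1 := hE (fun i => σ i + t)
    rw [BL.cM_shift] at h1
    have h2 := hQ (fun i => σ i + t)
    rw [hshift t] at h2
    have h3 : N * (Q + t ^ 2 * W1)
        = - (N * BL.cT (fun l k => if k ≤ c l then (1 : ℝ) else 0) (fun i => σ i + t)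
            (∑ l, c l) (∑ l, c l - R)) := by
      rw [h2]
      ring
    rw [h3]
    linarith
  rcases hN.eq_or_lt with hN0 | hNpos
  · have h1 := BL.cT_eq_zero_of_cA _ hq0 σ (∑ l, c l) (∑ l, c l - R) hN0.symm
    have h2 := hQ σ
    rw [h1] at h2
    linarith
  · by_cases hV1 : V1 = 0
    · have hV : Vs = 0 := BL.cM_eq_zero_of_one _ hq0 σ _ _ hV1
      have h1 := key 0
      rw [hV, hV1] at h1
      have h2 : N * Q ≤ 0 := by
        have e : N * (Q + (0 : ℝ) ^ 2 * W1) = N * Q := by ring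
        rw [e] at h1
        have e2 : ((0 : ℝ) + 0 * 0) ^ 2 = 0 := by ring
        rw [e2] at h1
        exact h1
      by_contra hcon
      rw [not_le] at hcon
      have := mul_pos hNpos hcon
      linarith
    · have h1 := key (-Vs / V1)
      have e : Vs + -Vs / V1 * V1 = 0 := by
        field_simp
        ring
      rw [e] at h1
      have e2 : ((0 : ℝ)) ^ 2 = 0 := by ring
      rw [e2] at h1
      have h2 : Q + (-Vs / V1) ^ 2 * W1 ≤ 0 := by
        by_contra hcon
        rw [not_le] at hcon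
        have := mul_pos hNpos hcon
        linarith
      have h3 : 0 ≤ (-Vs / V1) ^ 2 * W1 := mul_nonneg (sq_nonneg _) hW1
      linarith

end Vale.Agent.Lib.P328.CT
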