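import Vale.Agent.Lib.P328.CT.Defs

/-!
# P328: exchanging two rows with equal sums
-/

namespace Vale.Agent.Lib.P328.CT

open Finset
open scoped Classical
open Vale.Agent.Lib.P335.Bip

variable {R C : Type*} [Fintype R] [Fintype C]

theorem swapTab_involutive {r : R → ℕ} {c : C → ℕ} (a b : R) (h : r a = r b) :
    Function.Involutive (swapTab (c := c) a b h) := by
  intro x
  apply Subtype.ext
  funext i
  rw [swapTab_val, swapTab_val, Equiv.swap_apply_self]

/-- A table and its row exchange agree outside the two rows. -/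
theorem relOut_swapTab {r : R → ℕ} {c : C → ℕ} (a b : R) (h : r a = r b) (S : Finset R)
    (ha : a ∈ S) (hb : b ∈ S) (x : Tab r c) : RelOut S x (swapTab a b h x) := by
  intro i hi
  have hia : i ≠ a := fun e => hi (e ▸ ha)
  have hib : i ≠ b := fun e => hi (e ▸ hb)
  rw [swapTab_val, Equiv.swap_apply_of_ne_of_ne hia hib]

/-- The row exchange carries the classes of `insert b D` to the classes of `insert a D`. -/
theorem relOut_swapTab_insert {r : R → ℕ} {c : C → ℕ} (a b : R) (h : r a = r b)
    (D : Finset R) (haD : a ∉ D) (hbD : b ∉ D) (x y : Tab r c)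
    (hxy : RelOut (insert b D) x y) :
    RelOut (insert a D) (swapTab a b h x) (swapTab a b h y) := by
  intro i hi
  rw [Finset.mem_insert, not_or] at hi
  rw [swapTab_val, swapTab_val]
  by_cases hib : i = b
  · subst hib
    rw [Equiv.swap_apply_right]
    apply hxy
    rw [Finset.mem_insert, not_or]
    exact ⟨fun e => hi.1 e.symm, haD⟩
  · rw [Equiv.swap_apply_of_ne_of_ne hi.1 hib]
    apply hxy
    rw [Finset.mem_insert, not_or]
    exact ⟨hib, hi.2⟩

/-- The row exchange carries the classes of `insert a D` to the classes of `insert b D`. -/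
theorem relOut_swapTab_insert' {r : R → ℕ} {c : C → ℕ} (a b : R) (h : r a = r b)
    (D : Finset R) (haD : a ∉ D) (hbD : b ∉ D) (x y : Tab r c)
    (hxy : RelOut (insert a D) x y) :
    RelOut (insert b D) (swapTab a b h x) (swapTab a b h y) := by
  intro i hi
  rw [Finset.mem_insert, not_or] at hi
  rw [swapTab_val, swapTab_val]
  by_cases hia : i = a
  · subst hia
    rw [Equiv.swap_apply_left]
    apply hxy
    rw [Finset.mem_insert, not_or]
    exact ⟨fun e => hi.1 e.symm, hbD⟩
  · rw [Equiv.swap_apply_of_ne_of_ne hia hi.1]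
    apply hxy
    rw [Finset.mem_insert, not_or]
    exact ⟨hia, hi.2⟩

end Vale.Agent.Lib.P328.CT
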