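import Vale.Agent.Lib.P328.CT.Defs
import Vale.Agent.Lib.P328.CT.Lor
import Vale.Agent.Lib.P328.CT.Swap

/-!
# P328: the covariance inequality for two unit rows, from the count of the tables of a block
class with prescribed positions of the two unit rows
-/

namespace Vale.Agent.Lib.P328.CT

open Finset
open scoped Classical
open Vale.Agent.Lib.P335.Bip

variable {R C : Type*} [Fintype R] [Fintype C]

omit [Fintype R] in
/-- A row of natural numbers with sum 1 has an entry equal to 1. -/
private theorem unit_row_exists {v : C → ℕ} (h : ∑ j, v j = 1) : ∃ i, v i = 1 := by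
  have hex : ∃ i, v i ≠ 0 := by
    by_contra hcon
    have h0 : ∀ i, v i = 0 := by
      intro i
      by_contra hi
      exact hcon ⟨i, hi⟩
    rw [Finset.sum_eq_zero (fun i _ => h0 i)] at h
    exact absurd h (by norm_num)
  obtain ⟨i, hi⟩ := hex
  have hsplit := Finset.add_sum_erase Finset.univ v (Finset.mem_univ i)
  exact ⟨i, by omega⟩

omit [Fintype R] in
/-- In a row with sum 1 every entry other than the unit vanishes. -/
private theorem unit_row_eq {v : C → ℕ} (h : ∑ j, v j = 1) {i : C} (hi : v i = 1) (j : C)
    (hj : j ≠ i) : v j = 0 := by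
  have hsplit := Finset.add_sum_erase Finset.univ v (Finset.mem_univ i)
  have hmem : j ∈ Finset.univ.erase i := Finset.mem_erase.mpr ⟨hj, Finset.mem_univ j⟩
  have hle := Finset.single_le_sum (f := v) (fun _ _ => Nat.zero_le _) hmem
  omega

omit [Fintype R] in
/-- A double sum over the positions of the units of two unit rows has a single term. -/
private theorem unit_pair_sum {v w : C → ℕ} (hv : ∑ j, v j = 1) (hw : ∑ j, w j = 1)
    {i₀ j₀ : C} (hi : v i₀ = 1) (hj : w j₀ = 1) (F : C → C → ℝ) :
    ∑ i, ∑ j, (if v i = 1 ∧ w j = 1 then F i j else 0) = F i₀ j₀ := by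
  rw [Finset.sum_eq_single i₀]
  · rw [Finset.sum_eq_single j₀]
    · rw [if_pos ⟨hi, hj⟩]
    · intro j _ hjne
      rw [if_neg]
      intro h
      have h1 := unit_row_eq hw hj j hjne
      have h2 := h.2
      omega
    · intro h
      exact absurd (Finset.mem_univ _) h
  · intro i _ hine
    apply Finset.sum_eq_zero
    intro j _
    rw [if_neg]
    intro h
    have h1 := unit_row_eq hv hi i hine
    have h2 := h.1
    omega
  · intro h
    exact absurd (Finset.mem_univ _) h

/-- A sum over a set of tables, sorted by the positions of the units of the rows `a`, `b`. -/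
private theorem sum_by_units {r : R → ℕ} {c : C → ℕ} (a b : R) (ha : r a = 1) (hb : r b = 1)
    (S : Finset (Tab r c)) (G : Tab r c → ℝ) (F : C → C → ℝ)
    (hG : ∀ y ∈ S, ∀ i j, y.1 a i = 1 → y.1 b j = 1 → G y = F i j) :
    ∑ y ∈ S, G y
      = ∑ i, ∑ j, ((S.filter (fun y => y.1 a i = 1 ∧ y.1 b j = 1)).card : ℝ) * F i j := by
  have hterm : ∀ y ∈ S, G y
      = ∑ i, ∑ j, (if y.1 a i = 1 ∧ y.1 b j = 1 then F i j else 0) := by
    intro y hy
    obtain ⟨i₀, hi₀⟩ := unit_row_exists ((y.rowSum a).trans ha)
    obtain ⟨j₀, hj₀⟩ := unit_row_exists ((y.rowSum b).trans hb)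
    rw [unit_pair_sum ((y.rowSum a).trans ha) ((y.rowSum b).trans hb) hi₀ hj₀ F]
    exact hG y hy i₀ j₀ hi₀ hj₀
  rw [Finset.sum_congr rfl hterm, Finset.sum_comm]
  apply Finset.sum_congr rfl
  intro i _
  rw [Finset.sum_comm]
  apply Finset.sum_congr rfl
  intro j _
  rw [Finset.sum_ite, Finset.sum_const_zero, add_zero, Finset.sum_const, nsmul_eq_mul]

/-- `a`, `b` are two rows with sum 1 and `D` is a set of other rows.  Suppose that in every
class of `insert a (insert b D)` the number of tables whose row `a` has its unit in column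
`i` and whose row `b` has its unit in column `j` is `boxW c' ρ i j` for some `c'`, `ρ`
depending only on the class.  Then every function `σ` of the row `a` (and of the rows outside
the block) with zero class averages satisfies `∑ x, σ x * σ (swap x) ≤ 0`. -/
theorem cov_of_count {r : R → ℕ} {c : C → ℕ} (a b : R) (D : Finset R) (hab : a ≠ b)
    (haD : a ∉ D) (hbD : b ∉ D) (ha : r a = 1) (hb : r b = 1)
    (hW : ∀ x₀ : Tab r c, ∃ (c' : C → ℕ) (ρ : ℕ), ∀ i j : C,
      (Finset.univ.filter (fun y : Tab r c =>
        RelOut (insert a (insert b D)) x₀ y ∧ y.1 a i = 1 ∧ y.1 b j = 1)).card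
        = boxW c' ρ i j)
    (σ : Tab r c → ℝ) (hσ : av (RelOut (insert b D)) σ = σ)
    (hz : ∀ x, av (RelOut (insert a (insert b D))) σ x = 0) :
    ∑ x, σ x * σ (swapTab a b (ha.trans hb.symm) x) ≤ 0 := by
  have _h1 := hab
  have _h2 := haD
  have _h3 := hbD
  have hrB : Equivalence (RelOut (r := r) (c := c) (insert a (insert b D))) :=
    relOut_equivalence _
  have hrb : Equivalence (RelOut (r := r) (c := c) (insert b D)) := relOut_equivalence _
  have haB : a ∈ insert a (insert b D) := Finset.mem_insert_self a _
  have hbB : b ∈ insert a (insert b D) :=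
    Finset.mem_insert_of_mem (Finset.mem_insert_self b D)
  have key : ∑ x, σ x * σ (swapTab a b (ha.trans hb.symm) x)
      = ∑ x, av (RelOut (insert a (insert b D)))
          (fun y => σ y * σ (swapTab a b (ha.trans hb.symm) y)) x :=
    (sum_av hrB _).symm
  rw [key]
  apply Finset.sum_nonpos
  intro x₀ _
  show (∑ y ∈ univ.filter (fun y => RelOut (insert a (insert b D)) x₀ y),
        σ y * σ (swapTab a b (ha.trans hb.symm) y))
      / ((univ.filter (fun y => RelOut (insert a (insert b D)) x₀ y)).card : ℝ) ≤ 0
  apply div_nonpos_of_nonpos_of_nonneg _ (Nat.cast_nonneg _)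
  obtain ⟨c', ρ, hcount⟩ := hW x₀
  -- the value of `σ` on the tables of the class whose row `a` has its unit in column `i`
  have hA : ∃ s : C → ℝ, ∀ y : Tab r c, RelOut (insert a (insert b D)) x₀ y →
      ∀ i, y.1 a i = 1 → σ y = s i := by
    refine ⟨fun i => if h : ∃ y : Tab r c, RelOut (insert a (insert b D)) x₀ y ∧ y.1 a i = 1
      then σ (Classical.choose h) else 0, ?_⟩
    intro y hy i hi
    have hex : ∃ y : Tab r c, RelOut (insert a (insert b D)) x₀ y ∧ y.1 a i = 1 :=
      ⟨y, hy, hi⟩
    obtain ⟨hy', hi'⟩ := Classical.choose_spec hex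
    have hsi : (if h : ∃ y : Tab r c, RelOut (insert a (insert b D)) x₀ y ∧ y.1 a i = 1
        then σ (Classical.choose h) else 0) = σ (Classical.choose hex) := dif_pos hex
    show σ y = (if h : ∃ y : Tab r c, RelOut (insert a (insert b D)) x₀ y ∧ y.1 a i = 1
        then σ (Classical.choose h) else 0)
    rw [hsi]
    have hrow : y.1 a = (Classical.choose hex).1 a := by
      funext j
      by_cases hj : j = i
      · rw [hj, hi, hi']
      · rw [unit_row_eq ((y.rowSum a).trans ha) hi j hj,
          unit_row_eq (((Classical.choose hex).rowSum a).trans ha) hi' j hj]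
    have hrel : RelOut (insert b D) y (Classical.choose hex) := by
      intro k hk
      by_cases hka : k = a
      · rw [hka]
        exact hrow
      · have hkB : k ∉ insert a (insert b D) := by
          intro hmem
          rcases Finset.mem_insert.mp hmem with h1 | h1
          · exact hka h1
          · exact hk h1
        exact (hy k hkB).symm.trans (hy' k hkB)
    calc σ y = av (RelOut (insert b D)) σ y := (congrFun hσ y).symm
      _ = av (RelOut (insert b D)) σ (Classical.choose hex) := av_congr_of_rel hrb σ hrel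
      _ = σ (Classical.choose hex) := congrFun hσ _
  obtain ⟨s, hs⟩ := hA
  have hsτ : ∀ y : Tab r c, RelOut (insert a (insert b D)) x₀ y →
      ∀ j, y.1 b j = 1 → σ (swapTab a b (ha.trans hb.symm) y) = s j := by
    intro y hy j hj
    apply hs (swapTab a b (ha.trans hb.symm) y)
      (hrB.trans hy (relOut_swapTab a b (ha.trans hb.symm) _ haB hbB y)) j
    rw [swapTab_val, Equiv.swap_apply_left]
    exact hj
  have hfe : ∀ i j : C,
      (univ.filter (fun y : Tab r c => RelOut (insert a (insert b D)) x₀ y)).filter
          (fun y => y.1 a i = 1 ∧ y.1 b j = 1)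
        = Finset.univ.filter (fun y : Tab r c =>
            RelOut (insert a (insert b D)) x₀ y ∧ y.1 a i = 1 ∧ y.1 b j = 1) := by
    intro i j
    ext y
    simp only [Finset.mem_filter, Finset.mem_univ, true_and]
  have hsum1 : ∑ y ∈ univ.filter (fun y => RelOut (insert a (insert b D)) x₀ y),
        σ y * σ (swapTab a b (ha.trans hb.symm) y)
      = ∑ i, ∑ j, (boxW c' ρ i j : ℝ) * (s i * s j) := by
    rw [sum_by_units a b ha hb _ (fun y => σ y * σ (swapTab a b (ha.trans hb.symm) y))
      (fun i j => s i * s j)]
    · apply Finset.sum_congr rfl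
      intro i _
      apply Finset.sum_congr rfl
      intro j _
      rw [hfe i j, hcount i j]
    · intro y hy i j hi hj
      have hy' := (Finset.mem_filter.mp hy).2
      show σ y * σ (swapTab a b (ha.trans hb.symm) y) = s i * s j
      rw [hs y hy' i hi, hsτ y hy' j hj]
  have hsum2 : ∑ y ∈ univ.filter (fun y => RelOut (insert a (insert b D)) x₀ y), σ y
      = ∑ i, ∑ j, (boxW c' ρ i j : ℝ) * s i := by
    rw [sum_by_units a b ha hb _ σ (fun i _ => s i)]
    · apply Finset.sum_congr rfl
      intro i _
      apply Finset.sum_congr rfl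
      intro j _
      rw [hfe i j, hcount i j]
    · intro y hy i j hi _
      exact hs y (Finset.mem_filter.mp hy).2 i hi
  have hzero : ∑ y ∈ univ.filter (fun y => RelOut (insert a (insert b D)) x₀ y), σ y = 0 := by
    have hpos : (0 : ℝ)
        < ((univ.filter (fun y => RelOut (insert a (insert b D)) x₀ y)).card : ℝ) := by
      have hmem : x₀ ∈ univ.filter (fun y => RelOut (insert a (insert b D)) x₀ y) :=
        Finset.mem_filter.mpr ⟨Finset.mem_univ _, hrB.refl x₀⟩
      exact_mod_cast Finset.card_pos.mpr ⟨x₀, hmem⟩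
    have h' : (∑ y ∈ univ.filter (fun y => RelOut (insert a (insert b D)) x₀ y), σ y)
        / ((univ.filter (fun y => RelOut (insert a (insert b D)) x₀ y)).card : ℝ) = 0 :=
      hz x₀
    rcases div_eq_zero_iff.mp h' with h1 | h1
    · exact h1
    · exact absurd h1 (ne_of_gt hpos)
  rw [hsum1]
  apply boxW_neg c' ρ s
  rw [← hsum2]
  exact hzero

end Vale.Agent.Lib.P328.CT
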