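import Vale.Agent.Lib.P328.CT.Defs
import Vale.Agent.Lib.P328.CT.LorDefs

/-!
# P328: counting the tables of a block class of two unit rows and one further row
-/

namespace Vale.Agent.Lib.P328.CT

open Finset
open scoped Classical
open Vale.Agent.Lib.P335.Bip

variable {R C : Type*} [Fintype R] [Fintype C]

/-- split a sum over all rows into three distinguished rows and the rest -/
private theorem covUnit_sum_three (a b d : R) (hab : a ≠ b) (had : a ≠ d) (hbd : b ≠ d)
    (f : R → ℕ) :
    ∑ k, f k = f a + f b + f d
      + ∑ k ∈ (Finset.univ \ insert a (insert b ({d} : Finset R))), f k := by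
  have h := Finset.sum_sdiff (Finset.subset_univ (insert a (insert b ({d} : Finset R)))) (f := f)
  have h2 : ∑ k ∈ insert a (insert b ({d} : Finset R)), f k = f a + f b + f d := by
    rw [Finset.sum_insert, Finset.sum_insert, Finset.sum_singleton]
    · ring
    · simp [hbd]
    · simp [hab, had]
  rw [h2] at h
  omega

/-- a row of sum one with a one in column `i` is the indicator of `i` -/
private theorem covUnit_unit_row {f : C → ℕ} {i : C} (hsum : ∑ l, f l = 1) (hi : f i = 1)
    (l : C) : f l = if l = i then 1 else 0 := by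
  by_cases hl : l = i
  · rw [if_pos hl, hl, hi]
  · rw [if_neg hl]
    have h1 : f i + ∑ l' ∈ Finset.univ.erase i, f l' = ∑ l', f l' :=
      Finset.add_sum_erase Finset.univ f (Finset.mem_univ i)
    have h2 : ∑ l' ∈ Finset.univ.erase i, f l' = 0 := by omega
    exact (Finset.sum_eq_zero_iff).mp h2 l (Finset.mem_erase.mpr ⟨hl, Finset.mem_univ l⟩)

/-- the rows `a`, `b`, `d` of a table of the class with prescribed unit positions -/
private theorem covUnit_rows {r : R → ℕ} {c : C → ℕ} (a b d : R) (hab : a ≠ b) (had : a ≠ d)
    (hbd : b ≠ d) (ha : r a = 1) (hb : r b = 1) (x₀ y : Tab r c) (i j : C)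
    (hrel : RelOut (insert a (insert b {d})) x₀ y) (hyi : y.1 a i = 1) (hyj : y.1 b j = 1)
    (l : C) :
    y.1 a l = (if l = i then 1 else 0) ∧ y.1 b l = (if l = j then 1 else 0) ∧
      y.1 a l + y.1 b l + y.1 d l = x₀.1 a l + x₀.1 b l + x₀.1 d l := by
  refine ⟨covUnit_unit_row (by rw [y.rowSum, ha]) hyi l,
    covUnit_unit_row (by rw [y.rowSum, hb]) hyj l, ?_⟩
  have h1 := covUnit_sum_three a b d hab had hbd (fun k => y.1 k l)
  have h2 := covUnit_sum_three a b d hab had hbd (fun k => x₀.1 k l)
  have h3 : ∑ k ∈ (Finset.univ \ insert a (insert b ({d} : Finset R))), y.1 k l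
      = ∑ k ∈ (Finset.univ \ insert a (insert b ({d} : Finset R))), x₀.1 k l := by
    apply Finset.sum_congr rfl
    intro k hk
    rw [Finset.mem_sdiff] at hk
    rw [hrel k hk.2]
  have h4 := y.colSum l
  have h5 := x₀.colSum l
  omega

/-- the table with unit of `a` in column `i`, unit of `b` in column `j`, row `d` forced -/
private noncomputable def covUnitFun (a b d : R) (i j : C) (c' : C → ℕ) (M : R → C → ℕ) :
    R → C → ℕ :=
  fun k l => if k = a then (if l = i then 1 else 0)
    else if k = b then (if l = j then 1 else 0)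
    else if k = d then c' l - (if l = i then 1 else 0) - (if l = j then 1 else 0)
    else M k l

private theorem covUnitFun_mem {r : R → ℕ} {c : C → ℕ} (a b d : R) (hab : a ≠ b) (had : a ≠ d)
    (hbd : b ≠ d) (ha : r a = 1) (hb : r b = 1) (x₀ : Tab r c) (i j : C)
    (hc : ∀ l, (if l = i then 1 else 0) + (if l = j then 1 else 0)
      ≤ x₀.1 a l + x₀.1 b l + x₀.1 d l) :
    covUnitFun a b d i j (fun l => x₀.1 a l + x₀.1 b l + x₀.1 d l) x₀.1 ∈ tables r c := by
  rw [mem_tables]
  have hba : b ≠ a := fun h => hab h.symm
  have hda : d ≠ a := fun h => had h.symm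
  have hdb : d ≠ b := fun h => hbd h.symm
  refine ⟨?_, ?_⟩
  · intro k
    by_cases hka : k = a
    · subst hka
      have : ∀ l, covUnitFun k b d i j (fun l => x₀.1 k l + x₀.1 b l + x₀.1 d l) x₀.1 k l
          = if l = i then 1 else 0 := by
        intro l
        unfold covUnitFun
        rw [if_pos rfl]
      rw [Finset.sum_congr rfl (fun l _ => this l), Finset.sum_ite_eq', if_pos (Finset.mem_univ i),
        ha]
    · by_cases hkb : k = b
      · subst hkb
        have : ∀ l, covUnitFun a k d i j (fun l => x₀.1 a l + x₀.1 k l + x₀.1 d l) x₀.1 k l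
            = if l = j then 1 else 0 := by
          intro l
          unfold covUnitFun
          rw [if_neg hka, if_pos rfl]
        rw [Finset.sum_congr rfl (fun l _ => this l), Finset.sum_ite_eq',
          if_pos (Finset.mem_univ j), hb]
      · by_cases hkd : k = d
        · subst hkd
          have : ∀ l, covUnitFun a b k i j (fun l => x₀.1 a l + x₀.1 b l + x₀.1 k l) x₀.1 k l
              = x₀.1 a l + x₀.1 b l + x₀.1 k l - (if l = i then 1 else 0)
                - (if l = j then 1 else 0) := by
            intro l
            unfold covUnitFun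
            rw [if_neg hka, if_neg hkb, if_pos rfl]
          rw [Finset.sum_congr rfl (fun l _ => this l)]
          have key : ∑ l, (x₀.1 a l + x₀.1 b l + x₀.1 k l - (if l = i then 1 else 0)
                - (if l = j then 1 else 0))
              + ∑ l, ((if l = i then 1 else 0) + (if l = j then 1 else 0))
              = ∑ l, (x₀.1 a l + x₀.1 b l + x₀.1 k l) := by
            rw [← Finset.sum_add_distrib]
            apply Finset.sum_congr rfl
            intro l _
            have := hc l
            omega
          have h2 : ∑ l : C, (((if l = i then 1 else 0) : ℕ) + (if l = j then 1 else 0)) = 2 := by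
            rw [Finset.sum_add_distrib, Finset.sum_ite_eq', Finset.sum_ite_eq',
              if_pos (Finset.mem_univ i), if_pos (Finset.mem_univ j)]
          have h3 : ∑ l, (x₀.1 a l + x₀.1 b l + x₀.1 k l) = r a + r b + r k := by
            rw [Finset.sum_add_distrib, Finset.sum_add_distrib, x₀.rowSum, x₀.rowSum, x₀.rowSum]
          omega
        · have : ∀ l, covUnitFun a b d i j (fun l => x₀.1 a l + x₀.1 b l + x₀.1 d l) x₀.1 k l
              = x₀.1 k l := by
            intro l
            unfold covUnitFun
            rw [if_neg hka, if_neg hkb, if_neg hkd]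
          rw [Finset.sum_congr rfl (fun l _ => this l), x₀.rowSum]
  · intro l
    have h1 := covUnit_sum_three a b d hab had hbd
      (fun k => covUnitFun a b d i j (fun l => x₀.1 a l + x₀.1 b l + x₀.1 d l) x₀.1 k l)
    have h2 := covUnit_sum_three a b d hab had hbd (fun k => x₀.1 k l)
    have h3 : ∑ k ∈ (Finset.univ \ insert a (insert b ({d} : Finset R))),
          covUnitFun a b d i j (fun l => x₀.1 a l + x₀.1 b l + x₀.1 d l) x₀.1 k l
        = ∑ k ∈ (Finset.univ \ insert a (insert b ({d} : Finset R))), x₀.1 k l := by
      apply Finset.sum_congr rfl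
      intro k hk
      rw [Finset.mem_sdiff, Finset.mem_insert, Finset.mem_insert, Finset.mem_singleton] at hk
      have hk2 := hk.2
      push Not at hk2
      unfold covUnitFun
      rw [if_neg hk2.1, if_neg hk2.2.1, if_neg hk2.2.2]
    have ea : covUnitFun a b d i j (fun l => x₀.1 a l + x₀.1 b l + x₀.1 d l) x₀.1 a l
        = if l = i then 1 else 0 := by
      unfold covUnitFun
      rw [if_pos rfl]
    have eb : covUnitFun a b d i j (fun l => x₀.1 a l + x₀.1 b l + x₀.1 d l) x₀.1 b l
        = if l = j then 1 else 0 := by
      unfold covUnitFun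
      rw [if_neg hba, if_pos rfl]
    have ed : covUnitFun a b d i j (fun l => x₀.1 a l + x₀.1 b l + x₀.1 d l) x₀.1 d l
        = x₀.1 a l + x₀.1 b l + x₀.1 d l - (if l = i then 1 else 0)
          - (if l = j then 1 else 0) := by
      unfold covUnitFun
      rw [if_neg hda, if_neg hdb, if_pos rfl]
    have h5 := x₀.colSum l
    have h6 := hc l
    rw [h1, h3, ea, eb, ed]
    omega

/-- Rows `a`, `b` have sum 1 and `d` is a third row.  In the class of `x₀` for the rows
`a, b, d`, the number of tables with the unit of row `a` in column `i` and the unit of row `b`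
in column `j` is `boxW c' 0 i j`, where `c' l` is the sum of the entries of `x₀` in column `l`
and rows `a, b, d`. -/
theorem count_unit {r : R → ℕ} {c : C → ℕ} (a b d : R) (hab : a ≠ b) (had : a ≠ d)
    (hbd : b ≠ d) (ha : r a = 1) (hb : r b = 1) (x₀ : Tab r c) (i j : C) :
    (Finset.univ.filter (fun y : Tab r c =>
        RelOut (insert a (insert b {d})) x₀ y ∧ y.1 a i = 1 ∧ y.1 b j = 1)).card
      = boxW (fun l => x₀.1 a l + x₀.1 b l + x₀.1 d l) 0 i j := by
  have hba : b ≠ a := fun h => hab h.symm
  have hda : d ≠ a := fun h => had h.symm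
  have hdb : d ≠ b := fun h => hbd h.symm
  by_cases hc : ∀ l, (if l = i then 1 else 0) + (if l = j then 1 else 0)
      ≤ x₀.1 a l + x₀.1 b l + x₀.1 d l
  · -- both sides are one
    have hR : boxW (fun l => x₀.1 a l + x₀.1 b l + x₀.1 d l) 0 i j = 1 := by
      unfold boxW
      rw [Finset.card_eq_one]
      refine ⟨fun _ => 0, ?_⟩
      rw [Finset.eq_singleton_iff_unique_mem]
      refine ⟨?_, ?_⟩
      · rw [Finset.mem_filter, Fintype.mem_piFinset]
        refine ⟨fun l => Finset.mem_range.mpr (Nat.succ_pos _), fun l => ?_,
          Finset.sum_const_zero⟩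
        have := hc l
        show (0 : ℕ) + (if l = i then 1 else 0) + (if l = j then 1 else 0)
          ≤ x₀.1 a l + x₀.1 b l + x₀.1 d l
        omega
      · intro x hx
        rw [Finset.mem_filter] at hx
        funext l
        exact (Finset.sum_eq_zero_iff.mp hx.2.2) l (Finset.mem_univ l)
    rw [hR, Finset.card_eq_one]
    refine ⟨⟨covUnitFun a b d i j (fun l => x₀.1 a l + x₀.1 b l + x₀.1 d l) x₀.1,
      covUnitFun_mem a b d hab had hbd ha hb x₀ i j hc⟩, ?_⟩
    rw [Finset.eq_singleton_iff_unique_mem]
    refine ⟨?_, ?_⟩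
    · rw [Finset.mem_filter]
      refine ⟨Finset.mem_univ _, ?_, ?_, ?_⟩
      · intro k hk
        rw [Finset.mem_insert, Finset.mem_insert, Finset.mem_singleton] at hk
        push Not at hk
        funext l
        show x₀.1 k l = covUnitFun a b d i j (fun l => x₀.1 a l + x₀.1 b l + x₀.1 d l) x₀.1 k l
        unfold covUnitFun
        rw [if_neg hk.1, if_neg hk.2.1, if_neg hk.2.2]
      · show covUnitFun a b d i j (fun l => x₀.1 a l + x₀.1 b l + x₀.1 d l) x₀.1 a i = 1
        unfold covUnitFun
        rw [if_pos rfl, if_pos rfl]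
      · show covUnitFun a b d i j (fun l => x₀.1 a l + x₀.1 b l + x₀.1 d l) x₀.1 b j = 1
        unfold covUnitFun
        rw [if_neg hba, if_pos rfl, if_pos rfl]
    · intro y hy
      rw [Finset.mem_filter] at hy
      obtain ⟨-, hrel, hyi, hyj⟩ := hy
      apply Subtype.ext
      funext k l
      show y.1 k l = covUnitFun a b d i j (fun l => x₀.1 a l + x₀.1 b l + x₀.1 d l) x₀.1 k l
      obtain ⟨e1, e2, e3⟩ := covUnit_rows a b d hab had hbd ha hb x₀ y i j hrel hyi hyj l
      unfold covUnitFun
      by_cases hka : k = a
      · rw [if_pos hka, hka, e1]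
      · rw [if_neg hka]
        by_cases hkb : k = b
        · rw [if_pos hkb, hkb, e2]
        · rw [if_neg hkb]
          by_cases hkd : k = d
          · rw [if_pos hkd, hkd]
            show y.1 d l = x₀.1 a l + x₀.1 b l + x₀.1 d l - (if l = i then 1 else 0)
              - (if l = j then 1 else 0)
            omega
          · rw [if_neg hkd]
            have hk : k ∉ insert a (insert b ({d} : Finset R)) := by
              rw [Finset.mem_insert, Finset.mem_insert, Finset.mem_singleton]
              push Not
              exact ⟨hka, hkb, hkd⟩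
            rw [hrel k hk]
  · -- both sides are zero
    have hR : boxW (fun l => x₀.1 a l + x₀.1 b l + x₀.1 d l) 0 i j = 0 := by
      unfold boxW
      rw [Finset.card_eq_zero, Finset.filter_eq_empty_iff]
      intro x _ hx
      apply hc
      intro l
      have h : x l + (if l = i then 1 else 0) + (if l = j then 1 else 0)
          ≤ x₀.1 a l + x₀.1 b l + x₀.1 d l := hx.1 l
      omega
    rw [hR, Finset.card_eq_zero, Finset.filter_eq_empty_iff]
    intro y _ hy
    obtain ⟨hrel, hyi, hyj⟩ := hy
    apply hc
    intro l
    obtain ⟨e1, e2, e3⟩ := covUnit_rows a b d hab had hbd ha hb x₀ y i j hrel hyi hyj l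
    omega

end Vale.Agent.Lib.P328.CT
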