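import Vale.Agent.Lib.P328.CT.Defs

/-!
# P328: three rows one of which is a unit row - the two-step minorisation
-/

namespace Vale.Agent.Lib.P328.CT

open Finset
open scoped Classical
open Vale.Agent.Lib.P335.Bip

variable {R C : Type*} [Fintype R] [Fintype C]

/-- The mean square difference to a fixed value over a finite set. -/
private theorem dbl_sq_expand {X : Type*} (s : Finset X) (hs : s.Nonempty) (g : X → ℝ) (t : ℝ) :
    (∑ y ∈ s, (t - g y) ^ 2) / (2 * (s.card : ℝ))
      = (1 / 2) * t ^ 2 - t * ((∑ y ∈ s, g y) / (s.card : ℝ))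
        + (1 / 2) * ((∑ y ∈ s, g y ^ 2) / (s.card : ℝ)) := by
  have hpos : (0 : ℝ) < (s.card : ℝ) := by exact_mod_cast Finset.card_pos.mpr hs
  have hexp : ∑ y ∈ s, (t - g y) ^ 2
      = (s.card : ℝ) * t ^ 2 - 2 * t * ∑ y ∈ s, g y + ∑ y ∈ s, g y ^ 2 := by
    have e : ∀ y, (t - g y) ^ 2 = t ^ 2 - 2 * t * g y + g y ^ 2 := fun y => by ring
    rw [Finset.sum_congr rfl (fun y _ => e y), Finset.sum_add_distrib, Finset.sum_sub_distrib,
      Finset.sum_const, nsmul_eq_mul, ← Finset.mul_sum]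
  rw [hexp]
  field_simp

/-- The variance inside the classes as half the mean square difference, class by class. -/
private theorem dbl_pairvar {X : Type*} [Fintype X] {r : X → X → Prop} (hr : Equivalence r)
    (g : X → ℝ) :
    ∑ x, (g x - av r g x) ^ 2
      = ∑ x, (∑ y ∈ univ.filter (fun y => r x y), (g x - g y) ^ 2)
          / (2 * ((univ.filter (fun y => r x y)).card : ℝ)) := by
  have hpt : ∀ x, (∑ y ∈ univ.filter (fun y => r x y), (g x - g y) ^ 2)
        / (2 * ((univ.filter (fun y => r x y)).card : ℝ))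
      = (1 / 2) * g x ^ 2 - g x * av r g x + (1 / 2) * av r (fun y => g y ^ 2) x := by
    intro x
    have hx : (univ.filter (fun y => r x y)).Nonempty :=
      ⟨x, Finset.mem_filter.mpr ⟨Finset.mem_univ x, hr.refl x⟩⟩
    exact dbl_sq_expand _ hx g (g x)
  rw [Finset.sum_congr rfl (fun x _ => hpt x), Finset.sum_add_distrib, Finset.sum_sub_distrib,
    ← Finset.mul_sum, ← Finset.mul_sum, sum_av hr (fun y => g y ^ 2), sum_sub_av_sq hr g]
  ring

/-- The sum of the squared differences to the values of `ψ` on a finite set dominates the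
squared difference to the mean. -/
private theorem dbl_mean_le {K : Type*} (A : Finset K) (hA : A.Nonempty) (ψ : K → ℝ) (t : ℝ) :
    (A.card : ℝ) * (t - (∑ ρ ∈ A, ψ ρ) / (A.card : ℝ)) ^ 2 ≤ ∑ ρ ∈ A, (t - ψ ρ) ^ 2 := by
  have hpos : (0 : ℝ) < (A.card : ℝ) := by exact_mod_cast Finset.card_pos.mpr hA
  have hexp : ∑ ρ ∈ A, (t - ψ ρ) ^ 2
      = (A.card : ℝ) * t ^ 2 - 2 * t * ∑ ρ ∈ A, ψ ρ + ∑ ρ ∈ A, ψ ρ ^ 2 := by
    have e : ∀ ρ, (t - ψ ρ) ^ 2 = t ^ 2 - 2 * t * ψ ρ + ψ ρ ^ 2 := fun ρ => by ring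
    rw [Finset.sum_congr rfl (fun ρ _ => e ρ), Finset.sum_add_distrib, Finset.sum_sub_distrib,
      Finset.sum_const, nsmul_eq_mul, ← Finset.mul_sum]
  have hcs : (∑ ρ ∈ A, ψ ρ) ^ 2 ≤ (A.card : ℝ) * ∑ ρ ∈ A, ψ ρ ^ 2 :=
    sq_sum_le_card_mul_sum_sq
  have hcs' : (∑ ρ ∈ A, ψ ρ) ^ 2 / (A.card : ℝ) ≤ ∑ ρ ∈ A, ψ ρ ^ 2 := by
    rw [div_le_iff₀ hpos]
    linarith
  have hsq : (A.card : ℝ) * (t - (∑ ρ ∈ A, ψ ρ) / (A.card : ℝ)) ^ 2
      = (A.card : ℝ) * t ^ 2 - 2 * t * ∑ ρ ∈ A, ψ ρ + (∑ ρ ∈ A, ψ ρ) ^ 2 / (A.card : ℝ) := by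
    field_simp
    ring
  rw [hsq, hexp]
  linarith

/-- A row with sum one is the indicator of a column. -/
private theorem dbl_unit_row {r : R → ℕ} {c : C → ℕ} (x : Tab r c) {a : R} (ha : r a = 1) :
    ∃ i, x.1 a = Pi.single i 1 := by
  have hs : ∑ l, x.1 a l = 1 := (x.rowSum a).trans ha
  have hex : ∃ i, x.1 a i ≠ 0 := by
    by_contra hne
    push Not at hne
    rw [Finset.sum_congr rfl (fun l _ => hne l), Finset.sum_const_zero] at hs
    exact zero_ne_one hs
  obtain ⟨i, hi⟩ := hex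
  refine ⟨i, ?_⟩
  have hsplit : x.1 a i + ∑ l ∈ univ.erase i, x.1 a l = 1 := by
    rw [Finset.add_sum_erase _ _ (Finset.mem_univ i)]
    exact hs
  have h1 : x.1 a i = 1 := by omega
  have h0 : ∑ l ∈ univ.erase i, x.1 a l = 0 := by omega
  funext l
  by_cases hl : l = i
  · rw [hl, Pi.single_eq_same]
    exact h1
  · rw [Pi.single_eq_of_ne hl]
    exact (Finset.sum_eq_zero_iff_of_nonneg (fun _ _ => Nat.zero_le _)).mp h0 l
      (Finset.mem_erase.mpr ⟨hl, Finset.mem_univ l⟩)

/-- Moving one unit from one point to another does not change a sum. -/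
private theorem dbl_sum_move {α : Type*} [Fintype α] (g g' : α → ℕ) (i j : α)
    (h : ∀ l, g' l + (if l = i then 1 else 0) = g l + (if l = j then 1 else 0)) :
    ∑ l, g' l = ∑ l, g l := by
  have h1 : ∑ l, (g' l + (if l = i then 1 else 0)) = ∑ l, (g l + (if l = j then 1 else 0)) :=
    Finset.sum_congr rfl (fun l _ => h l)
  rw [Finset.sum_add_distrib, Finset.sum_add_distrib, Finset.sum_ite_eq', Finset.sum_ite_eq',
    if_pos (Finset.mem_univ i), if_pos (Finset.mem_univ j)] at h1
  exact Nat.add_right_cancel h1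

/-- A function that loses one unit at `p` and gains one at `q`, pointwise. -/
private theorem dbl_shift_pt {α : Type*} (g g' : α → ℕ) (p q : α) (hpq : p ≠ q)
    (hp : g' p + 1 = g p) (hq : g' q = g q + 1) (ho : ∀ k, k ≠ p → k ≠ q → g' k = g k)
    (k : α) : g' k + (if k = p then 1 else 0) = g k + (if k = q then 1 else 0) := by
  by_cases hkp : k = p
  · have hkq : k ≠ q := fun h => hpq (hkp.symm.trans h)
    rw [if_pos hkp, if_neg hkq, hkp]
    omega
  · by_cases hkq : k = q
    · rw [if_neg hkp, if_pos hkq, hkq]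
      omega
    · rw [if_neg hkp, if_neg hkq, ho k hkp hkq]

/-- A function that loses one unit at `p` and gains one at `q` keeps its sum. -/
private theorem dbl_sum_shift {α : Type*} [Fintype α] (g g' : α → ℕ) (p q : α) (hpq : p ≠ q)
    (hp : g' p + 1 = g p) (hq : g' q = g q + 1) (ho : ∀ k, k ≠ p → k ≠ q → g' k = g k) :
    ∑ k, g' k = ∑ k, g k :=
  dbl_sum_move g g' p q (dbl_shift_pt g g' p q hpq hp hq ho)

/-- The elementary move: one unit of row `a` goes from column `i` to column `j`, and one unit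
of row `u` goes from column `j` to column `i`. -/
private theorem dbl_move_exists {r : R → ℕ} {c : C → ℕ} (x : Tab r c) (a u : R) (i j : C)
    (hau : a ≠ u) (hij : i ≠ j) (hai : 1 ≤ x.1 a i) (huj : 1 ≤ x.1 u j) :
    ∃ x' : Tab r c, (∀ k, k ≠ a → k ≠ u → x'.1 k = x.1 k) ∧
      (∀ l, x'.1 a l + (if l = i then 1 else 0) = x.1 a l + (if l = j then 1 else 0)) := by
  obtain ⟨M', hM'⟩ : ∃ M' : R → C → ℕ, ∀ k l, M' k l =
      if k = a then (if l = i then x.1 a i - 1 else if l = j then x.1 a j + 1 else x.1 a l)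
      else if k = u then (if l = j then x.1 u j - 1 else if l = i then x.1 u i + 1 else x.1 u l)
      else x.1 k l := ⟨_, fun _ _ => rfl⟩
  have hMa_i : M' a i + 1 = x.1 a i := by
    rw [hM' a i, if_pos rfl, if_pos rfl]
    omega
  have hMa_j : M' a j = x.1 a j + 1 := by
    rw [hM' a j, if_pos rfl, if_neg (Ne.symm hij), if_pos rfl]
  have hMa_o : ∀ l, l ≠ i → l ≠ j → M' a l = x.1 a l := by
    intro l h1 h2
    rw [hM' a l, if_pos rfl, if_neg h1, if_neg h2]
  have hMu_j : M' u j + 1 = x.1 u j := by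
    rw [hM' u j, if_neg (Ne.symm hau), if_pos rfl, if_pos rfl]
    omega
  have hMu_i : M' u i = x.1 u i + 1 := by
    rw [hM' u i, if_neg (Ne.symm hau), if_pos rfl, if_neg hij, if_pos rfl]
  have hMu_o : ∀ l, l ≠ j → l ≠ i → M' u l = x.1 u l := by
    intro l h1 h2
    rw [hM' u l, if_neg (Ne.symm hau), if_pos rfl, if_neg h1, if_neg h2]
  have hother : ∀ k, k ≠ a → k ≠ u → ∀ l, M' k l = x.1 k l := by
    intro k h1 h2 l
    rw [hM' k l, if_neg h1, if_neg h2]
  have hmem : M' ∈ tables r c := by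
    rw [mem_tables]
    refine ⟨?_, ?_⟩
    · intro k
      by_cases hka : k = a
      · rw [hka]
        exact (dbl_sum_shift (x.1 a) (M' a) i j hij hMa_i hMa_j hMa_o).trans (x.rowSum a)
      · by_cases hku : k = u
        · rw [hku]
          exact (dbl_sum_shift (x.1 u) (M' u) j i (Ne.symm hij) hMu_j hMu_i hMu_o).trans
            (x.rowSum u)
        · exact (Finset.sum_congr rfl (fun l _ => hother k hka hku l)).trans (x.rowSum k)
    · intro l
      by_cases hli : l = i
      · rw [hli]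
        exact (dbl_sum_shift (fun k => x.1 k i) (fun k => M' k i) a u hau hMa_i hMu_i
          (fun k h1 h2 => hother k h1 h2 i)).trans (x.colSum i)
      · by_cases hlj : l = j
        · rw [hlj]
          exact (dbl_sum_shift (fun k => x.1 k j) (fun k => M' k j) u a (Ne.symm hau) hMu_j
            hMa_j (fun k h1 h2 => hother k h2 h1 j)).trans (x.colSum j)
        · refine (Finset.sum_congr rfl (fun k _ => ?_)).trans (x.colSum l)
          by_cases hka : k = a
          · rw [hka]
            exact hMa_o l hli hlj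
          · by_cases hku : k = u
            · rw [hku]
              exact hMu_o l hlj hli
            · exact hother k hka hku l
  refine ⟨⟨M', hmem⟩, ?_, ?_⟩
  · intro k h1 h2
    funext l
    exact hother k h1 h2 l
  · exact dbl_shift_pt (x.1 a) (M' a) i j hij hMa_i hMa_j hMa_o

/-- Two tables that agree in column `j` in all rows except `b` agree in the entry of row `b`. -/
private theorem dbl_entry_eq {r : R → ℕ} {c : C → ℕ} (x y : Tab r c) (b : R) (j : C)
    (h : ∀ i, i ≠ b → x.1 i j = y.1 i j) : x.1 b j = y.1 b j := by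
  have hx := x.colSum j
  have hy := y.colSum j
  rw [← Finset.add_sum_erase Finset.univ (fun i => x.1 i j) (Finset.mem_univ b)] at hx
  rw [← Finset.add_sum_erase Finset.univ (fun i => y.1 i j) (Finset.mem_univ b)] at hy
  have hrest : ∑ i ∈ Finset.univ.erase b, x.1 i j = ∑ i ∈ Finset.univ.erase b, y.1 i j :=
    Finset.sum_congr rfl (fun i hi => h i (Finset.mem_erase.mp hi).1)
  omega

/-- In a class of two rows `a`, `u`, a table is determined by its row `a`. -/
private theorem dbl_inj {r : R → ℕ} {c : C → ℕ} (a u : R) (y y' : Tab r c)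
    (h : RelOut {a, u} y y') (ha : y.1 a = y'.1 a) : y = y' := by
  apply Subtype.ext
  funext i
  by_cases hia : i = a
  · rw [hia]
    exact ha
  · by_cases hiu : i = u
    · rw [hiu]
      funext j
      refine dbl_entry_eq y y' u j ?_
      intro k hk
      by_cases hka : k = a
      · rw [hka, ha]
      · have hn : k ∉ ({a, u} : Finset R) := by
          rw [Finset.mem_insert, Finset.mem_singleton]
          push Not
          exact ⟨hka, hk⟩
        rw [h k hn]
    · have hn : i ∉ ({a, u} : Finset R) := by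
        rw [Finset.mem_insert, Finset.mem_singleton]
        push Not
        exact ⟨hia, hiu⟩
      exact h i hn

/-- Covering: every row `a` that occurs in the class of the three rows occurs in one of the two
pair classes of `x`. -/
private theorem dbl_cover {r : R → ℕ} {c : C → ℕ} (a u₁ u₂ : R) (ha1 : a ≠ u₁) (ha2 : a ≠ u₂)
    (ha : r a = 1) (x y₀ : Tab r c) (h : RelOut {a, u₁, u₂} x y₀) :
    ∃ y : Tab r c, (RelOut {a, u₂} x y ∨ RelOut {a, u₁} x y) ∧ y.1 a = y₀.1 a := by
  obtain ⟨i₀, hi₀⟩ := dbl_unit_row x ha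
  obtain ⟨j, hj⟩ := dbl_unit_row y₀ ha
  by_cases hij : i₀ = j
  · refine ⟨x, Or.inl ((relOut_equivalence _).refl x), ?_⟩
    rw [hi₀, hj, hij]
  · have hxaj : x.1 a j = 0 := by
      rw [hi₀, Pi.single_eq_of_ne (Ne.symm hij)]
    have hyaj : y₀.1 a j = 1 := by
      rw [hj, Pi.single_eq_same]
    have hex : 1 ≤ x.1 u₁ j ∨ 1 ≤ x.1 u₂ j := by
      by_contra hcon
      push Not at hcon
      have h1 : x.1 u₁ j = 0 := by omega
      have h2 : x.1 u₂ j = 0 := by omega
      have hle : ∀ i ∈ (Finset.univ : Finset R), x.1 i j ≤ y₀.1 i j := by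
        intro i _
        by_cases hi : i ∈ ({a, u₁, u₂} : Finset R)
        · rw [Finset.mem_insert, Finset.mem_insert, Finset.mem_singleton] at hi
          rcases hi with rfl | rfl | rfl
          · rw [hxaj]
            exact Nat.zero_le _
          · rw [h1]
            exact Nat.zero_le _
          · rw [h2]
            exact Nat.zero_le _
        · rw [h i hi]
      have hlt : ∑ i, x.1 i j < ∑ i, y₀.1 i j :=
        Finset.sum_lt_sum hle ⟨a, Finset.mem_univ a, by rw [hxaj, hyaj]; exact Nat.zero_lt_one⟩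
      rw [x.colSum j, y₀.colSum j] at hlt
      exact lt_irrefl _ hlt
    have hai : 1 ≤ x.1 a i₀ := by
      rw [hi₀, Pi.single_eq_same]
    have hrow : ∀ x' : Tab r c,
        (∀ l, x'.1 a l + (if l = i₀ then 1 else 0) = x.1 a l + (if l = j then 1 else 0)) →
        x'.1 a = y₀.1 a := by
      intro x' hx'
      funext l
      have hl := hx' l
      rw [hi₀, Pi.single_apply] at hl
      rw [hj, Pi.single_apply]
      by_cases hl0 : l = i₀
      · have hlj : l ≠ j := fun h' => hij (hl0.symm.trans h')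
        rw [if_pos hl0, if_neg hlj] at hl
        rw [if_neg hlj]
        omega
      · rw [if_neg hl0] at hl
        by_cases hlj : l = j
        · rw [if_pos hlj] at hl
          rw [if_pos hlj]
          omega
        · rw [if_neg hlj] at hl
          rw [if_neg hlj]
          omega
    rcases hex with h1 | h2
    · obtain ⟨x', hx'o, hx'a⟩ := dbl_move_exists x a u₁ i₀ j ha1 hij hai h1
      refine ⟨x', Or.inr ?_, hrow x' hx'a⟩
      intro k hk
      rw [Finset.mem_insert, Finset.mem_singleton] at hk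
      push Not at hk
      exact (hx'o k hk.1 hk.2).symm
    · obtain ⟨x', hx'o, hx'a⟩ := dbl_move_exists x a u₂ i₀ j ha2 hij hai h2
      refine ⟨x', Or.inl ?_, hrow x' hx'a⟩
      intro k hk
      rw [Finset.mem_insert, Finset.mem_singleton] at hk
      push Not at hk
      exact (hx'o k hk.1 hk.2).symm

/-- The rows `a` of the tables in the class of `x` for the three rows. -/
private noncomputable def dblA {r : R → ℕ} {c : C → ℕ} (a u₁ u₂ : R) (x : Tab r c) :
    Finset (C → ℕ) :=
  (Finset.univ.filter (fun y : Tab r c => RelOut {a, u₁, u₂} x y)).image (fun y => y.1 a)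

/-- The value of `φ` on the tables of the class of `x` with row `a` equal to `ρ`. -/
private noncomputable def dblPsi {r : R → ℕ} {c : C → ℕ} (a u₁ u₂ : R) (φ : Tab r c → ℝ)
    (x : Tab r c) (ρ : C → ℕ) : ℝ :=
  if h : ∃ y : Tab r c, RelOut {a, u₁, u₂} x y ∧ y.1 a = ρ then φ (Classical.choose h) else 0

/-- The mean of the values of `φ` over the rows `a` of the class of `x`. -/
private noncomputable def dblM {r : R → ℕ} {c : C → ℕ} (a u₁ u₂ : R) (φ : Tab r c → ℝ)
    (x : Tab r c) : ℝ :=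
  (∑ ρ ∈ dblA a u₁ u₂ x, dblPsi a u₁ u₂ φ x ρ) / ((dblA a u₁ u₂ x).card : ℝ)

/-- The sum over a pair class, rewritten with the rows `a`. -/
private theorem dbl_pair_sum {r : R → ℕ} {c : C → ℕ} (a u₁ u₂ u : R) (φ : Tab r c → ℝ)
    (hsub : ({a, u} : Finset R) ⊆ {a, u₁, u₂})
    (hψ : ∀ x y : Tab r c, RelOut {a, u₁, u₂} x y → dblPsi a u₁ u₂ φ x (y.1 a) = φ y)
    (x : Tab r c) :
    ∑ y ∈ Finset.univ.filter (fun y : Tab r c => RelOut {a, u} x y), (φ x - φ y) ^ 2
      = ∑ ρ ∈ (Finset.univ.filter (fun y : Tab r c => RelOut {a, u} x y)).image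
          (fun y => y.1 a), (φ x - dblPsi a u₁ u₂ φ x ρ) ^ 2 := by
  have hinj : Set.InjOn (fun y : Tab r c => y.1 a)
      ((Finset.univ.filter (fun y : Tab r c => RelOut {a, u} x y) : Finset (Tab r c))
        : Set (Tab r c)) := by
    intro y hy y' hy' hrow
    rw [Finset.mem_coe, Finset.mem_filter] at hy hy'
    exact dbl_inj a u y y'
      ((relOut_equivalence _).trans ((relOut_equivalence _).symm hy.2) hy'.2) hrow
  rw [Finset.sum_image hinj]
  refine Finset.sum_congr rfl (fun y hy => ?_)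
  rw [Finset.mem_filter] at hy
  rw [hψ x y (relOut_mono hsub hy.2)]

/-- The size of a pair class is at most the number of rows `a` of the class of the three
rows. -/
private theorem dbl_card_le {r : R → ℕ} {c : C → ℕ} (a u₁ u₂ u : R)
    (hsub : ({a, u} : Finset R) ⊆ {a, u₁, u₂}) (x : Tab r c) :
    ((Finset.univ.filter (fun y : Tab r c => RelOut {a, u} x y)).card : ℝ)
      ≤ ((dblA a u₁ u₂ x).card : ℝ) := by
  have hinj : Set.InjOn (fun y : Tab r c => y.1 a)
      ((Finset.univ.filter (fun y : Tab r c => RelOut {a, u} x y) : Finset (Tab r c))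
        : Set (Tab r c)) := by
    intro y hy y' hy' hrow
    rw [Finset.mem_coe, Finset.mem_filter] at hy hy'
    exact dbl_inj a u y y'
      ((relOut_equivalence _).trans ((relOut_equivalence _).symm hy.2) hy'.2) hrow
  rw [← Finset.card_image_of_injOn hinj]
  have hsubset : (Finset.univ.filter (fun y : Tab r c => RelOut {a, u} x y)).image
      (fun y => y.1 a) ⊆ dblA a u₁ u₂ x := by
    unfold dblA
    apply Finset.image_subset_image
    intro y hy
    rw [Finset.mem_filter] at hy ⊢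
    exact ⟨hy.1, relOut_mono hsub hy.2⟩
  exact_mod_cast Finset.card_le_card hsubset

/-- Row `a` has sum 1, `u₁ ≠ u₂` are two other rows.  A function `φ` of the row `a` (and of
the rows outside `a, u₁, u₂`) with zero averages on the classes of `{a, u₁, u₂}` loses at
least half of its square norm under the two resamplings `{a, u₂}` and `{a, u₁}` together. -/
theorem doeblin {r : R → ℕ} {c : C → ℕ} (a u₁ u₂ : R) (hu : u₁ ≠ u₂) (ha1 : a ≠ u₁)
    (ha2 : a ≠ u₂) (ha : r a = 1) (φ : Tab r c → ℝ)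
    (hφ : av (RelOut {u₁, u₂}) φ = φ) (hz : ∀ x, av (RelOut {a, u₁, u₂}) φ x = 0) :
    (1 / 2) * ∑ x, φ x ^ 2
      ≤ ∑ x, (φ x - av (RelOut {a, u₂}) φ x) ^ 2 + ∑ x, (φ x - av (RelOut {a, u₁}) φ x) ^ 2 := by
  have _hu := hu
  have hs := relOut_equivalence (r := r) (c := c) ({a, u₁, u₂} : Finset R)
  have h2 := relOut_equivalence (r := r) (c := c) ({a, u₂} : Finset R)
  have h3 := relOut_equivalence (r := r) (c := c) ({a, u₁} : Finset R)
  have h1 := relOut_equivalence (r := r) (c := c) ({u₁, u₂} : Finset R)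
  have hsub2 : ({a, u₂} : Finset R) ⊆ {a, u₁, u₂} :=
    Finset.insert_subset_insert _ (Finset.subset_insert _ _)
  have hsub3 : ({a, u₁} : Finset R) ⊆ {a, u₁, u₂} := by
    intro i hi
    rw [Finset.mem_insert, Finset.mem_singleton] at hi
    rcases hi with rfl | rfl
    · exact Finset.mem_insert_self _ _
    · exact Finset.mem_insert_of_mem (Finset.mem_insert_self _ _)
  -- `φ` is a function of the row `a` inside a class
  have hF1 : ∀ y y' : Tab r c, RelOut {a, u₁, u₂} y y' → y.1 a = y'.1 a → φ y = φ y' := by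
    intro y y' hyy hrow
    have hrel : RelOut {u₁, u₂} y y' := by
      intro i hi
      by_cases hia : i = a
      · rw [hia]
        exact hrow
      · apply hyy i
        rw [Finset.mem_insert, Finset.mem_singleton] at hi
        rw [Finset.mem_insert, Finset.mem_insert, Finset.mem_singleton]
        push Not at hi ⊢
        exact ⟨hia, hi.1, hi.2⟩
    rw [← hφ]
    exact av_congr_of_rel h1 φ hrel
  have hψ : ∀ x y : Tab r c, RelOut {a, u₁, u₂} x y → dblPsi a u₁ u₂ φ x (y.1 a) = φ y := by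
    intro x y hxy
    have hex : ∃ y' : Tab r c, RelOut {a, u₁, u₂} x y' ∧ y'.1 a = y.1 a := ⟨y, hxy, rfl⟩
    unfold dblPsi
    rw [dif_pos hex]
    have hc := Classical.choose_spec hex
    exact hF1 _ _ (hs.trans (hs.symm hc.1) hxy) hc.2
  -- the mean is constant on the classes
  have hm_inv : ∀ x x' : Tab r c, RelOut {a, u₁, u₂} x x' →
      dblM a u₁ u₂ φ x = dblM a u₁ u₂ φ x' := by
    intro x x' hxx
    have hA : dblA a u₁ u₂ x = dblA a u₁ u₂ x' := by
      unfold dblA
      congr 1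
      apply Finset.filter_congr
      intro y _
      exact ⟨fun h => hs.trans (hs.symm hxx) h, fun h => hs.trans hxx h⟩
    have hψeq : ∀ ρ ∈ dblA a u₁ u₂ x, dblPsi a u₁ u₂ φ x ρ = dblPsi a u₁ u₂ φ x' ρ := by
      intro ρ hρ
      unfold dblA at hρ
      rw [Finset.mem_image] at hρ
      obtain ⟨y, hy, rfl⟩ := hρ
      rw [Finset.mem_filter] at hy
      rw [hψ x y hy.2, hψ x' y (hs.trans (hs.symm hxx) hy.2)]
    unfold dblM
    rw [← hA, Finset.sum_congr rfl hψeq]
  -- the pointwise bound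
  have hpt : ∀ x : Tab r c, (1 / 2) * (φ x - dblM a u₁ u₂ φ x) ^ 2
      ≤ (∑ y ∈ Finset.univ.filter (fun y : Tab r c => RelOut {a, u₂} x y), (φ x - φ y) ^ 2)
          / (2 * ((Finset.univ.filter (fun y : Tab r c => RelOut {a, u₂} x y)).card : ℝ))
        + (∑ y ∈ Finset.univ.filter (fun y : Tab r c => RelOut {a, u₁} x y), (φ x - φ y) ^ 2)
          / (2 * ((Finset.univ.filter (fun y : Tab r c => RelOut {a, u₁} x y)).card : ℝ)) := by
    intro x
    have hxA : x.1 a ∈ dblA a u₁ u₂ x := by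
      unfold dblA
      exact Finset.mem_image_of_mem _ (Finset.mem_filter.mpr ⟨Finset.mem_univ x, hs.refl x⟩)
    have hAne : (dblA a u₁ u₂ x).Nonempty := ⟨_, hxA⟩
    have hNpos : (0 : ℝ) < ((dblA a u₁ u₂ x).card : ℝ) := by
      exact_mod_cast Finset.card_pos.mpr hAne
    have hn2pos : (0 : ℝ)
        < ((Finset.univ.filter (fun y : Tab r c => RelOut {a, u₂} x y)).card : ℝ) := by
      have hx : x ∈ Finset.univ.filter (fun y : Tab r c => RelOut {a, u₂} x y) :=
        Finset.mem_filter.mpr ⟨Finset.mem_univ x, h2.refl x⟩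
      exact_mod_cast Finset.card_pos.mpr ⟨x, hx⟩
    have hn3pos : (0 : ℝ)
        < ((Finset.univ.filter (fun y : Tab r c => RelOut {a, u₁} x y)).card : ℝ) := by
      have hx : x ∈ Finset.univ.filter (fun y : Tab r c => RelOut {a, u₁} x y) :=
        Finset.mem_filter.mpr ⟨Finset.mem_univ x, h3.refl x⟩
      exact_mod_cast Finset.card_pos.mpr ⟨x, hx⟩
    have hD2nn : 0 ≤ ∑ y ∈ Finset.univ.filter (fun y : Tab r c => RelOut {a, u₂} x y),
        (φ x - φ y) ^ 2 := Finset.sum_nonneg (fun _ _ => sq_nonneg _)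
    have hD3nn : 0 ≤ ∑ y ∈ Finset.univ.filter (fun y : Tab r c => RelOut {a, u₁} x y),
        (φ x - φ y) ^ 2 := Finset.sum_nonneg (fun _ _ => sq_nonneg _)
    have hcov : dblA a u₁ u₂ x
        ⊆ (Finset.univ.filter (fun y : Tab r c => RelOut {a, u₂} x y)).image (fun y => y.1 a)
          ∪ (Finset.univ.filter (fun y : Tab r c => RelOut {a, u₁} x y)).image
            (fun y => y.1 a) := by
      intro ρ hρ
      unfold dblA at hρ
      rw [Finset.mem_image] at hρ
      obtain ⟨y₀, hy₀, rfl⟩ := hρ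
      rw [Finset.mem_filter] at hy₀
      obtain ⟨y, hy, hrow⟩ := dbl_cover a u₁ u₂ ha1 ha2 ha x y₀ hy₀.2
      rw [Finset.mem_union]
      rcases hy with hy | hy
      · left
        rw [← hrow]
        exact Finset.mem_image_of_mem _ (Finset.mem_filter.mpr ⟨Finset.mem_univ y, hy⟩)
      · right
        rw [← hrow]
        exact Finset.mem_image_of_mem _ (Finset.mem_filter.mpr ⟨Finset.mem_univ y, hy⟩)
    have hsumA : ∑ ρ ∈ dblA a u₁ u₂ x, (φ x - dblPsi a u₁ u₂ φ x ρ) ^ 2
        ≤ ∑ y ∈ Finset.univ.filter (fun y : Tab r c => RelOut {a, u₂} x y), (φ x - φ y) ^ 2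
          + ∑ y ∈ Finset.univ.filter (fun y : Tab r c => RelOut {a, u₁} x y),
              (φ x - φ y) ^ 2 := by
      rw [dbl_pair_sum a u₁ u₂ u₂ φ hsub2 hψ x, dbl_pair_sum a u₁ u₂ u₁ φ hsub3 hψ x]
      refine le_trans (Finset.sum_le_sum_of_subset_of_nonneg hcov
        (fun _ _ _ => sq_nonneg _)) ?_
      have hui := Finset.sum_union_inter
        (s₁ := (Finset.univ.filter (fun y : Tab r c => RelOut {a, u₂} x y)).image
          (fun y => y.1 a))
        (s₂ := (Finset.univ.filter (fun y : Tab r c => RelOut {a, u₁} x y)).image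
          (fun y => y.1 a))
        (f := fun ρ => (φ x - dblPsi a u₁ u₂ φ x ρ) ^ 2)
      have hinn : 0 ≤ ∑ ρ ∈ (Finset.univ.filter (fun y : Tab r c => RelOut {a, u₂} x y)).image
            (fun y => y.1 a)
          ∩ (Finset.univ.filter (fun y : Tab r c => RelOut {a, u₁} x y)).image
            (fun y => y.1 a), (φ x - dblPsi a u₁ u₂ φ x ρ) ^ 2 :=
        Finset.sum_nonneg (fun _ _ => sq_nonneg _)
      linarith
    have hmean := dbl_mean_le (dblA a u₁ u₂ x) hAne (dblPsi a u₁ u₂ φ x) (φ x)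
    have hc2 := dbl_card_le a u₁ u₂ u₂ hsub2 x
    have hc3 := dbl_card_le a u₁ u₂ u₁ hsub3 x
    have hd2 : (∑ y ∈ Finset.univ.filter (fun y : Tab r c => RelOut {a, u₂} x y),
          (φ x - φ y) ^ 2) / (2 * ((dblA a u₁ u₂ x).card : ℝ))
        ≤ (∑ y ∈ Finset.univ.filter (fun y : Tab r c => RelOut {a, u₂} x y), (φ x - φ y) ^ 2)
          / (2 * ((Finset.univ.filter (fun y : Tab r c => RelOut {a, u₂} x y)).card : ℝ)) :=
      div_le_div_of_nonneg_left hD2nn (by linarith) (by linarith)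
    have hd3 : (∑ y ∈ Finset.univ.filter (fun y : Tab r c => RelOut {a, u₁} x y),
          (φ x - φ y) ^ 2) / (2 * ((dblA a u₁ u₂ x).card : ℝ))
        ≤ (∑ y ∈ Finset.univ.filter (fun y : Tab r c => RelOut {a, u₁} x y), (φ x - φ y) ^ 2)
          / (2 * ((Finset.univ.filter (fun y : Tab r c => RelOut {a, u₁} x y)).card : ℝ)) :=
      div_le_div_of_nonneg_left hD3nn (by linarith) (by linarith)
    have hfin : (1 / 2) * (φ x - dblM a u₁ u₂ φ x) ^ 2
        ≤ (∑ y ∈ Finset.univ.filter (fun y : Tab r c => RelOut {a, u₂} x y), (φ x - φ y) ^ 2)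
            / (2 * ((dblA a u₁ u₂ x).card : ℝ))
          + (∑ y ∈ Finset.univ.filter (fun y : Tab r c => RelOut {a, u₁} x y),
              (φ x - φ y) ^ 2) / (2 * ((dblA a u₁ u₂ x).card : ℝ)) := by
      rw [← add_div, le_div_iff₀ (by linarith)]
      have hM : dblM a u₁ u₂ φ x
          = (∑ ρ ∈ dblA a u₁ u₂ x, dblPsi a u₁ u₂ φ x ρ) / ((dblA a u₁ u₂ x).card : ℝ) := rfl
      rw [hM]
      linarith
    linarith
  -- the cross term vanishes
  have hcross : ∑ x, φ x * dblM a u₁ u₂ φ x = 0 := by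
    have hinv : av (RelOut {a, u₁, u₂}) (dblM a u₁ u₂ φ) = dblM a u₁ u₂ φ :=
      av_of_invariant hs hm_inv
    rw [← hinv, sum_mul_av hs φ (dblM a u₁ u₂ φ)]
    exact Finset.sum_eq_zero (fun x _ => by rw [hz x, zero_mul])
  have hstep1 : ∑ x, φ x ^ 2 ≤ ∑ x, (φ x - dblM a u₁ u₂ φ x) ^ 2 := by
    have e : ∀ x, (φ x - dblM a u₁ u₂ φ x) ^ 2
        = φ x ^ 2 - 2 * (φ x * dblM a u₁ u₂ φ x) + dblM a u₁ u₂ φ x ^ 2 := fun x => by ring
    rw [Finset.sum_congr rfl (fun x _ => e x), Finset.sum_add_distrib, Finset.sum_sub_distrib,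
      ← Finset.mul_sum, hcross]
    have hnn : 0 ≤ ∑ x, dblM a u₁ u₂ φ x ^ 2 := Finset.sum_nonneg (fun _ _ => sq_nonneg _)
    linarith
  rw [dbl_pairvar h2 φ, dbl_pairvar h3 φ, ← Finset.sum_add_distrib]
  calc (1 / 2) * ∑ x, φ x ^ 2
      ≤ (1 / 2) * ∑ x, (φ x - dblM a u₁ u₂ φ x) ^ 2 := by linarith
    _ = ∑ x, (1 / 2) * (φ x - dblM a u₁ u₂ φ x) ^ 2 := by rw [Finset.mul_sum]
    _ ≤ _ := Finset.sum_le_sum (fun x _ => hpt x)

end Vale.Agent.Lib.P328.CT
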