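import Vale.Agent.Lib.P335.Bip.Av
import Vale.Agent.Lib.P335.Bip.AvMore

/-!
# P328 / abstract: from a Gram inequality for three families of invariant functions to the
inequality for the three class averages
-/

namespace Vale.Agent.Lib.P328.CT

open Finset
open scoped Classical
open Vale.Agent.Lib.P335.Bip

variable {X : Type*} [Fintype X]

/-- The centred function `g - av s g` and its average over a finer relation `r`. -/
private theorem gram_piece (r s : X → X → Prop) (hr : Equivalence r) (hs : Equivalence s)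
    (fr : ∀ x y, r x y → s x y) (g : X → ℝ) :
    av r (av r (fun x => g x - av s g x)) = av r (fun x => g x - av s g x) ∧
    (∀ x, av s (av r (fun x => g x - av s g x)) x = 0) ∧
    ∑ x, av r (fun x => g x - av s g x) x ^ 2
      = ∑ x, g x * av r g x - ∑ x, g x * av s g x ∧
    ∑ x, (g x - av s g x) * av r (fun x => g x - av s g x) x
      = ∑ x, av r (fun x => g x - av s g x) x ^ 2 := by
  have hd : ∑ x, (g x - av s g x) * av r (fun x => g x - av s g x) x
      = ∑ x, av r (fun x => g x - av s g x) x ^ 2 :=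
    (sum_av_sq hr (fun x => g x - av s g x)).symm
  refine ⟨av_av hr _, ?_, ?_, hd⟩
  · intro x
    rw [av_coarse hr hs fr]
    have e : av s (fun x => g x - av s g x) x = av s g x - av s (av s g) x :=
      congrFun (av_sub s g (av s g)) x
    rw [e, av_av hs, sub_self]
  · rw [← hd]
    have e1 : ∀ x, av r (fun x => g x - av s g x) x = av r g x - av s g x := by
      intro x
      have e : av r (fun x => g x - av s g x) x = av r g x - av r (av s g) x :=
        congrFun (av_sub r g (av s g)) x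
      rw [e, av_coarse' hr hs fr g]
    have e2 : ∑ x, av s g x * av r g x = ∑ x, g x * av s g x := by
      rw [sum_mul_av hr (av s g) g, av_coarse' hr hs fr g]
      exact Finset.sum_congr rfl (fun x _ => mul_comm _ _)
    have e3 : ∑ x, av s g x ^ 2 = ∑ x, g x * av s g x := sum_av_sq hs g
    have e4 : ∀ x, (g x - av s g x) * av r (fun x => g x - av s g x) x
        = g x * av r g x - g x * av s g x - av s g x * av r g x + av s g x ^ 2 := by
      intro x
      rw [e1 x]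
      ring
    rw [Finset.sum_congr rfl (fun x _ => e4 x), Finset.sum_add_distrib, Finset.sum_sub_distrib,
      Finset.sum_sub_distrib, e2, e3]
    ring

/-- If `‖g₁ + g₂ + g₃‖² ≤ lam (‖g₁‖² + ‖g₂‖² + ‖g₃‖²)` for all `g_k` that are invariant under
`r_k` and have zero average on every `s`-class, then
`∑_k ⟨g, av r_k g⟩ ≤ lam ‖g‖² + (3 - lam) ⟨g, av s g⟩` for every `g`. -/
theorem gram_to_proj (r1 r2 r3 s : X → X → Prop)
    (h1 : Equivalence r1) (h2 : Equivalence r2) (h3 : Equivalence r3) (hs : Equivalence s)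
    (f1 : ∀ x y, r1 x y → s x y) (f2 : ∀ x y, r2 x y → s x y) (f3 : ∀ x y, r3 x y → s x y)
    (lam : ℝ) (hlam : 0 ≤ lam)
    (hgram : ∀ g1 g2 g3 : X → ℝ, av r1 g1 = g1 → av r2 g2 = g2 → av r3 g3 = g3 →
      (∀ x, av s g1 x = 0) → (∀ x, av s g2 x = 0) → (∀ x, av s g3 x = 0) →
      ∑ x, (g1 x + g2 x + g3 x) ^ 2
        ≤ lam * (∑ x, g1 x ^ 2 + ∑ x, g2 x ^ 2 + ∑ x, g3 x ^ 2))
    (g : X → ℝ) :
    ∑ x, g x * av r1 g x + ∑ x, g x * av r2 g x + ∑ x, g x * av r3 g x
      ≤ lam * ∑ x, g x ^ 2 + (3 - lam) * ∑ x, g x * av s g x := by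
  obtain ⟨a1, b1, c1, d1⟩ := gram_piece r1 s h1 hs f1 g
  obtain ⟨a2, b2, c2, d2⟩ := gram_piece r2 s h2 hs f2 g
  obtain ⟨a3, b3, c3, d3⟩ := gram_piece r3 s h3 hs f3 g
  have hG := hgram _ _ _ a1 a2 a3 b1 b2 b3
  have hH : ∑ x, (g x - av s g x) ^ 2 = ∑ x, g x ^ 2 - ∑ x, g x * av s g x :=
    sum_sub_av_sq hs g
  obtain ⟨g1, hg1⟩ : ∃ g1 : X → ℝ, g1 = av r1 (fun x => g x - av s g x) := ⟨_, rfl⟩
  obtain ⟨g2, hg2⟩ : ∃ g2 : X → ℝ, g2 = av r2 (fun x => g x - av s g x) := ⟨_, rfl⟩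
  obtain ⟨g3, hg3⟩ : ∃ g3 : X → ℝ, g3 = av r3 (fun x => g x - av s g x) := ⟨_, rfl⟩
  rw [← hg1] at c1 d1 hG
  rw [← hg2] at c2 d2 hG
  rw [← hg3] at c3 d3 hG
  obtain ⟨A, hA⟩ : ∃ A : ℝ, A = ∑ x, g1 x ^ 2 + ∑ x, g2 x ^ 2 + ∑ x, g3 x ^ 2 := ⟨_, rfl⟩
  rw [← hA] at hG
  have hexp : ∑ x, (lam * (g x - av s g x) - (g1 x + g2 x + g3 x)) ^ 2
      = lam ^ 2 * ∑ x, (g x - av s g x) ^ 2 - 2 * lam * A
        + ∑ x, (g1 x + g2 x + g3 x) ^ 2 := by
    have e : ∀ x, (lam * (g x - av s g x) - (g1 x + g2 x + g3 x)) ^ 2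
        = lam ^ 2 * (g x - av s g x) ^ 2
          - 2 * lam * ((g x - av s g x) * g1 x + (g x - av s g x) * g2 x
            + (g x - av s g x) * g3 x)
          + (g1 x + g2 x + g3 x) ^ 2 := fun x => by ring
    rw [Finset.sum_congr rfl (fun x _ => e x), Finset.sum_add_distrib, Finset.sum_sub_distrib,
      ← Finset.mul_sum, ← Finset.mul_sum, Finset.sum_add_distrib, Finset.sum_add_distrib,
      d1, d2, d3, hA]
  have hnn : 0 ≤ ∑ x, (lam * (g x - av s g x) - (g1 x + g2 x + g3 x)) ^ 2 :=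
    Finset.sum_nonneg (fun x _ => sq_nonneg _)
  have hSnn : 0 ≤ ∑ x, (g1 x + g2 x + g3 x) ^ 2 :=
    Finset.sum_nonneg (fun x _ => sq_nonneg _)
  obtain ⟨H, hHdef⟩ : ∃ H : ℝ, H = ∑ x, (g x - av s g x) ^ 2 := ⟨_, rfl⟩
  obtain ⟨S, hSdef⟩ : ∃ S : ℝ, S = ∑ x, (g1 x + g2 x + g3 x) ^ 2 := ⟨_, rfl⟩
  rw [← hHdef, ← hSdef] at hexp
  rw [← hSdef] at hG hSnn
  rw [← hHdef] at hH
  rw [hexp] at hnn
  have hAH : A ≤ lam * H := by
    rcases hlam.eq_or_lt with h0 | hpos
    · have hS0 : S = 0 := by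
        rw [← h0, zero_mul] at hG
        exact le_antisymm hG hSnn
      have hz : ∀ x, g1 x + g2 x + g3 x = 0 := by
        intro x
        rw [hSdef] at hS0
        have hx := (Finset.sum_eq_zero_iff_of_nonneg (fun x _ => sq_nonneg _)).mp hS0 x
          (Finset.mem_univ x)
        exact (pow_eq_zero_iff two_ne_zero).mp hx
      have hA0 : A = 0 := by
        rw [hA, ← d1, ← d2, ← d3, ← Finset.sum_add_distrib, ← Finset.sum_add_distrib]
        apply Finset.sum_eq_zero
        intro x _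
        have e : (g x - av s g x) * g1 x + (g x - av s g x) * g2 x + (g x - av s g x) * g3 x
            = (g x - av s g x) * (g1 x + g2 x + g3 x) := by ring
        rw [e, hz x, mul_zero]
      rw [hA0, ← h0, zero_mul]
    · by_contra hcon
      have hlt : lam * H < A := lt_of_not_ge hcon
      have h1' : lam * (lam * H - A) < 0 := mul_neg_of_pos_of_neg hpos (by linarith)
      linarith [hnn, hG, h1']
  have hfin : lam * H = lam * ∑ x, g x ^ 2 - lam * ∑ x, g x * av s g x := by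
    rw [hH]
    ring
  rw [hA, c1, c2, c3] at hAH
  linarith

end Vale.Agent.Lib.P328.CT
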