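import Vale.Agent.Lib.P328.CT.PowBound

/-!
# P328 / abstract: a Lipschitz contraction (path coupling) gives the Poincare inequality with
constant 1

`rel p`, `p ∈ I`, are equivalence relations finer than `s`; `adj` is an adjacency relation
whose paths connect the `s`-classes.  If for every function `f` that changes by at most `Λ`
along adjacent pairs the sum over `p ∈ I` of the class averages changes by at most
`|I| - 1` times `Λ` along adjacent pairs, then the variance inside the `s`-classes is at most the sum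
over `p ∈ I` of the variances inside the `rel p`-classes.
-/

namespace Vale.Agent.Lib.P328.CT

open Finset
open scoped Classical
open Vale.Agent.Lib.P335.Bip

variable {X : Type*} [Fintype X]

omit [Fintype X] in
/-- Along a path of `n` adjacent steps a function changes by at most `n` times its Lipschitz
constant. -/
private lemma lipGap_path (adj : X → X → Prop) {x y : X}
    (hxy : Relation.ReflTransGen adj x y) :
    ∃ n : ℕ, ∀ (h : X → ℝ) (Λ : ℝ), (∀ a b, adj a b → |h a - h b| ≤ Λ) →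
      |h x - h y| ≤ (n : ℝ) * Λ := by
  induction hxy with
  | refl => exact ⟨0, fun h Λ _ => by simp⟩
  | @tail b c _ hbc ih =>
    obtain ⟨n, hn⟩ := ih
    refine ⟨n + 1, fun h Λ hΛ => ?_⟩
    have h1 := hn h Λ hΛ
    have h2 := hΛ _ _ hbc
    have h3 : |h x - h c| ≤ |h x - h b| + |h b - h c| := abs_sub_le _ _ _
    push_cast
    linarith

/-- A uniform bound for the number of adjacent steps needed inside the classes of `s`. -/
private lemma lipGap_diam (s adj : X → X → Prop)
    (hconn : ∀ x y, s x y → Relation.ReflTransGen adj x y) :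
    ∃ D : ℝ, 0 ≤ D ∧ ∀ (h : X → ℝ) (Λ : ℝ), 0 ≤ Λ → (∀ a b, adj a b → |h a - h b| ≤ Λ) →
      ∀ x y, s x y → |h x - h y| ≤ D * Λ := by
  have hex : ∀ x y, ∃ n : ℕ, s x y → ∀ (h : X → ℝ) (Λ : ℝ),
      (∀ a b, adj a b → |h a - h b| ≤ Λ) → |h x - h y| ≤ (n : ℝ) * Λ := by
    intro x y
    by_cases hxy : s x y
    · obtain ⟨n, hn⟩ := lipGap_path adj (hconn x y hxy)
      exact ⟨n, fun _ => hn⟩
    · exact ⟨0, fun h => absurd h hxy⟩
  choose n hn using hex
  refine ⟨∑ x, ∑ y, (n x y : ℝ),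
    Finset.sum_nonneg fun x _ => Finset.sum_nonneg fun y _ => Nat.cast_nonneg _, ?_⟩
  intro h Λ hΛ0 hΛ x y hxy
  have h1 := hn x y hxy h Λ hΛ
  have e1 : (n x y : ℝ) ≤ ∑ y', (n x y' : ℝ) :=
    Finset.single_le_sum (f := fun y' => (n x y' : ℝ)) (fun y' _ => Nat.cast_nonneg _)
      (Finset.mem_univ y)
  have e2 : ∑ y', (n x y' : ℝ) ≤ ∑ x', ∑ y', (n x' y' : ℝ) :=
    Finset.single_le_sum (f := fun x' => ∑ y', (n x' y' : ℝ))
      (fun x' _ => Finset.sum_nonneg fun y' _ => Nat.cast_nonneg _) (Finset.mem_univ x)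
  exact h1.trans (mul_le_mul_of_nonneg_right (e1.trans e2) hΛ0)

/-- A function differs from its class average by at most its oscillation on the class. -/
private lemma lipGap_abs_sub_av {s : X → X → Prop} (hs : Equivalence s) (h : X → ℝ) (x : X)
    (M : ℝ) (hM : ∀ y, s x y → |h x - h y| ≤ M) : |h x - av s h x| ≤ M := by
  have hx : x ∈ univ.filter (fun y => s x y) :=
    Finset.mem_filter.mpr ⟨Finset.mem_univ x, hs.refl x⟩
  have hc : 0 < ((univ.filter (fun y => s x y)).card : ℝ) := by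
    exact_mod_cast Finset.card_pos.mpr ⟨x, hx⟩
  have e : h x - av s h x = (∑ y ∈ univ.filter (fun y => s x y), (h x - h y)) /
      ((univ.filter (fun y => s x y)).card : ℝ) := by
    show h x - (∑ y ∈ univ.filter (fun y => s x y), h y) /
      ((univ.filter (fun y => s x y)).card : ℝ) = _
    rw [Finset.sum_sub_distrib, Finset.sum_const, nsmul_eq_mul]
    field_simp
  rw [e, abs_div, abs_of_pos hc, div_le_iff₀ hc]
  calc |∑ y ∈ univ.filter (fun y => s x y), (h x - h y)|
      ≤ ∑ y ∈ univ.filter (fun y => s x y), |h x - h y| := Finset.abs_sum_le_sum_abs _ _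
    _ ≤ ∑ _y ∈ univ.filter (fun y => s x y), M :=
        Finset.sum_le_sum (fun y hy => hM y (Finset.mem_filter.mp hy).2)
    _ = M * ((univ.filter (fun y => s x y)).card : ℝ) := by
        rw [Finset.sum_const, nsmul_eq_mul, mul_comm]

/-- The mixture of the class averages contracts the Lipschitz constant. -/
private lemma lipGap_mix_lip {ι : Type*} (I : Finset ι) (hI : I.Nonempty)
    (rel : ι → X → X → Prop) (adj : X → X → Prop)
    (hlip : ∀ (f : X → ℝ) (Λ : ℝ), (∀ x y, adj x y → |f x - f y| ≤ Λ) →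
      ∀ x y, adj x y →
        |∑ p ∈ I, (av (rel p) f x - av (rel p) f y)| ≤ ((I.card : ℝ) - 1) * Λ)
    (h : X → ℝ) (Λ : ℝ) (hΛ : ∀ x y, adj x y → |h x - h y| ≤ Λ) :
    ∀ x y, adj x y →
      |mixAv I rel h x - mixAv I rel h y| ≤ (1 - 1 / (I.card : ℝ)) * Λ := by
  intro x y hxy
  have hN : 0 < (I.card : ℝ) := by exact_mod_cast Finset.card_pos.mpr hI
  have e : mixAv I rel h x - mixAv I rel h y =
      (∑ p ∈ I, (av (rel p) h x - av (rel p) h y)) / (I.card : ℝ) := by
    show (∑ p ∈ I, av (rel p) h x) / (I.card : ℝ) - (∑ p ∈ I, av (rel p) h y) / (I.card : ℝ)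
      = _
    rw [Finset.sum_sub_distrib, sub_div]
  rw [e, abs_div, abs_of_pos hN, div_le_iff₀ hN]
  have h1 := hlip h Λ hΛ x y hxy
  have e2 : (1 - 1 / (I.card : ℝ)) * Λ * (I.card : ℝ) = ((I.card : ℝ) - 1) * Λ := by
    field_simp
  rw [e2]
  exact h1

/-- The mixture of the class averages preserves the averages over the coarser classes. -/
private lemma lipGap_av_mix {ι : Type*} (I : Finset ι) (hI : I.Nonempty)
    (rel : ι → X → X → Prop) (s : X → X → Prop)
    (hrel : ∀ p ∈ I, Equivalence (rel p)) (hs : Equivalence s)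
    (hfine : ∀ p ∈ I, ∀ x y, rel p x y → s x y) (h : X → ℝ) :
    av s (mixAv I rel h) = av s h := by
  funext x
  have hN : 0 < (I.card : ℝ) := by exact_mod_cast Finset.card_pos.mpr hI
  have e1 : av s (mixAv I rel h) x = (∑ p ∈ I, av s (av (rel p) h) x) / (I.card : ℝ) := by
    show (∑ y ∈ univ.filter (fun y => s x y), (∑ p ∈ I, av (rel p) h y) / (I.card : ℝ)) /
        ((univ.filter (fun y => s x y)).card : ℝ)
      = (∑ p ∈ I, (∑ y ∈ univ.filter (fun y => s x y), av (rel p) h y) /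
        ((univ.filter (fun y => s x y)).card : ℝ)) / (I.card : ℝ)
    rw [← Finset.sum_div, ← Finset.sum_div, Finset.sum_comm, div_right_comm]
  rw [e1, Finset.sum_congr rfl
    (fun p hp => congrFun (av_coarse (hrel p hp) hs (hfine p hp) h) x),
    Finset.sum_const, nsmul_eq_mul]
  exact mul_div_cancel_left₀ _ hN.ne'

theorem lip_gap {ι : Type*} (I : Finset ι) (hI : I.Nonempty) (rel : ι → X → X → Prop)
    (s : X → X → Prop) (adj : X → X → Prop)
    (hrel : ∀ p ∈ I, Equivalence (rel p)) (hs : Equivalence s)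
    (hfine : ∀ p ∈ I, ∀ x y, rel p x y → s x y)
    (hconn : ∀ x y, s x y → Relation.ReflTransGen adj x y)
    (hlip : ∀ (f : X → ℝ) (Λ : ℝ), (∀ x y, adj x y → |f x - f y| ≤ Λ) →
      ∀ x y, adj x y →
        |∑ p ∈ I, (av (rel p) f x - av (rel p) f y)| ≤ ((I.card : ℝ) - 1) * Λ)
    (f : X → ℝ) :
    ∑ x, (f x - av s f x) ^ 2 ≤ ∑ p ∈ I, ∑ x, (f x - av (rel p) f x) ^ 2 := by
  have hN : 0 < (I.card : ℝ) := by exact_mod_cast Finset.card_pos.mpr hI
  have hN1 : (1 : ℝ) ≤ (I.card : ℝ) := by exact_mod_cast Finset.card_pos.mpr hI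
  obtain ⟨ρ, hρdef⟩ : ∃ ρ : ℝ, ρ = 1 - 1 / (I.card : ℝ) := ⟨_, rfl⟩
  have hρ : 0 ≤ ρ := by
    rw [hρdef, sub_nonneg, div_le_one hN]
    exact hN1
  obtain ⟨g, hg⟩ : ∃ g : X → ℝ, g = fun x => f x - av s f x := ⟨_, rfl⟩
  have hgx : ∀ x, g x = f x - av s f x := fun x => by rw [hg]
  have hgs : av s g = fun _ => 0 := by
    rw [hg, av_sub, av_av hs]
    funext x
    exact sub_self _
  have hgp : ∀ p ∈ I, ∀ x, g x - av (rel p) g x = f x - av (rel p) f x := by
    intro p hp x
    have e : av (rel p) g = fun x => av (rel p) f x - av s f x := by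
      rw [hg, av_sub, av_coarse' (hrel p hp) hs (hfine p hp)]
    have hax : av (rel p) g x = av (rel p) f x - av s f x := congrFun e x
    rw [hax, hgx x]
    ring
  have hG0 : ∀ x, |g x| ≤ ∑ y, |g y| := fun x =>
    Finset.single_le_sum (f := fun y => |g y|) (fun y _ => abs_nonneg _) (Finset.mem_univ x)
  have hSg : 0 ≤ ∑ y, |g y| := Finset.sum_nonneg fun y _ => abs_nonneg _
  obtain ⟨D, hD0, hD⟩ := lipGap_diam s adj hconn
  have hiter : ∀ t : ℕ,
      (∀ x y, adj x y → |(mixAv I rel)^[t] g x - (mixAv I rel)^[t] g y| ≤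
        ρ ^ t * (2 * ∑ z, |g z|)) ∧
      av s ((mixAv I rel)^[t] g) = fun _ => 0 := by
    intro t
    induction t with
    | zero =>
      refine ⟨fun x y _ => ?_, hgs⟩
      simp only [Function.iterate_zero, id_eq, pow_zero, one_mul]
      have h1 : |g x - g y| ≤ |g x| + |g y| := by
        rw [sub_eq_add_neg]
        exact (abs_add_le _ _).trans (by rw [abs_neg])
      have h2 := hG0 x
      have h3 := hG0 y
      linarith
    | succ t ih =>
      rw [Function.iterate_succ_apply']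
      refine ⟨?_, ?_⟩
      · intro x y hxy
        have h1 := lipGap_mix_lip I hI rel adj hlip _ _ ih.1 x y hxy
        rw [← hρdef] at h1
        calc |mixAv I rel ((mixAv I rel)^[t] g) x - mixAv I rel ((mixAv I rel)^[t] g) y|
            ≤ ρ * (ρ ^ t * (2 * ∑ z, |g z|)) := h1
          _ = ρ ^ (t + 1) * (2 * ∑ z, |g z|) := by ring
      · rw [lipGap_av_mix I hI rel s hrel hs hfine]
        exact ih.2
  have hdecay : ∀ t : ℕ, ∑ x, g x * ((mixAv I rel)^[t] g) x ≤
      ((∑ z, |g z|) * D * (2 * ∑ z, |g z|)) * ρ ^ t := by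
    intro t
    obtain ⟨hl, ha⟩ := hiter t
    have hΛ0 : 0 ≤ ρ ^ t * (2 * ∑ z, |g z|) :=
      mul_nonneg (pow_nonneg hρ t) (by linarith)
    have hb : ∀ x, |((mixAv I rel)^[t] g) x| ≤ D * (ρ ^ t * (2 * ∑ z, |g z|)) := by
      intro x
      have h1 := lipGap_abs_sub_av hs ((mixAv I rel)^[t] g) x _
        (fun y hxy => hD _ _ hΛ0 hl x y hxy)
      have hax : av s ((mixAv I rel)^[t] g) x = 0 := congrFun ha x
      rw [hax, sub_zero] at h1
      exact h1
    calc ∑ x, g x * ((mixAv I rel)^[t] g) x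
        ≤ ∑ x, |g x| * (D * (ρ ^ t * (2 * ∑ z, |g z|))) := by
          refine Finset.sum_le_sum fun x _ => ?_
          calc g x * ((mixAv I rel)^[t] g) x ≤ |g x * ((mixAv I rel)^[t] g) x| :=
                le_abs_self _
            _ = |g x| * |((mixAv I rel)^[t] g) x| := abs_mul _ _
            _ ≤ |g x| * (D * (ρ ^ t * (2 * ∑ z, |g z|))) :=
                mul_le_mul_of_nonneg_left (hb x) (abs_nonneg _)
      _ = ((∑ z, |g z|) * D * (2 * ∑ z, |g z|)) * ρ ^ t := by
          rw [← Finset.sum_mul]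
          ring
  have hpb := pow_bound I rel hrel g _ ρ hρ hdecay
  have hL : ∑ x, (f x - av s f x) ^ 2 = ∑ x, g x ^ 2 :=
    Finset.sum_congr rfl (fun x _ => by rw [hgx x])
  have hR : ∑ p ∈ I, ∑ x, (f x - av (rel p) f x) ^ 2 =
      (I.card : ℝ) * (∑ x, g x ^ 2 - ∑ x, g x * mixAv I rel g x) := by
    have h1 : ∀ p ∈ I, ∑ x, (f x - av (rel p) f x) ^ 2 =
        ∑ x, g x ^ 2 - ∑ x, g x * av (rel p) g x := by
      intro p hp
      rw [← sum_sub_av_sq (hrel p hp) g]
      exact Finset.sum_congr rfl (fun x _ => by rw [hgp p hp x])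
    rw [Finset.sum_congr rfl h1, Finset.sum_sub_distrib, Finset.sum_const, nsmul_eq_mul,
      Finset.sum_comm, mul_sub]
    congr 1
    rw [Finset.mul_sum]
    refine Finset.sum_congr rfl (fun x _ => ?_)
    rw [← Finset.mul_sum]
    show g x * ∑ p ∈ I, av (rel p) g x =
      (I.card : ℝ) * (g x * ((∑ p ∈ I, av (rel p) g x) / (I.card : ℝ)))
    field_simp
  rw [hL, hR]
  have hkey : (I.card : ℝ) * (1 - ρ) = 1 := by
    rw [hρdef]
    field_simp
    ring
  have h3 : (I.card : ℝ) * (1 - ρ) * ∑ x, g x ^ 2 = ∑ x, g x ^ 2 := by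
    rw [hkey, one_mul]
  have hmul := mul_le_mul_of_nonneg_left hpb hN.le
  linarith

end Vale.Agent.Lib.P328.CT
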