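import Vale.Agent.Lib.P328.CT.RowPair
import Vale.Agent.Lib.P328.CT.MixAbs

/-!
# P328: mixing of the row-pair heat bath for tables with unit rows and two arbitrary rows
-/

namespace Vale.Agent.Lib.P328.CT

open Finset
open scoped Classical
open Vale.Agent.Lib.P335.Bip

variable {R C : Type*} [Fintype R] [Fintype C]

/-- The average over the class of all rows is the mean over the state space. -/
theorem av_relOut_univ {r : R → ℕ} {c : C → ℕ} (f : Tab r c → ℝ) (x : Tab r c) :
    av (RelOut (Finset.univ : Finset R)) f x = (∑ y, f y) / (Fintype.card (Tab r c) : ℝ) := by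
  have hfil : Finset.univ.filter (fun y : Tab r c => RelOut (Finset.univ : Finset R) x y)
      = Finset.univ :=
    Finset.filter_true_of_mem (fun y _ => relOut_univ x y)
  show (∑ y ∈ Finset.univ.filter (fun y : Tab r c => RelOut (Finset.univ : Finset R) x y), f y)
      / ((Finset.univ.filter
        (fun y : Tab r c => RelOut (Finset.univ : Finset R) x y)).card : ℝ)
    = (∑ y, f y) / (Fintype.card (Tab r c) : ℝ)
  rw [hfil, Finset.card_univ]

/-- All rows except `u₁`, `u₂` have sum 1.  The row-pair heat bath (pick two rows uniformly at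
random and resample them uniformly given their column sums) started from any table `x` is
within `sqrt |Ω| * (1 - 1 / (6 m (m choose 2))) ^ t` of the uniform distribution after `t`
steps, in `ℓ¹` distance; `m` is the number of rows. -/
theorem rowpair_mixing {r : R → ℕ} {c : C → ℕ} (u₁ u₂ : R) (hu : u₁ ≠ u₂)
    (hunit : ∀ i, i ≠ u₁ → i ≠ u₂ → r i = 1) (x : Tab r c) (t : ℕ) :
    ∑ y, |(heatKernel ((Finset.univ : Finset R).powersetCard 2)
          (fun q => RelOut (r := r) (c := c) q) ^ t) x y - 1 / (Fintype.card (Tab r c) : ℝ)|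
      ≤ Real.sqrt (Fintype.card (Tab r c) : ℝ)
        * (1 - 1 / (6 * (Fintype.card R : ℝ) * ((Fintype.card R).choose 2 : ℝ))) ^ t := by
  have hne : ((Finset.univ : Finset R).powersetCard 2).Nonempty :=
    ⟨{u₁, u₂}, Finset.mem_powersetCard.mpr ⟨Finset.subset_univ _, Finset.card_pair hu⟩⟩
  have hcard2 : (2 : ℝ) ≤ (Fintype.card R : ℝ) := by
    have h2 : ({u₁, u₂} : Finset R).card ≤ Fintype.card R := Finset.card_le_univ _
    rw [Finset.card_pair hu] at h2
    exact_mod_cast h2
  have hC : (1 : ℝ) ≤ 6 * (Fintype.card R : ℝ) := by linarith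
  have hP : ∀ f : Tab r c → ℝ,
      ∑ y, (f y - (∑ z, f z) / (Fintype.card (Tab r c) : ℝ)) ^ 2
        ≤ 6 * (Fintype.card R : ℝ) * ∑ q ∈ (Finset.univ : Finset R).powersetCard 2,
          ∑ y, (f y - av (RelOut q) f y) ^ 2 := by
    intro f
    have h := rowpair_poincare u₁ u₂ hu hunit f
    have h3 : ∀ y ∈ (Finset.univ : Finset (Tab r c)),
        (f y - av (RelOut (Finset.univ : Finset R)) f y) ^ 2
          = (f y - (∑ z, f z) / (Fintype.card (Tab r c) : ℝ)) ^ 2 := by
      intro y _
      rw [av_relOut_univ f y]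
    rw [Finset.sum_congr rfl h3] at h
    exact h
  have key := heatKernel_mix ((Finset.univ : Finset R).powersetCard 2) hne
    (fun q => RelOut (r := r) (c := c) q) (fun q _ => relOut_equivalence q)
    (6 * (Fintype.card R : ℝ)) hC hP x t
  rw [Finset.card_powersetCard, Finset.card_univ] at key
  exact key

end Vale.Agent.Lib.P328.CT
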