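import Vale.Agent.Lib.P335.Bip.Av
import Vale.Agent.Lib.P335.Bip.AvMore

/-!
# P328 / abstract: a mixture of class averages whose iterates decay geometrically has a
spectral gap

`mixAv I rel f = (1 / |I|) ∑_{p ∈ I} av (rel p) f`.  If `⟨f, T^t f⟩ ≤ K ρ^t` for all `t`
(`T = mixAv I rel`), then `⟨f, T f⟩ ≤ ρ ⟨f, f⟩`.
-/

namespace Vale.Agent.Lib.P328.CT

open Finset
open scoped Classical
open Vale.Agent.Lib.P335.Bip

variable {X : Type*} [Fintype X]

/-- The uniform mixture of the class averages `av (rel p)`, `p ∈ I`. -/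
noncomputable def mixAv {ι : Type*} (I : Finset ι) (rel : ι → X → X → Prop) (f : X → ℝ) :
    X → ℝ :=
  fun x => (∑ p ∈ I, av (rel p) f x) / (I.card : ℝ)

/-- Pairing a function with a mixture of class averages. -/
private theorem powBound_pair {ι : Type*} (I : Finset ι) (a : ι → X → ℝ) (u : X → ℝ) (c : ℝ) :
    ∑ x, u x * ((∑ i ∈ I, a i x) / c) = (∑ i ∈ I, ∑ x, u x * a i x) / c := by
  rw [Finset.sum_comm, Finset.sum_div]
  apply Finset.sum_congr rfl
  intro x _
  rw [← Finset.mul_sum, mul_div_assoc]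

/-- The mixture of class averages is symmetric. -/
private theorem powBound_sa {ι : Type*} (I : Finset ι) (rel : ι → X → X → Prop)
    (hrel : ∀ p ∈ I, Equivalence (rel p)) (u v : X → ℝ) :
    ∑ x, u x * mixAv I rel v x = ∑ x, mixAv I rel u x * v x := by
  have h1 : ∑ x, mixAv I rel u x * v x = ∑ x, v x * mixAv I rel u x :=
    Finset.sum_congr rfl (fun x _ => mul_comm _ _)
  rw [h1]
  show ∑ x, u x * ((∑ p ∈ I, av (rel p) v x) / (I.card : ℝ))
    = ∑ x, v x * ((∑ p ∈ I, av (rel p) u x) / (I.card : ℝ))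
  rw [powBound_pair I (fun p => av (rel p) v) u, powBound_pair I (fun p => av (rel p) u) v]
  congr 1
  apply Finset.sum_congr rfl
  intro p hp
  rw [sum_mul_av (hrel p hp) u v]
  exact Finset.sum_congr rfl (fun x _ => mul_comm _ _)

/-- The iterates of a symmetric operator are symmetric. -/
private theorem powBound_iter_sa (T : (X → ℝ) → (X → ℝ))
    (sa : ∀ u v : X → ℝ, ∑ x, u x * T v x = ∑ x, T u x * v x) (k : ℕ) :
    ∀ u v : X → ℝ, ∑ x, u x * (T^[k] v) x = ∑ x, (T^[k] u) x * v x := by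
  induction k with
  | zero =>
    intro u v
    rfl
  | succ k ih =>
    intro u v
    rw [Function.iterate_succ_apply, ih u (T v), sa, ← Function.iterate_succ_apply' T k u]

/-- Abstract core: for a symmetric operator, geometric decay of the even moments forces the
first moment bound. -/
private theorem powBound_core (T : (X → ℝ) → (X → ℝ))
    (sa : ∀ u v : X → ℝ, ∑ x, u x * T v x = ∑ x, T u x * v x)
    (f : X → ℝ) (K ρ : ℝ) (hρ : 0 ≤ ρ)
    (hdecay : ∀ t : ℕ, ∑ x, f x * (T^[t] f) x ≤ K * ρ ^ t) :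
    ∑ x, f x * T f x ≤ ρ * ∑ x, f x ^ 2 := by
  obtain ⟨c, hc⟩ : ∃ c : ℕ → ℝ, c = fun k => ∑ x, (T^[k] f) x ^ 2 := ⟨_, rfl⟩
  have hc_nonneg : ∀ k, 0 ≤ c k := by
    intro k
    rw [hc]
    exact Finset.sum_nonneg (fun x _ => sq_nonneg _)
  have hc0 : c 0 = ∑ x, f x ^ 2 := by
    rw [hc]
    rfl
  -- even moments are the square norms of the iterates
  have heven : ∀ k, ∑ x, f x * (T^[2 * k] f) x = c k := by
    intro k
    rw [two_mul, Function.iterate_add_apply, powBound_iter_sa T sa k f (T^[k] f), hc]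
    exact Finset.sum_congr rfl (fun x _ => (sq _).symm)
  -- log-convexity of the square norms
  have hlog : ∀ k, c (k + 1) ^ 2 ≤ c k * c (k + 2) := by
    intro k
    have e : ∑ x, (T^[k] f) x * (T^[k + 2] f) x = c (k + 1) := by
      rw [Function.iterate_succ_apply' T (k + 1) f, Function.iterate_succ_apply' T k f,
        sa (T^[k] f) (T (T^[k] f)), hc]
      show ∑ x, T (T^[k] f) x * T (T^[k] f) x = ∑ x, (T^[k + 1] f) x ^ 2
      rw [Function.iterate_succ_apply' T k f]
      exact Finset.sum_congr rfl (fun x _ => (sq _).symm)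
    have h := Finset.sum_mul_sq_le_sq_mul_sq (Finset.univ : Finset X) (T^[k] f) (T^[k + 2] f)
    rw [e] at h
    have hk : c k = ∑ x, (T^[k] f) x ^ 2 := by rw [hc]
    have hk2 : c (k + 2) = ∑ x, (T^[k + 2] f) x ^ 2 := by rw [hc]
    rw [hk, hk2]
    exact h
  -- the first moment
  have hfirst : (∑ x, f x * T f x) ^ 2 ≤ c 0 * c 1 := by
    have h := Finset.sum_mul_sq_le_sq_mul_sq (Finset.univ : Finset X) f (T f)
    rw [hc]
    exact h
  rw [← hc0]
  by_contra hcon
  have hcon' : ρ * c 0 < ∑ x, f x * T f x := not_le.mp hcon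
  obtain ⟨a, ha⟩ : ∃ a, a = ∑ x, f x * T f x := ⟨_, rfl⟩
  rw [← ha] at hcon' hfirst
  have ha_pos : 0 < a := lt_of_le_of_lt (mul_nonneg hρ (hc_nonneg 0)) hcon'
  -- c 0 is positive, otherwise a ^ 2 <= 0
  have hc0_pos : 0 < c 0 := by
    rcases eq_or_lt_of_le (hc_nonneg 0) with h0 | h0
    · exfalso
      rw [← h0, zero_mul] at hfirst
      nlinarith
    · exact h0
  obtain ⟨q, hq⟩ : ∃ q, q = a / c 0 := ⟨_, rfl⟩
  have hq_pos : 0 < q := by rw [hq]; exact div_pos ha_pos hc0_pos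
  have hqρ : ρ < q := by
    rw [hq, lt_div_iff₀ hc0_pos]
    exact hcon'
  have haq : a = q * c 0 := by
    rw [hq]
    field_simp
  -- growth of the square norms
  have hgrow : ∀ k, 0 < c k ∧ q ^ 2 * c k ≤ c (k + 1) := by
    intro k
    induction k with
    | zero =>
      refine ⟨hc0_pos, ?_⟩
      rw [haq] at hfirst
      have h1 : (q * c 0) ^ 2 = (q ^ 2 * c 0) * c 0 := by ring
      rw [h1, mul_comm (c 0) (c 1)] at hfirst
      exact le_of_mul_le_mul_right hfirst hc0_pos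
    | succ k ih =>
      obtain ⟨ih1, ih2⟩ := ih
      have hpos : 0 < c (k + 1) := lt_of_lt_of_le (by positivity) ih2
      refine ⟨hpos, ?_⟩
      have h1 := hlog k
      have h2 : (q ^ 2 * c (k + 1)) * c k ≤ c (k + 2) * c k := by
        calc (q ^ 2 * c (k + 1)) * c k = c (k + 1) * (q ^ 2 * c k) := by ring
          _ ≤ c (k + 1) * c (k + 1) := mul_le_mul_of_nonneg_left ih2 hpos.le
          _ = c (k + 1) ^ 2 := (sq _).symm
          _ ≤ c k * c (k + 2) := h1
          _ = c (k + 2) * c k := mul_comm _ _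
      exact le_of_mul_le_mul_right h2 ih1
  have hpow : ∀ k, (q ^ 2) ^ k * c 0 ≤ c k := by
    intro k
    induction k with
    | zero => rw [pow_zero, one_mul]
    | succ k ih =>
      calc (q ^ 2) ^ (k + 1) * c 0 = q ^ 2 * ((q ^ 2) ^ k * c 0) := by ring
        _ ≤ q ^ 2 * c k := mul_le_mul_of_nonneg_left ih (sq_nonneg q)
        _ ≤ c (k + 1) := (hgrow k).2
  have hupper : ∀ k, (q ^ 2) ^ k * c 0 ≤ K * (ρ ^ 2) ^ k := by
    intro k
    have h := hdecay (2 * k)
    rw [heven k, pow_mul] at h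
    exact le_trans (hpow k) h
  rcases eq_or_lt_of_le hρ with hρ0 | hρpos
  · have h := hupper 1
    rw [← hρ0] at h
    simp only [pow_one] at h
    have h2 : 0 < q ^ 2 * c 0 := by positivity
    nlinarith
  · have hr : 1 < q ^ 2 / ρ ^ 2 := by
      rw [one_lt_div (by positivity)]
      nlinarith
    obtain ⟨n, hn⟩ := pow_unbounded_of_one_lt (K / c 0) hr
    have h := hupper n
    have hρn : 0 < (ρ ^ 2) ^ n := by positivity
    have h3 : (q ^ 2 / ρ ^ 2) ^ n ≤ K / c 0 := by
      rw [div_pow, div_le_div_iff₀ hρn hc0_pos]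
      exact h
    exact absurd hn (not_lt.mpr h3)

theorem pow_bound {ι : Type*} (I : Finset ι) (rel : ι → X → X → Prop)
    (hrel : ∀ p ∈ I, Equivalence (rel p)) (f : X → ℝ) (K ρ : ℝ) (hρ : 0 ≤ ρ)
    (hdecay : ∀ t : ℕ, ∑ x, f x * ((mixAv I rel)^[t] f) x ≤ K * ρ ^ t) :
    ∑ x, f x * mixAv I rel f x ≤ ρ * ∑ x, f x ^ 2 :=
  powBound_core (mixAv I rel) (powBound_sa I rel hrel) f K ρ hρ hdecay

end Vale.Agent.Lib.P328.CT
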