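import Vale.Agent.Lib.P335.Bip.Av
import Vale.Agent.Lib.P335.Bip.AvMore

/-!
# P328 / abstract: a Gram inequality with constant 17/6 < 3 from a one-sided contraction
-/

namespace Vale.Agent.Lib.P328.CT

open Finset
open scoped Classical
open Vale.Agent.Lib.P335.Bip

variable {X : Type*} [Fintype X]

/-- If every `r1`-invariant `φ` with zero `s`-averages loses at least half of its square norm
under the two averages `av r2`, `av r3` together, then the Gram inequality holds with the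
constant `17/6`. -/
theorem soft_gram (r1 r2 r3 s : X → X → Prop)
    (h1 : Equivalence r1) (h2 : Equivalence r2) (h3 : Equivalence r3) (hs : Equivalence s)
    (hD : ∀ φ : X → ℝ, av r1 φ = φ → (∀ x, av s φ x = 0) →
      (1 / 2) * ∑ x, φ x ^ 2
        ≤ ∑ x, (φ x - av r2 φ x) ^ 2 + ∑ x, (φ x - av r3 φ x) ^ 2)
    (g1 g2 g3 : X → ℝ) (e1 : av r1 g1 = g1) (e2 : av r2 g2 = g2) (e3 : av r3 g3 = g3)
    (z1 : ∀ x, av s g1 x = 0) (z2 : ∀ x, av s g2 x = 0) (z3 : ∀ x, av s g3 x = 0) :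
    ∑ x, (g1 x + g2 x + g3 x) ^ 2
      ≤ (17 / 6) * (∑ x, g1 x ^ 2 + ∑ x, g2 x ^ 2 + ∑ x, g3 x ^ 2) := by
  have hh := hD g1 e1 z1
  rw [sum_sub_av_sq h2 g1, sum_sub_av_sq h3 g1, ← sum_av_sq h2 g1, ← sum_av_sq h3 g1] at hh
  have k12 : ∑ x, g1 x * g2 x = ∑ x, av r2 g1 x * g2 x := by
    have h := sum_mul_av h2 g1 g2
    rw [e2] at h
    exact h
  have k13 : ∑ x, g1 x * g3 x = ∑ x, av r3 g1 x * g3 x := by
    have h := sum_mul_av h3 g1 g3
    rw [e3] at h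
    exact h
  have p12 : 2 * ∑ x, av r2 g1 x * g2 x
      ≤ (6 / 5) * ∑ x, av r2 g1 x ^ 2 + (5 / 6) * ∑ x, g2 x ^ 2 := by
    rw [Finset.mul_sum, Finset.mul_sum, Finset.mul_sum, ← Finset.sum_add_distrib]
    apply Finset.sum_le_sum
    intro x _
    nlinarith [sq_nonneg (6 * av r2 g1 x - 5 * g2 x)]
  have p13 : 2 * ∑ x, av r3 g1 x * g3 x
      ≤ (6 / 5) * ∑ x, av r3 g1 x ^ 2 + (5 / 6) * ∑ x, g3 x ^ 2 := by
    rw [Finset.mul_sum, Finset.mul_sum, Finset.mul_sum, ← Finset.sum_add_distrib]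
    apply Finset.sum_le_sum
    intro x _
    nlinarith [sq_nonneg (6 * av r3 g1 x - 5 * g3 x)]
  have p23 : 2 * ∑ x, g2 x * g3 x ≤ ∑ x, g2 x ^ 2 + ∑ x, g3 x ^ 2 := by
    rw [Finset.mul_sum, ← Finset.sum_add_distrib]
    apply Finset.sum_le_sum
    intro x _
    nlinarith [sq_nonneg (g2 x - g3 x)]
  have expand : ∑ x, (g1 x + g2 x + g3 x) ^ 2
      = ∑ x, g1 x ^ 2 + ∑ x, g2 x ^ 2 + ∑ x, g3 x ^ 2 + 2 * ∑ x, g1 x * g2 x
        + 2 * ∑ x, g1 x * g3 x + 2 * ∑ x, g2 x * g3 x := by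
    simp only [Finset.mul_sum, ← Finset.sum_add_distrib]
    apply Finset.sum_congr rfl
    intro x _
    ring
  have ha : 0 ≤ ∑ x, g1 x ^ 2 := Finset.sum_nonneg (fun x _ => sq_nonneg _)
  rw [expand, k12, k13]
  linarith

end Vale.Agent.Lib.P328.CT
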