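import Vale.Agent.Lib.P328.CT.Block
import Vale.Agent.Lib.P328.CT.SoftGram
import Vale.Agent.Lib.P328.CT.Doeblin

/-!
# P328: the row-pair heat bath for tables with unit rows and two arbitrary rows

`soft_three`: a unit row and two arbitrary rows; the three pair resamplings control the
resampling of all three rows, with constant 6.
`rowpair_poincare`: if all rows except two have sum 1, the variance of any function of the
table is at most `6 * (number of rows)` times the sum over all pairs of rows of the variances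
inside the pair classes.
-/

namespace Vale.Agent.Lib.P328.CT

open Finset
open scoped Classical
open Vale.Agent.Lib.P335.Bip

variable {R C : Type*} [Fintype R] [Fintype C]

/-- A unit row `a` and two further rows `u₁ ≠ u₂`. -/
theorem soft_three {r : R → ℕ} {c : C → ℕ} (a u₁ u₂ : R) (hu : u₁ ≠ u₂) (ha1 : a ≠ u₁)
    (ha2 : a ≠ u₂) (ha : r a = 1) (f : Tab r c → ℝ) :
    ∑ x, (f x - av (RelOut {a, u₁, u₂}) f x) ^ 2
      ≤ 6 * (∑ x, (f x - av (RelOut {u₁, u₂}) f x) ^ 2
        + ∑ x, (f x - av (RelOut {a, u₂}) f x) ^ 2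
        + ∑ x, (f x - av (RelOut {a, u₁}) f x) ^ 2) := by
  have hsub1 : ({u₁, u₂} : Finset R) ⊆ {a, u₁, u₂} := Finset.subset_insert _ _
  have hsub2 : ({a, u₂} : Finset R) ⊆ {a, u₁, u₂} :=
    Finset.insert_subset_insert _ (Finset.subset_insert _ _)
  have hsub3 : ({a, u₁} : Finset R) ⊆ {a, u₁, u₂} := by
    intro i hi
    rw [Finset.mem_insert, Finset.mem_singleton] at hi
    rcases hi with rfl | rfl
    · exact Finset.mem_insert_self _ _
    · exact Finset.mem_insert_of_mem (Finset.mem_insert_self _ _)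
  have key := gram_to_proj (RelOut (r := r) (c := c) {u₁, u₂}) (RelOut {a, u₂})
    (RelOut {a, u₁}) (RelOut {a, u₁, u₂})
    (relOut_equivalence _) (relOut_equivalence _) (relOut_equivalence _) (relOut_equivalence _)
    (fun _ _ h => relOut_mono hsub1 h) (fun _ _ h => relOut_mono hsub2 h)
    (fun _ _ h => relOut_mono hsub3 h) (17 / 6) (by norm_num)
    (fun g1 g2 g3 e1 e2 e3 z1 z2 z3 =>
      soft_gram (RelOut {u₁, u₂}) (RelOut {a, u₂}) (RelOut {a, u₁}) (RelOut {a, u₁, u₂})
        (relOut_equivalence _) (relOut_equivalence _) (relOut_equivalence _)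
        (relOut_equivalence _)
        (fun φ hφ hz => doeblin a u₁ u₂ hu ha1 ha2 ha φ hφ hz)
        g1 g2 g3 e1 e2 e3 z1 z2 z3)
    f
  rw [sum_sub_av_sq (relOut_equivalence _) f, sum_sub_av_sq (relOut_equivalence _) f,
    sum_sub_av_sq (relOut_equivalence _) f, sum_sub_av_sq (relOut_equivalence _) f]
  linarith

/-- Three distinct pairs inside the family of all pairs. -/
private theorem three_pairs_le {G : Finset R → ℝ} (hGnn : ∀ q, 0 ≤ G q) (a u₁ u₂ : R)
    (hu : u₁ ≠ u₂) (ha1 : a ≠ u₁) (ha2 : a ≠ u₂) :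
    G {u₁, u₂} + G {a, u₂} + G {a, u₁}
      ≤ ∑ q ∈ (Finset.univ : Finset R).powersetCard 2, G q := by
  have hmemQ : ∀ i j : R, i ≠ j →
      ({i, j} : Finset R) ∈ (Finset.univ : Finset R).powersetCard 2 := by
    intro i j hij
    rw [Finset.mem_powersetCard]
    exact ⟨Finset.subset_univ _, Finset.card_pair hij⟩
  have hsub : ({{u₁, u₂}, {a, u₂}, {a, u₁}} : Finset (Finset R))
      ⊆ (Finset.univ : Finset R).powersetCard 2 := by
    intro q hq
    rw [Finset.mem_insert, Finset.mem_insert, Finset.mem_singleton] at hq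
    rcases hq with rfl | rfl | rfl
    · exact hmemQ _ _ hu
    · exact hmemQ _ _ ha2
    · exact hmemQ _ _ ha1
  have hane : a ∉ ({u₁, u₂} : Finset R) := by
    rw [Finset.mem_insert, Finset.mem_singleton]
    rintro (h' | h')
    · exact ha1 h'
    · exact ha2 h'
  have hne1 : ({u₁, u₂} : Finset R) ∉ ({{a, u₂}, {a, u₁}} : Finset (Finset R)) := by
    rw [Finset.mem_insert, Finset.mem_singleton]
    rintro (h | h)
    · exact hane (by rw [h]; exact Finset.mem_insert_self _ _)
    · exact hane (by rw [h]; exact Finset.mem_insert_self _ _)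
  have hne2 : ({a, u₂} : Finset R) ≠ {a, u₁} := by
    intro h
    have hm : u₂ ∈ ({a, u₁} : Finset R) := by
      rw [← h]
      exact Finset.mem_insert_of_mem (Finset.mem_singleton_self _)
    rw [Finset.mem_insert, Finset.mem_singleton] at hm
    rcases hm with h' | h'
    · exact ha2 h'.symm
    · exact hu h'.symm
  have hs := Finset.sum_le_sum_of_subset_of_nonneg hsub (fun q _ _ => hGnn q)
  rw [Finset.sum_insert hne1, Finset.sum_pair hne2] at hs
  linarith

/-- A two-element set containing `u₁` is `{u₁, a}`. -/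
private theorem pair_with (u₁ : R) (p : Finset R) (hp2 : p.card = 2) (h1p : u₁ ∈ p) :
    ∃ a, a ≠ u₁ ∧ a ∈ p ∧ p = {u₁, a} := by
  have hc1 : (p.erase u₁).card = 1 := by
    rw [Finset.card_erase_of_mem h1p, hp2]
  obtain ⟨a, haE⟩ := Finset.card_eq_one.mp hc1
  have hap : a ∈ p.erase u₁ := by
    rw [haE]
    exact Finset.mem_singleton_self _
  refine ⟨a, (Finset.mem_erase.mp hap).1, (Finset.mem_erase.mp hap).2, ?_⟩
  rw [← haE, Finset.insert_erase h1p]

/-- The number of pairs through `u₁`. -/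
private theorem card_pairs_through (u₁ : R) (P : Finset (Finset R))
    (hP : ∀ p ∈ P, p.card = 2) :
    ((P.filter (fun p => u₁ ∈ p)).card : ℝ) ≤ (Fintype.card R : ℝ) - 1 := by
  have hsub : P.filter (fun p => u₁ ∈ p)
      ⊆ (Finset.univ.erase u₁).image (fun a => ({u₁, a} : Finset R)) := by
    intro p hp
    rw [Finset.mem_filter] at hp
    obtain ⟨a, ha1, _, hpE⟩ := pair_with u₁ p (hP p hp.1) hp.2
    rw [Finset.mem_image]
    exact ⟨a, Finset.mem_erase.mpr ⟨ha1, Finset.mem_univ _⟩, hpE.symm⟩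
  have h1 := Finset.card_le_card hsub
  have h2 := Finset.card_image_le (s := Finset.univ.erase u₁)
    (f := fun a => ({u₁, a} : Finset R))
  have h3 : (Finset.univ.erase u₁ : Finset R).card = Fintype.card R - 1 := by
    rw [Finset.card_erase_of_mem (Finset.mem_univ _), Finset.card_univ]
  have h4 : 1 ≤ Fintype.card R := Fintype.card_pos_iff.mpr ⟨u₁⟩
  have h5 : (P.filter (fun p => u₁ ∈ p)).card ≤ Fintype.card R - 1 := by omega
  have h6 : ((Fintype.card R - 1 : ℕ) : ℝ) = (Fintype.card R : ℝ) - 1 := by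
    rw [Nat.cast_sub h4, Nat.cast_one]
  rw [← h6]
  exact_mod_cast h5

/-- The combinatorial bookkeeping: from the block inequality and the three-row inequality to
the sum over all pairs of rows. -/
private theorem rowpair_arith (G : Finset R → ℝ) (hGnn : ∀ q, 0 ≤ G q) (u₁ u₂ : R)
    (hu : u₁ ≠ u₂) (V : ℝ)
    (hblock : V ≤ ∑ p ∈ (Finset.univ.erase u₂).powersetCard 2, G (ext u₁ u₂ p))
    (hsoft : ∀ a, a ≠ u₁ → a ≠ u₂ →
      G {a, u₁, u₂} ≤ 6 * (G {u₁, u₂} + G {a, u₂} + G {a, u₁})) :
    V ≤ 6 * (Fintype.card R : ℝ) * ∑ q ∈ (Finset.univ : Finset R).powersetCard 2, G q := by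
  have hQnn : 0 ≤ ∑ q ∈ (Finset.univ : Finset R).powersetCard 2, G q :=
    Finset.sum_nonneg (fun q _ => hGnn q)
  have hcard2 : (2 : ℝ) ≤ (Fintype.card R : ℝ) := by
    have h2 : ({u₁, u₂} : Finset R).card ≤ Fintype.card R := Finset.card_le_univ _
    rw [Finset.card_pair hu] at h2
    exact_mod_cast h2
  refine le_trans hblock ?_
  have hsplit := Finset.sum_filter_add_sum_filter_not
    ((Finset.univ.erase u₂ : Finset R).powersetCard 2) (fun p => u₁ ∈ p)
    (fun p => G (ext u₁ u₂ p))
  rw [← hsplit]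
  -- the pairs of unit rows
  have hpart2 : ∑ p ∈ ((Finset.univ.erase u₂ : Finset R).powersetCard 2).filter
        (fun p => ¬ u₁ ∈ p), G (ext u₁ u₂ p)
      ≤ ∑ q ∈ (Finset.univ : Finset R).powersetCard 2, G q := by
    have hsubset : ((Finset.univ.erase u₂ : Finset R).powersetCard 2).filter
        (fun p => ¬ u₁ ∈ p) ⊆ (Finset.univ : Finset R).powersetCard 2 := by
      intro p hp
      rw [Finset.mem_filter, Finset.mem_powersetCard] at hp
      rw [Finset.mem_powersetCard]
      exact ⟨Finset.subset_univ _, hp.1.2⟩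
    have hterm : ∀ p ∈ ((Finset.univ.erase u₂ : Finset R).powersetCard 2).filter
        (fun p => ¬ u₁ ∈ p), G (ext u₁ u₂ p) = G p := by
      intro p hp
      rw [Finset.mem_filter] at hp
      have he : ext u₁ u₂ p = p := by
        unfold ext
        rw [if_neg hp.2]
      rw [he]
    rw [Finset.sum_congr rfl hterm]
    exact Finset.sum_le_sum_of_subset_of_nonneg hsubset (fun q _ _ => hGnn q)
  -- the blocks of a unit row and the two big rows
  have hterm : ∀ p ∈ ((Finset.univ.erase u₂ : Finset R).powersetCard 2).filter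
      (fun p => u₁ ∈ p),
      G (ext u₁ u₂ p) ≤ 6 * ∑ q ∈ (Finset.univ : Finset R).powersetCard 2, G q := by
    intro p hp
    rw [Finset.mem_filter, Finset.mem_powersetCard] at hp
    obtain ⟨⟨hpS, hp2⟩, h1p⟩ := hp
    obtain ⟨a, ha1, hap, hpE⟩ := pair_with u₁ p hp2 h1p
    have ha2 : a ≠ u₂ := (Finset.mem_erase.mp (hpS hap)).1
    have he : ext u₁ u₂ p = {a, u₁, u₂} := by
      unfold ext
      rw [if_pos h1p, hpE]
      ext i
      simp only [Finset.mem_insert, Finset.mem_singleton]
      constructor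
      · rintro (h | h | h)
        · exact Or.inr (Or.inr h)
        · exact Or.inr (Or.inl h)
        · exact Or.inl h
      · rintro (h | h | h)
        · exact Or.inr (Or.inr h)
        · exact Or.inr (Or.inl h)
        · exact Or.inl h
    rw [he]
    have h3 := three_pairs_le hGnn a u₁ u₂ hu ha1 ha2
    have h4 := hsoft a ha1 ha2
    linarith
  have hcardP := card_pairs_through u₁ ((Finset.univ.erase u₂ : Finset R).powersetCard 2)
    (fun p hp => (Finset.mem_powersetCard.mp hp).2)
  have hsum := Finset.sum_le_card_nsmul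
    (((Finset.univ.erase u₂ : Finset R).powersetCard 2).filter (fun p => u₁ ∈ p))
    (fun p => G (ext u₁ u₂ p))
    (6 * ∑ q ∈ (Finset.univ : Finset R).powersetCard 2, G q) hterm
  rw [nsmul_eq_mul] at hsum
  have hpart1 : ∑ p ∈ ((Finset.univ.erase u₂ : Finset R).powersetCard 2).filter
        (fun p => u₁ ∈ p), G (ext u₁ u₂ p)
      ≤ ((Fintype.card R : ℝ) - 1)
        * (6 * ∑ q ∈ (Finset.univ : Finset R).powersetCard 2, G q) :=
    le_trans hsum (mul_le_mul_of_nonneg_right hcardP (by positivity))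
  nlinarith

/-- All rows except `u₁`, `u₂` have sum 1: Poincare inequality for the row-pair heat bath. -/
theorem rowpair_poincare {r : R → ℕ} {c : C → ℕ} (u₁ u₂ : R) (hu : u₁ ≠ u₂)
    (hunit : ∀ i, i ≠ u₁ → i ≠ u₂ → r i = 1) (f : Tab r c → ℝ) :
    ∑ x, (f x - av (RelOut (Finset.univ : Finset R)) f x) ^ 2
      ≤ 6 * (Fintype.card R : ℝ) * ∑ q ∈ (Finset.univ : Finset R).powersetCard 2,
          ∑ x, (f x - av (RelOut q) f x) ^ 2 := by
  have hGnn : ∀ q : Finset R, 0 ≤ ∑ x, (f x - av (RelOut q) f x) ^ 2 :=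
    fun q => Finset.sum_nonneg (fun _ _ => sq_nonneg _)
  by_cases hex : ∃ a : R, a ≠ u₁ ∧ a ≠ u₂
  · exact rowpair_arith (fun q => ∑ x, (f x - av (RelOut q) f x) ^ 2) hGnn u₁ u₂ hu _
      (block_poincare u₁ u₂ hu hunit hex f)
      (fun a ha1 ha2 => soft_three a u₁ u₂ hu ha1 ha2 (hunit a ha1 ha2) f)
  · -- only the two rows `u₁`, `u₂`
    have huniv : (Finset.univ : Finset R) = {u₁, u₂} := by
      ext i
      simp only [Finset.mem_univ, Finset.mem_insert, Finset.mem_singleton, true_iff]
      by_contra hcon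
      push Not at hcon
      exact hex ⟨i, hcon.1, hcon.2⟩
    have hmem : ({u₁, u₂} : Finset R) ∈ (Finset.univ : Finset R).powersetCard 2 := by
      rw [Finset.mem_powersetCard]
      exact ⟨Finset.subset_univ _, Finset.card_pair hu⟩
    have h1 := Finset.single_le_sum
      (f := fun q : Finset R => ∑ x, (f x - av (RelOut q) f x) ^ 2)
      (fun q _ => hGnn q) hmem
    have hcard2 : (2 : ℝ) ≤ (Fintype.card R : ℝ) := by
      have h2 : ({u₁, u₂} : Finset R).card ≤ Fintype.card R := Finset.card_le_univ _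
      rw [Finset.card_pair hu] at h2
      exact_mod_cast h2
    have hQnn : 0 ≤ ∑ q ∈ (Finset.univ : Finset R).powersetCard 2,
        ∑ x, (f x - av (RelOut q) f x) ^ 2 :=
      Finset.sum_nonneg (fun q _ => hGnn q)
    have h2 : ∑ x, (f x - av (RelOut (Finset.univ : Finset R)) f x) ^ 2
        = ∑ x, (f x - av (RelOut ({u₁, u₂} : Finset R)) f x) ^ 2 := by
      rw [huniv]
    rw [h2]
    have h1' : ∑ x, (f x - av (RelOut ({u₁, u₂} : Finset R)) f x) ^ 2
        ≤ ∑ q ∈ (Finset.univ : Finset R).powersetCard 2,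
          ∑ x, (f x - av (RelOut q) f x) ^ 2 := h1
    nlinarith

end Vale.Agent.Lib.P328.CT
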