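import Vale.Agent.Lib.P335.Bip.Av
import Vale.Agent.Lib.P335.Bip.AvMore

/-!
# P328 / abstract: the Gram inequality with constant 2 for a symmetric pair of relations and a
third relation, from a covariance inequality
-/

namespace Vale.Agent.Lib.P328.CT

open Finset
open scoped Classical
open Vale.Agent.Lib.P335.Bip

variable {X : Type*} [Fintype X]

/-- The algebraic core: after the change of unknowns `g2 = b ∘ τ`, the inequality is a sum of
two squares plus the covariance term, up to reindexing the sums by the involution. -/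
private theorem sym_gram_alg (τ : X → X) (hτ : Function.Involutive τ) (a b c : X → ℝ)
    (hc : ∀ x, c (τ x) = c x)
    (hcov : ∑ x, ((a x + b x) / 2) * ((a (τ x) + b (τ x)) / 2) ≤ 0) :
    ∑ x, (a x + b (τ x) + c x) ^ 2
      ≤ 2 * (∑ x, a x ^ 2 + ∑ x, b (τ x) ^ 2 + ∑ x, c x ^ 2) := by
  have hre : ∀ F : X → ℝ, ∑ x, F (τ x) = ∑ x, F x := fun F =>
    Equiv.sum_comp (Function.Involutive.toPerm τ hτ) F
  have key : ∀ x, 0 ≤
      (2 * (a x ^ 2 + b (τ x) ^ 2 + c x ^ 2) - (a x + b (τ x) + c x) ^ 2)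
      + (2 * (a (τ x) ^ 2 + b (τ (τ x)) ^ 2 + c (τ x) ^ 2)
          - (a (τ x) + b (τ (τ x)) + c (τ x)) ^ 2)
      + 8 * (((a x + b x) / 2) * ((a (τ x) + b (τ x)) / 2)) := by
    intro x
    rw [hτ x, hc x]
    have e : (2 * (a x ^ 2 + b (τ x) ^ 2 + c x ^ 2) - (a x + b (τ x) + c x) ^ 2)
        + (2 * (a (τ x) ^ 2 + b x ^ 2 + c x ^ 2) - (a (τ x) + b x + c x) ^ 2)
        + 8 * (((a x + b x) / 2) * ((a (τ x) + b (τ x)) / 2))
        = 2 * ((a x + b (τ x) + a (τ x) + b x) / 2 - c x) ^ 2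
          + 2 * ((a x - b x + a (τ x) - b (τ x)) / 2) ^ 2 := by ring
    rw [e]
    positivity
  have hsum := Finset.sum_nonneg (fun x (_ : x ∈ (Finset.univ : Finset X)) => key x)
  rw [Finset.sum_add_distrib, Finset.sum_add_distrib, ← Finset.mul_sum] at hsum
  have h2 : ∑ x, (2 * (a (τ x) ^ 2 + b (τ (τ x)) ^ 2 + c (τ x) ^ 2)
        - (a (τ x) + b (τ (τ x)) + c (τ x)) ^ 2)
      = ∑ x, (2 * (a x ^ 2 + b (τ x) ^ 2 + c x ^ 2) - (a x + b (τ x) + c x) ^ 2) :=
    hre (fun x => 2 * (a x ^ 2 + b (τ x) ^ 2 + c x ^ 2) - (a x + b (τ x) + c x) ^ 2)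
  rw [h2] at hsum
  have h3 : ∑ x, (2 * (a x ^ 2 + b (τ x) ^ 2 + c x ^ 2) - (a x + b (τ x) + c x) ^ 2)
      = 2 * (∑ x, a x ^ 2 + ∑ x, b (τ x) ^ 2 + ∑ x, c x ^ 2)
        - ∑ x, (a x + b (τ x) + c x) ^ 2 := by
    rw [Finset.sum_sub_distrib, ← Finset.mul_sum, Finset.sum_add_distrib,
      Finset.sum_add_distrib]
  linarith

/-- `τ` is an involution of `X` that stays inside the classes of `rT`, exchanges the relations
`ri` and `rj`, and stays inside the classes of `s`.  If `∑ x, σ x * σ (τ x) ≤ 0` for every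
`ri`-invariant `σ` with zero average on the `s`-classes, then the Gram inequality with
constant 2 holds for `ri`-, `rj`- and `rT`-invariant functions with zero `s`-averages. -/
theorem sym_gram (rT ri rj s : X → X → Prop) (τ : X → X)
    (hT : Equivalence rT) (hi : Equivalence ri) (hj : Equivalence rj) (hs : Equivalence s)
    (hτ : Function.Involutive τ)
    (hτT : ∀ x, rT x (τ x))
    (hτij : ∀ x y, ri x y → rj (τ x) (τ y))
    (hτji : ∀ x y, rj x y → ri (τ x) (τ y))
    (hτs : ∀ x, s x (τ x))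
    (hcov : ∀ σ : X → ℝ, av ri σ = σ → (∀ x, av s σ x = 0) → ∑ x, σ x * σ (τ x) ≤ 0)
    (g1 g2 g3 : X → ℝ) (e1 : av ri g1 = g1) (e2 : av rj g2 = g2) (e3 : av rT g3 = g3)
    (z1 : ∀ x, av s g1 x = 0) (z2 : ∀ x, av s g2 x = 0) (z3 : ∀ x, av s g3 x = 0) :
    ∑ x, (g1 x + g2 x + g3 x) ^ 2
      ≤ 2 * (∑ x, g1 x ^ 2 + ∑ x, g2 x ^ 2 + ∑ x, g3 x ^ 2) := by
  have _h1 := hτji
  have _h2 := z3
  have i1 : ∀ u v, ri u v → g1 u = g1 v := by
    intro u v h
    have a := congrFun e1 u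
    have b := congrFun e1 v
    rw [← a, ← b]
    exact av_congr_of_rel hi g1 h
  have i2 : ∀ u v, rj u v → g2 u = g2 v := by
    intro u v h
    have a := congrFun e2 u
    have b := congrFun e2 v
    rw [← a, ← b]
    exact av_congr_of_rel hj g2 h
  have i3 : ∀ u v, rT u v → g3 u = g3 v := by
    intro u v h
    have a := congrFun e3 u
    have b := congrFun e3 v
    rw [← a, ← b]
    exact av_congr_of_rel hT g3 h
  have hc : ∀ x, g3 (τ x) = g3 x := fun x => (i3 x (τ x) (hτT x)).symm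
  obtain ⟨b, hb⟩ : ∃ b : X → ℝ, b = fun x => g2 (τ x) := ⟨_, rfl⟩
  have hb2 : ∀ x, g2 x = b (τ x) := by
    intro x
    rw [hb]
    show g2 x = g2 (τ (τ x))
    rw [hτ x]
  have ib : ∀ u v, ri u v → b u = b v := by
    intro u v h
    rw [hb]
    exact i2 _ _ (hτij u v h)
  have hsτ : ∀ x y, s x y ↔ s (τ x) (τ y) := by
    intro x y
    constructor
    · intro h
      exact hs.trans (hs.symm (hτs x)) (hs.trans h (hτs y))
    · intro h
      exact hs.trans (hτs x) (hs.trans h (hs.symm (hτs y)))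
  have zb : ∀ x, av s b x = 0 := by
    intro x
    have h := av_comp_equiv (r := s) (Function.Involutive.toPerm τ hτ) hsτ g2
    have h' := congrFun h x
    rw [hb]
    exact h'.trans (z2 (τ x))
  have hσinv : av ri (fun x => (g1 x + b x) / 2) = fun x => (g1 x + b x) / 2 := by
    apply av_of_invariant hi
    intro x y h
    show (g1 x + b x) / 2 = (g1 y + b y) / 2
    rw [i1 x y h, ib x y h]
  have hσz : ∀ x, av s (fun x => (g1 x + b x) / 2) x = 0 := by
    intro x
    have e : (fun x => (g1 x + b x) / 2) = fun x => (1 / 2 : ℝ) * (g1 x + b x) := by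
      funext y
      ring
    rw [e, av_const_mul, av_add]
    show (1 / 2 : ℝ) * (av s g1 x + av s b x) = 0
    rw [z1 x, zb x]
    ring
  have hcov' := hcov (fun x => (g1 x + b x) / 2) hσinv hσz
  have halg := sym_gram_alg τ hτ g1 b g3 hc hcov'
  simp only [hb2]
  exact halg

end Vale.Agent.Lib.P328.CT
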