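import Vale.Agent.Lib.P328.CT.Defs
import Vale.Agent.Lib.P328.CT.GramProj
import Vale.Agent.Lib.P328.CT.SymGram
import Vale.Agent.Lib.P328.CT.Swap
import Vale.Agent.Lib.P328.CT.CovCount
import Vale.Agent.Lib.P328.CT.CovUnit
import Vale.Agent.Lib.P328.CT.CovComp
import Vale.Agent.Lib.P335.Bip.ThreeIndex

/-!
# P328: the three-body inequalities for the block dynamics

Two unit rows `a`, `b` and a set `D` of further rows (one row, or the two big rows): the three
resamplings `{a, b}`, `{a} ∪ D`, `{b} ∪ D` satisfy the three-body inequality with constant 2.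
-/

namespace Vale.Agent.Lib.P328.CT

open Finset
open scoped Classical
open Vale.Agent.Lib.P335.Bip

variable {R C : Type*} [Fintype R] [Fintype C]

/-- The three-body inequality from the covariance inequality. -/
theorem three_of_cov {r : R → ℕ} {c : C → ℕ} (a b : R) (D : Finset R)
    (haD : a ∉ D) (hbD : b ∉ D) (ha : r a = 1) (hb : r b = 1)
    (hcov : ∀ σ : Tab r c → ℝ, av (RelOut (insert b D)) σ = σ →
      (∀ x, av (RelOut (insert a (insert b D))) σ x = 0) →
      ∑ x, σ x * σ (swapTab a b (ha.trans hb.symm) x) ≤ 0)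
    (g : Tab r c → ℝ) :
    ∑ x, g x * av (RelOut (insert b D)) g x + ∑ x, g x * av (RelOut (insert a D)) g x
        + ∑ x, g x * av (RelOut {a, b}) g x
      ≤ 2 * ∑ x, g x ^ 2 + ∑ x, g x * av (RelOut (insert a (insert b D))) g x := by
  have hsub1 : insert b D ⊆ insert a (insert b D) := Finset.subset_insert _ _
  have hsub2 : insert a D ⊆ insert a (insert b D) :=
    Finset.insert_subset_insert _ (Finset.subset_insert _ _)
  have hsub3 : ({a, b} : Finset R) ⊆ insert a (insert b D) := by
    intro i hi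
    rw [Finset.mem_insert, Finset.mem_singleton] at hi
    rcases hi with rfl | rfl
    · exact Finset.mem_insert_self _ _
    · exact Finset.mem_insert_of_mem (Finset.mem_insert_self _ _)
  have key := gram_to_proj (RelOut (r := r) (c := c) (insert b D)) (RelOut (insert a D))
    (RelOut {a, b}) (RelOut (insert a (insert b D)))
    (relOut_equivalence _) (relOut_equivalence _) (relOut_equivalence _) (relOut_equivalence _)
    (fun _ _ h => relOut_mono hsub1 h) (fun _ _ h => relOut_mono hsub2 h)
    (fun _ _ h => relOut_mono hsub3 h) 2 (by norm_num)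
    (fun g1 g2 g3 e1 e2 e3 z1 z2 z3 =>
      sym_gram (RelOut {a, b}) (RelOut (insert b D)) (RelOut (insert a D))
        (RelOut (insert a (insert b D))) (swapTab a b (ha.trans hb.symm))
        (relOut_equivalence _) (relOut_equivalence _) (relOut_equivalence _)
        (relOut_equivalence _) (swapTab_involutive a b _)
        (fun x => relOut_swapTab a b _ {a, b} (Finset.mem_insert_self _ _)
          (Finset.mem_insert_of_mem (Finset.mem_singleton_self _)) x)
        (fun x y h => relOut_swapTab_insert a b _ D haD hbD x y h)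
        (fun x y h => relOut_swapTab_insert' a b _ D haD hbD x y h)
        (fun x => relOut_swapTab a b _ (insert a (insert b D)) (Finset.mem_insert_self _ _)
          (Finset.mem_insert_of_mem (Finset.mem_insert_self _ _)) x)
        hcov g1 g2 g3 e1 e2 e3 z1 z2 z3)
    g
  linarith

/-- Three unit rows (the third row may have any sum). -/
theorem three_unit {r : R → ℕ} {c : C → ℕ} (a b d : R) (hab : a ≠ b) (had : a ≠ d)
    (hbd : b ≠ d) (ha : r a = 1) (hb : r b = 1) (g : Tab r c → ℝ) :
    ∑ x, g x * av (RelOut {b, d}) g x + ∑ x, g x * av (RelOut {a, d}) g x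
        + ∑ x, g x * av (RelOut {a, b}) g x
      ≤ 2 * ∑ x, g x ^ 2 + ∑ x, g x * av (RelOut {a, b, d}) g x := by
  have haD : a ∉ ({d} : Finset R) := by
    rw [Finset.mem_singleton]
    exact had
  have hbD : b ∉ ({d} : Finset R) := by
    rw [Finset.mem_singleton]
    exact hbd
  exact three_of_cov a b {d} haD hbD ha hb
    (fun σ hσ hz => cov_of_count a b {d} hab haD hbD ha hb
      (fun x₀ => ⟨fun l => x₀.1 a l + x₀.1 b l + x₀.1 d l, 0,
        fun i j => count_unit a b d hab had hbd ha hb x₀ i j⟩) σ hσ hz) g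

/-- Two unit rows and the two big rows. -/
theorem three_comp {r : R → ℕ} {c : C → ℕ} (a b u₁ u₂ : R) (hab : a ≠ b) (hu : u₁ ≠ u₂)
    (ha1 : a ≠ u₁) (ha2 : a ≠ u₂) (hb1 : b ≠ u₁) (hb2 : b ≠ u₂)
    (ha : r a = 1) (hb : r b = 1) (g : Tab r c → ℝ) :
    ∑ x, g x * av (RelOut (insert b {u₁, u₂})) g x
        + ∑ x, g x * av (RelOut (insert a {u₁, u₂})) g x
        + ∑ x, g x * av (RelOut {a, b}) g x
      ≤ 2 * ∑ x, g x ^ 2 + ∑ x, g x * av (RelOut (insert a (insert b {u₁, u₂}))) g x := by
  have haD : a ∉ ({u₁, u₂} : Finset R) := by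
    rw [Finset.mem_insert, Finset.mem_singleton]
    rintro (h | h)
    · exact ha1 h
    · exact ha2 h
  have hbD : b ∉ ({u₁, u₂} : Finset R) := by
    rw [Finset.mem_insert, Finset.mem_singleton]
    rintro (h | h)
    · exact hb1 h
    · exact hb2 h
  exact three_of_cov a b {u₁, u₂} haD hbD ha hb
    (fun σ hσ hz => cov_of_count a b {u₁, u₂} hab haD hbD ha hb
      (fun x₀ => ⟨fun l => x₀.1 a l + x₀.1 b l + x₀.1 u₁ l + x₀.1 u₂ l, r u₁,
        fun i j => count_comp a b u₁ u₂ hab hu ha1 ha2 hb1 hb2 ha hb x₀ i j⟩) σ hσ hz) g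

end Vale.Agent.Lib.P328.CT
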