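import Vale.Agent.Lib.P328.CT.BoxLip
import Vale.Agent.Lib.P328.CT.LipGap

/-!
# P328: two rows - the 2 × 2 heat bath controls the resampling of the two rows

For every pair of rows `a ≠ b` and arbitrary margins, the variance of `f` inside the classes of
the rows `a, b` is at most the sum over all pairs `p` of columns of the variances inside the
2 × 2 classes (rows `a, b`, columns `p`).
-/

namespace Vale.Agent.Lib.P328.CT

open Finset
open scoped Classical
open Vale.Agent.Lib.P335.Bip

variable {R C : Type*} [Fintype R] [Fintype C]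

theorem two_row_poincare {r : R → ℕ} {c : C → ℕ} (hC : 2 ≤ Fintype.card C) (a b : R)
    (hab : a ≠ b) (f : Tab r c → ℝ) :
    ∑ x, (f x - av (RelOut {a, b}) f x) ^ 2
      ≤ ∑ p ∈ (Finset.univ : Finset C).powersetCard 2,
          ∑ x, (f x - av (RelBox {a, b} p) f x) ^ 2 := by
  have hne : ((Finset.univ : Finset C).powersetCard 2).Nonempty := by
    rw [Finset.powersetCard_nonempty, Finset.card_univ]
    exact hC
  refine lip_gap ((Finset.univ : Finset C).powersetCard 2) hne
    (fun p => RelBox (r := r) (c := c) {a, b} p) (RelOut {a, b}) (Adj a b)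
    (fun p _ => relBox_equivalence _ _) (relOut_equivalence _)
    (fun p _ x y h => relBox_relOut _ _ h) (fun x y h => adj_conn a b hab x y h) ?_ f
  intro g Λ hΛ x y hxy
  obtain ⟨p₀, hp₀, hsame⟩ := box_lip_same a b hab x y hxy
  have h0 : |av (RelBox {a, b} p₀) g x - av (RelBox {a, b} p₀) g y| = 0 := by
    rw [av_congr_of_rel (relBox_equivalence _ _) g hsame, sub_self, abs_zero]
  have hle : ∀ p ∈ ((Finset.univ : Finset C).powersetCard 2).erase p₀,
      |av (RelBox {a, b} p) g x - av (RelBox {a, b} p) g y| ≤ Λ :=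
    fun p hp => box_lip a b hab g Λ hΛ x y hxy p (Finset.mem_erase.mp hp).2
  have hsum := Finset.sum_le_card_nsmul _ _ Λ hle
  rw [nsmul_eq_mul, Finset.card_erase_of_mem hp₀] at hsum
  have hcard : (((((Finset.univ : Finset C).powersetCard 2).card - 1 : ℕ)) : ℝ)
      = ((((Finset.univ : Finset C).powersetCard 2).card : ℝ)) - 1 := by
    rw [Nat.cast_sub (Finset.card_pos.mpr hne), Nat.cast_one]
  rw [hcard] at hsum
  calc |∑ p ∈ (Finset.univ : Finset C).powersetCard 2,
          (av (RelBox {a, b} p) g x - av (RelBox {a, b} p) g y)|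
      ≤ ∑ p ∈ (Finset.univ : Finset C).powersetCard 2,
          |av (RelBox {a, b} p) g x - av (RelBox {a, b} p) g y| :=
        Finset.abs_sum_le_sum_abs _ _
    _ = ∑ p ∈ ((Finset.univ : Finset C).powersetCard 2).erase p₀,
          |av (RelBox {a, b} p) g x - av (RelBox {a, b} p) g y| := by
        rw [← Finset.sum_erase_add _ _ hp₀, h0, add_zero]
    _ ≤ ((((Finset.univ : Finset C).powersetCard 2).card : ℝ) - 1) * Λ := hsum

end Vale.Agent.Lib.P328.CT
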